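import Crest.Agent.R121.Defs

/-!
# Row 121: basic theory of abstract W⋆-algebras

PLANS.
* `exists_proj_ideal`: index by (finite `F ⊆ L`, `n`), `h = ∑_{y ∈ F} y⋆ y`, `r = 1 - (1 + n² h²)⁻¹ ∈ L`
  (`R95.Wk.res`), take an ultralimit `s` along an ultrafilter finer than `atTop`;
  `‖y (1 - r)‖² ≤ ‖res h res‖ ≤ 1/n` for `y ∈ F`; so `y s = y` for `y ∈ L`, `s⋆ = s`, `s s = s`.
* `ann`, `central`, `supp`: instances.  For `central`: the ideal is two-sided, `z a z = z a` and adjoints.
  For `supp`: `ω (y⋆ y) = 0 ↔ ∀ x, ω (x y) = 0` by Cauchy–Schwarz.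
* `sp`: `b = (a - t)₊`, `e = 1 - s` with `s` from `ann {b}`.
* `pol`: `e` from `sp (x⋆x) t`, `g = cfc (fun s => (max s t)^(-1/2)) (x⋆x) * e`, `w = x g`.
-/

set_option autoImplicit false

namespace Crest.Agent.R121

open Filter Topology
open scoped ComplexConjugate ComplexOrder

universe u v

variable {A : Type u} [CStarAlgebra A]

theorem IsPos.star_apply {ω : A →L[ℂ] ℂ} (h : IsPos ω) (x : A) : ω (star x) = conj (ω x) := by
  have h0 := (Complex.nonneg_iff.1 (h 1)).2
  have h1 := (Complex.nonneg_iff.1 (h x)).2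
  have h2 := (Complex.nonneg_iff.1 (h (1 + x))).2
  have h3 := (Complex.nonneg_iff.1 (h (1 + Complex.I • x))).2
  simp only [star_add, star_one, one_mul, mul_one, add_mul, mul_add, map_add, star_smul,
    smul_mul_assoc, mul_smul_comm, map_smul, smul_eq_mul, Complex.add_im, Complex.mul_im,
    Complex.star_def, Complex.conj_I, Complex.I_re, Complex.I_im, Complex.neg_re, Complex.neg_im,
    Complex.mul_re] at h0 h2 h3
  apply Complex.ext
  · simp only [Complex.conj_re]; linarith
  · simp only [Complex.conj_im]; linarith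

theorem IsPos.cs {ω : A →L[ℂ] ℂ} (h : IsPos ω) (x y : A) :
    ‖ω (star x * y)‖ ^ 2 ≤ (ω (star x * x)).re * (ω (star y * y)).re := by
  let c : PreInnerProductSpace.Core ℂ A :=
    { inner := fun x y => ω (star x * y)
      conj_inner_symm := fun x y => by rw [← h.star_apply, star_mul, star_star]
      re_inner_nonneg := fun x => (Complex.nonneg_iff.1 (h x)).1
      add_left := fun x y z => by simp [add_mul]
      smul_left := fun x y r => by simp }
  have h1 : ‖ω (star x * y)‖ * ‖ω (star y * x)‖ ≤ (ω (star x * x)).re * (ω (star y * y)).re :=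
    InnerProductSpace.Core.inner_mul_inner_self_le (c := c) x y
  have h2 : ‖ω (star y * x)‖ = ‖ω (star x * y)‖ := by
    rw [← Complex.norm_conj, ← h.star_apply, star_mul, star_star]
  rwa [h2, ← sq] at h1

/-- nonnegative functions of a self-adjoint element are squares -/
theorem exists_sq_cfc (a : A) {f : ℝ → ℝ} (hf : Continuous f) (h0 : ∀ t ∈ spectrum ℝ a, 0 ≤ f t) :
    ∃ g : A, star g * g = cfc f a := by
  refine ⟨cfc (fun t => √(f t)) a, ?_⟩
  rw [(IsSelfAdjoint.cfc (f := fun t => √(f t)) (a := a)).star_eq, ← cfc_mul _ _ a]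
  exact cfc_congr fun t ht => Real.mul_self_sqrt (h0 t ht)

theorem exists_sq_norm_sub (a : A) : ∃ g : A, star g * g = ((‖a‖ ^ 2 : ℝ) : ℂ) • 1 - star a * a := by
  have hb : IsSelfAdjoint (star a * a) := IsSelfAdjoint.star_mul_self a
  obtain ⟨g, hg⟩ := exists_sq_cfc (star a * a) (f := fun t => ‖a‖ ^ 2 - t) (by fun_prop)
    fun t ht => by
      rcases subsingleton_or_nontrivial A with hA | hA
      · simp [spectrum.of_subsingleton] at ht
      · have := spectrum.norm_le_norm_of_mem ht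
        rw [CStarRing.norm_star_mul_self, ← sq, Real.norm_eq_abs] at this
        linarith [le_abs_self t]
  refine ⟨g, ?_⟩
  rw [hg, cfc_sub _ _ (star a * a), cfc_const _ (star a * a), cfc_id' ℝ (star a * a),
    Algebra.algebraMap_eq_smul_one, Complex.coe_smul]

theorem IsPos.mul_le {ω : A →L[ℂ] ℂ} (h : IsPos ω) (a x : A) :
    (ω (star (a * x) * (a * x))).re ≤ ‖a‖ ^ 2 * (ω (star x * x)).re := by
  obtain ⟨g, hg⟩ := exists_sq_norm_sub a
  have h1 := (Complex.nonneg_iff.1 (h (g * x))).1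
  have h2 : star (g * x) * (g * x) =
      ((‖a‖ ^ 2 : ℝ) : ℂ) • (star x * x) - star (a * x) * (a * x) := by
    rw [star_mul, mul_assoc, ← mul_assoc (star g), hg, star_mul]
    simp only [sub_mul, mul_sub, smul_mul_assoc, mul_smul_comm, one_mul, mul_assoc]
  rw [h2, map_sub, map_smul, smul_eq_mul, Complex.sub_re, Complex.re_ofReal_mul] at h1
  linarith

theorem norm_sq_le_add (a b : A) : ‖a‖ ^ 2 ≤ ‖star a * a + star b * b‖ := by
  let _ := CStarAlgebra.spectralOrder A
  let _ := CStarAlgebra.spectralOrderedRing A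
  rw [sq, ← CStarRing.norm_star_mul_self]
  exact CStarAlgebra.norm_le_norm_of_nonneg_of_le (star_mul_self_nonneg a)
    (le_add_of_nonneg_right (star_mul_self_nonneg b))

theorem norm_sq_le_sum {ι : Type*} (s : Finset ι) (a : ι → A) {i : ι} (hi : i ∈ s) :
    ‖a i‖ ^ 2 ≤ ‖∑ j ∈ s, star (a j) * a j‖ := by
  let _ := CStarAlgebra.spectralOrder A
  let _ := CStarAlgebra.spectralOrderedRing A
  rw [sq, ← CStarRing.norm_star_mul_self]
  exact CStarAlgebra.norm_le_norm_of_nonneg_of_le (star_mul_self_nonneg _)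
    (Finset.single_le_sum (f := fun j => star (a j) * a j) (fun j _ => star_mul_self_nonneg _) hi)

open R95.Wk in
theorem WS.exists_proj_ideal (W : WS A) (L : Submodule A A)
    (hL : ∀ (𝒰 : Ultrafilter A) (b : A), (∀ᶠ x in (𝒰 : Filter A), x ∈ L) → W.T 𝒰 id b → b ∈ L) :
    ∃ s ∈ L, IsStarProjection s ∧ ∀ y ∈ L, y * s = y := by
  classical
  let h : Finset L → A := fun F => ∑ y ∈ F, star (y : A) * y
  have hsa : ∀ F, IsSelfAdjoint (h F) := fun F => by
    simp only [IsSelfAdjoint, h, star_sum, star_mul, star_star]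
  have hm : ∀ F, h F ∈ L := fun F => L.sum_mem fun y _ => L.smul_mem (star (y : A)) y.2
  let r : Finset L × ℕ → A := fun p => 1 - res (p.2 : ℝ) (h p.1)
  have hr : ∀ p, r p ∈ L := fun p => by
    have h1 := res_mul (hsa p.1) p.2
    have h2 : r p = (((p.2 : ℝ) ^ 2) • (res (p.2 : ℝ) (h p.1) * h p.1)) • h p.1 := by
      simp only [r]
      nth_rewrite 1 [← h1]
      simp only [mul_add, mul_one, mul_smul_comm, smul_eq_mul, smul_mul_assoc, mul_assoc,
        add_sub_cancel_left]
    rw [h2]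
    exact L.smul_mem _ (hm _)
  let 𝒰 : Ultrafilter (Finset L × ℕ) := Ultrafilter.of atTop
  have h𝒰 : (𝒰 : Filter (Finset L × ℕ)) ≤ atTop := Ultrafilter.of_le _
  obtain ⟨s, -, hs⟩ := W.exists_T 𝒰 r (C := 2) (Eventually.of_forall fun p =>
    (norm_sub_le _ _).trans (by
      have h1 := norm_res_le (p.2 : ℝ) (h p.1)
      have h2 : ‖(1 : A)‖ ≤ 1 := (IsStarProjection.one A).norm_le _
      linarith))
  have sL : s ∈ L := hL (𝒰.map r) s (by
    rw [Ultrafilter.coe_map, eventually_map]; exact Eventually.of_forall hr)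
    fun φ hφ => by rw [Ultrafilter.coe_map, tendsto_map'_iff]; exact hs φ hφ
  have key : ∀ y ∈ L, y * s = y := fun y hy => by
    refine (hs.mul_left y).unique ((WS.T.of_tendsto W ?_).mono h𝒰)
    rw [tendsto_iff_norm_sub_tendsto_zero]
    have t1 : Tendsto (fun p : Finset L × ℕ => √((p.2 : ℝ)⁻¹)) atTop (𝓝 0) := by
      have t2 : Tendsto (fun p : Finset L × ℕ => p.2) atTop atTop := by
        rw [← prod_atTop_atTop_eq]; exact tendsto_snd
      simpa using (tendsto_inv_atTop_nhds_zero_nat.comp t2).sqrt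
    refine squeeze_zero' (Eventually.of_forall fun p => norm_nonneg _) ?_ t1
    filter_upwards [eventually_ge_atTop (({⟨y, hy⟩} : Finset L), 1)] with p hp
    have h1 : (⟨y, hy⟩ : L) ∈ p.1 := hp.1 (Finset.mem_singleton_self _)
    have h2 : (0 : ℝ) < p.2 := by exact_mod_cast hp.2
    have h3 := norm_sq_le_sum p.1 (fun y : L => (y : A) * res (p.2 : ℝ) (h p.1)) h1
    have h4 : ∑ j ∈ p.1, star ((j : A) * res (p.2 : ℝ) (h p.1)) * (j * res (p.2 : ℝ) (h p.1)) =
        res (p.2 : ℝ) (h p.1) * (h p.1 * res (p.2 : ℝ) (h p.1)) := by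
      conv_rhs => enter [2, 1]; simp only [h]
      rw [Finset.sum_mul, Finset.mul_sum]
      exact Finset.sum_congr rfl fun j _ => by
        rw [star_mul, (res_sa _ _).star_eq]; simp only [mul_assoc]
    rw [h4] at h3
    have h5 : y * r p - y = -(y * res (p.2 : ℝ) (h p.1)) := by simp [r, mul_sub]
    rw [h5, norm_neg]
    refine Real.le_sqrt_of_sq_le (h3.trans ((norm_mul_le _ _).trans ?_))
    exact (mul_le_mul (norm_res_le _ _) (norm_mul_res_le (hsa _) h2) (norm_nonneg _)
      zero_le_one).trans (by simp)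
  refine ⟨s, sL, ⟨key s sL, ?_⟩, key⟩
  refine hs.star.unique (hs.congr' (Eventually.of_forall fun p => ?_))
  simp only [r, star_sub, star_one, (res_sa _ _).star_eq]

theorem WS.T.eq_zero {W : WS A} {𝒰 : Ultrafilter A} {b : A} (h : W.T 𝒰 id b) (c : A)
    (h0 : ∀ᶠ x in (𝒰 : Filter A), x * c = 0) : b * c = 0 :=
  (h.mul_right c).unique ((WS.T.const W _ 0).congr' (h0.mono fun _ hx => hx.symm))

theorem WS.ann (W : WS A) (S : Set A) :
    ∃ s, IsStarProjection s ∧ ∀ y, (∀ a ∈ S, y * a = 0) ↔ y * s = y := by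
  let L : Submodule A A :=
    { carrier := {y | ∀ a ∈ S, y * a = 0}
      add_mem' := fun hx hy a ha => by rw [add_mul, hx a ha, hy a ha, add_zero]
      zero_mem' := fun a _ => zero_mul a
      smul_mem' := fun c y hy a ha => by rw [smul_eq_mul, mul_assoc, hy a ha, mul_zero] }
  obtain ⟨s, h1, h2, h3⟩ := W.exists_proj_ideal L fun 𝒰 b h hb a ha =>
    hb.eq_zero a (h.mono fun x hx => hx a ha)
  exact ⟨s, h2, fun y => ⟨h3 y, fun h a ha => by rw [← h, mul_assoc, h1 a ha, mul_zero]⟩⟩

theorem WS.central (W : WS A) (S : Set A) :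
    ∃ z, IsCP z ∧ ∀ y, (∀ a ∈ S, ∀ x, y * x * a = 0) ↔ y * z = y := by
  obtain ⟨z, h1, h2⟩ := W.ann {b | ∃ a ∈ S, ∃ x, b = x * a}
  have h3 : ∀ y, (∀ a ∈ S, ∀ x, y * x * a = 0) ↔ y * z = y := fun y => by
    rw [← h2]
    exact ⟨by rintro h _ ⟨a, ha, x, rfl⟩; rw [← mul_assoc, h a ha],
      fun h a ha x => by rw [mul_assoc]; exact h _ ⟨a, ha, x, rfl⟩⟩
  have h4 : ∀ a, z * a * z = z * a := fun a => (h3 _).1 fun b hb x => by
    rw [mul_assoc z]; exact (h3 z).2 h1.isIdempotentElem.eq b hb _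
  refine ⟨z, ⟨h1, fun a => ?_⟩, h3⟩
  have h5 := congrArg star (h4 (star a))
  simp only [star_mul, star_star, h1.isSelfAdjoint.star_eq] at h5
  rw [← h4, ← h5, mul_assoc]

theorem WS.supp (W : WS A) {ω : A →L[ℂ] ℂ} (hω : ω ∈ W.Φ) (h : IsPos ω) :
    ∃ s, IsStarProjection s ∧ ∀ y, ω (star y * y) = 0 ↔ y * s = y := by
  let L : Submodule A A :=
    { carrier := {y | ∀ x, ω (x * y) = 0}
      add_mem' := fun hx hy a => by rw [mul_add, map_add, hx a, hy a, add_zero]
      zero_mem' := fun a => by simp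
      smul_mem' := fun c y hy a => by rw [smul_eq_mul, ← mul_assoc]; exact hy _ }
  obtain ⟨s, h1, h2, h3⟩ := W.exists_proj_ideal L fun 𝒰 b hx hb a => by
    refine tendsto_nhds_unique (hb.mul_left a ω hω) (tendsto_const_nhds.congr' ?_)
    exact hx.mono fun x hx => (hx a).symm
  refine ⟨s, h2, fun y => ⟨fun hy => h3 y fun x => ?_, fun hy => ?_⟩⟩
  · have := h.cs (star x) y
    rw [hy, star_star] at this
    simpa using this
  · nth_rewrite 2 [← hy]
    rw [← mul_assoc]; exact h1 _

/-- spectral projections -/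
theorem WS.sp (W : WS A) {a : A} (ha : IsSelfAdjoint a) (t : ℝ) :
    ∃ e, IsStarProjection e ∧ (∀ y, y * a = a * y → y * e = e * y) ∧
      (∃ g, star g * g = e * (a - (t : ℂ) • 1)) ∧ (∃ g, star g * g = (1 - e) * ((t : ℂ) • 1 - a)) ∧
      ∀ y, y * e = 0 ↔ y * cfc (fun s : ℝ => max (s - t) 0) a = 0 := by
  set b := cfc (fun s : ℝ => max (s - t) 0) a with hb
  set c := cfc (fun s : ℝ => max (t - s) 0) a with hc
  have sb : star b = b := IsSelfAdjoint.cfc
  have sc : star c = c := IsSelfAdjoint.cfc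
  have h1 : a - (t : ℂ) • 1 = b - c := by
    rw [hb, hc, ← cfc_sub _ _ a, Complex.coe_smul, ← Algebra.algebraMap_eq_smul_one,
      ← cfc_const t a]
    nth_rewrite 1 [← cfc_id' ℝ a]
    rw [← cfc_sub _ _ a]
    congr 1
    funext s
    rcases le_total s t with h | h
    · rw [max_eq_right (by linarith), max_eq_left (by linarith)]; ring
    · rw [max_eq_left (by linarith), max_eq_right (by linarith)]; ring
  have h2 : c * b = 0 := by
    rw [hb, hc, ← cfc_mul _ _ a, ← cfc_zero ℝ a]
    congr 1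
    funext s
    rcases le_total s t with h | h
    · rw [max_eq_right (a := s - t) (by linarith)]; simp
    · rw [max_eq_right (a := t - s) (by linarith)]; simp
  obtain ⟨s, hs, h3⟩ := W.ann {b}
  simp only [Set.mem_singleton_iff, forall_eq] at h3
  have ss := hs.isSelfAdjoint.star_eq
  have h4 : s * b = 0 := (h3 s).2 hs.isIdempotentElem.eq
  have h5 : s * c = c := by
    have := congrArg star ((h3 c).1 h2)
    rwa [star_mul, ss, sc] at this
  refine ⟨1 - s, hs.one_sub, fun y hy => ?_, ?_, ?_, fun y => ?_⟩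
  · have key : ∀ y, y * a = a * y → s * y * s = s * y := fun y hy => (h3 _).1 (by
      have : b * y = y * b := (Commute.cfc_real (show Commute a y from hy.symm) _).eq
      rw [mul_assoc, ← this, ← mul_assoc, h4, zero_mul])
    have h6 := congrArg star (key (star y) (by
      have := congrArg star hy
      rwa [star_mul, star_mul, ha.star_eq, eq_comm] at this))
    simp only [star_mul, star_star, ss] at h6
    rw [mul_sub, sub_mul, ← h6, ← mul_assoc, key y hy, mul_one, one_mul]
  · obtain ⟨g, hg⟩ := exists_sq_cfc a (f := fun s : ℝ => max (s - t) 0) (by fun_prop)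
      fun _ _ => le_max_right _ _
    exact ⟨g, by rw [hg, h1, sub_mul, one_mul, mul_sub, h4, h5, ← hb]; abel⟩
  · obtain ⟨g, hg⟩ := exists_sq_cfc a (f := fun s : ℝ => max (t - s) 0) (by fun_prop)
      fun _ _ => le_max_right _ _
    exact ⟨g, by rw [hg, ← neg_sub a, h1, sub_sub_cancel, neg_sub, mul_sub, h4, h5, sub_zero]⟩
  · rw [h3, mul_sub, mul_one, sub_eq_zero, eq_comm]

/-- a piece of the polar decomposition -/
theorem WS.pol (W : WS A) (x : A) {t : ℝ} (ht : 0 < t) :
    ∃ e g, IsStarProjection e ∧ (∀ y, y * (star x * x) = (star x * x) * y → y * e = e * y) ∧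
      (∀ y, y * (star x * x) = 0 → y * e = 0) ∧ g * e = g ∧ star (x * g) * (x * g) = e ∧
      x * g * star (x * g) * (x * e) = x * e ∧
      (∃ d, star d * d = e * (star x * x - (t : ℂ) • 1)) ∧ ‖x * (1 - e)‖ ^ 2 ≤ t := by
  have ha : IsSelfAdjoint (star x * x) := IsSelfAdjoint.star_mul_self x
  set h := star x * x with hh
  obtain ⟨e, pe, h1, h2, ⟨d, h3⟩, h4⟩ := W.sp ha t
  have hpos : ∀ s : ℝ, 0 < max s t := fun s => ht.trans_le (le_max_right _ _)
  obtain ⟨u₁, c1, d1⟩ : ∃ u : ℝ → ℝ, Continuous u ∧ ∀ s, u s = (max s t)⁻¹ :=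
    ⟨_, Continuous.inv₀ (by fun_prop) fun s => (hpos s).ne', fun _ => rfl⟩
  obtain ⟨u₂, c2, d2⟩ : ∃ u : ℝ → ℝ, Continuous u ∧ ∀ s, u s = (√(max s t))⁻¹ :=
    ⟨_, Continuous.inv₀ (by fun_prop) fun s => (Real.sqrt_pos.2 (hpos s)).ne', fun _ => rfl⟩
  set G := cfc u₂ h with hG
  have sG : star G = G := IsSelfAdjoint.cfc
  have se := pe.isSelfAdjoint.star_eq
  have ee := pe.isIdempotentElem.eq
  have Gh : G * h = h * G := (Commute.cfc_real (Commute.refl h) _).eq
  have Ge : G * e = e * G := h1 G Gh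
  have he : h * e = e * h := h1 h rfl
  have k1 : G * h * G * e = e := by
    have b1 : G * h * G = cfc (fun s : ℝ => u₂ s * s * u₂ s) h := by
      rw [cfc_mul _ _ h, cfc_mul _ _ h, cfc_id' ℝ h]
    have b2 : (1 - G * h * G) * e = 0 := by
      rw [h4, b1, ← cfc_const_one ℝ h, ← cfc_sub _ _ h, ← cfc_mul _ _ h, ← cfc_zero ℝ h]
      congr 1
      funext s
      rcases le_total s t with hs | hs
      · rw [max_eq_right (a := s - t) (by linarith)]; simp
      · have b3 := hpos s
        rw [d2]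
        rw [max_eq_left hs] at b3 ⊢
        have b4 : (√s)⁻¹ * s * (√s)⁻¹ = 1 := by
          have := Real.sqrt_pos.2 b3
          nth_rewrite 2 [← Real.mul_self_sqrt b3.le]
          field_simp
        rw [b4]; simp
    rw [sub_mul, one_mul, sub_eq_zero] at b2
    exact b2.symm
  refine ⟨e, G * e, pe, h1, fun y hy => ?_, by rw [mul_assoc, ee], ?_, ?_, h2, ?_⟩
  · rw [h4]
    have : cfc (fun s : ℝ => max (s - t) 0) h =
        h * cfc (fun s : ℝ => max (s - t) 0 * u₁ s) h := by
      nth_rewrite 2 [← cfc_id' ℝ h]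
      rw [← cfc_mul _ _ h]
      congr 1
      funext s
      rcases le_total s t with hs | hs
      · rw [max_eq_right (a := s - t) (by linarith)]; simp
      · have b3 := hpos s
        rw [d1]
        rw [max_eq_left hs] at b3 ⊢
        field_simp
    rw [this, ← mul_assoc, hy, zero_mul]
  · calc _ = e * (G * h * G * e) := by
          rw [star_mul, star_mul, se, sG, hh]; simp only [mul_assoc]
      _ = e := by rw [k1, ee]
  · calc _ = x * (G * e * e * G * h * e) := by
          rw [star_mul, star_mul, se, sG, hh]; simp only [mul_assoc]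
      _ = x * (G * h * G * e) := by
          rw [mul_assoc G e e, ee, mul_assoc G e G, ← Ge, mul_assoc _ h e, he]
          simp only [mul_assoc]
          rw [← mul_assoc e e, ee, ← he, ← mul_assoc G h e, Gh, mul_assoc]
      _ = _ := by rw [k1]
  · refine (norm_sq_le_add _ d).trans ?_
    have pe' := pe.one_sub
    have b : star (x * (1 - e)) * (x * (1 - e)) + star d * d = (t : ℂ) • (1 - e) := by
      have b1 : h * (1 - e) = (1 - e) * h := by rw [mul_sub, sub_mul, he, mul_one, one_mul]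
      rw [h3, star_mul, pe'.isSelfAdjoint.star_eq, mul_assoc, ← mul_assoc (star x), ← hh, b1,
        ← mul_assoc, pe'.isIdempotentElem.eq, mul_sub (1 - e), mul_smul_comm, mul_one]
      abel
    rw [b, norm_smul, Complex.norm_real, Real.norm_of_nonneg ht.le]
    exact mul_le_of_le_one_right ht.le (pe'.norm_le _)

theorem IsPI.proj_left {v : A} (h : IsPI v) : IsStarProjection (star v * v) :=
  ⟨by rw [IsIdempotentElem, mul_assoc, ← mul_assoc v, h], IsSelfAdjoint.star_mul_self v⟩

theorem IsPI.proj_right {v : A} (h : IsPI v) : IsStarProjection (v * star v) :=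
  ⟨by rw [IsIdempotentElem, ← mul_assoc, h], IsSelfAdjoint.mul_star_self v⟩

theorem isPI_of_proj {v : A} (h : IsStarProjection (star v * v)) : IsPI v := by
  have h1 := h.isIdempotentElem.eq
  rw [IsPI, ← sub_eq_zero, ← CStarRing.star_mul_self_eq_zero_iff]
  simp only [star_sub, star_mul, star_star, sub_mul, mul_sub]
  simp only [mul_assoc] at h1 ⊢
  rw [h1, h1, sub_self]

theorem WS.exists_pi (W : WS A) {x : A} (hx : x ≠ 0) :
    ∃ w, w ≠ 0 ∧ IsPI w ∧ (∀ q, q * x = x → q * w = w) ∧ ∀ p, x * p = x → w * p = w := by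
  have h0 : 0 < ‖x‖ ^ 2 := pow_pos (norm_pos_iff.2 hx) 2
  obtain ⟨e, g, pe, -, h2, h3, h4, -, -, h5⟩ := W.pol x (half_pos h0)
  refine ⟨x * g, fun h => ?_, isPI_of_proj (h4 ▸ pe), fun q hq => by rw [← mul_assoc, hq],
    fun p hp => ?_⟩
  · rw [h, mul_zero] at h4
    rw [← h4, sub_zero, mul_one] at h5
    linarith
  · have b1 := h2 (star (1 - p)) (by
      rw [← mul_assoc, ← star_mul, mul_sub, mul_one, hp, sub_self, star_zero, zero_mul])
    have b2 := congrArg star b1
    rw [star_mul, star_star, pe.isSelfAdjoint.star_eq, star_zero, mul_sub, mul_one,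
      sub_eq_zero] at b2
    rw [← h3, mul_assoc, mul_assoc, ← b2]

end Crest.Agent.R121
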