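import Crest.Agent.R121.Defs
import Crest.Agent.R124.Sh.Signs

/-!
# Row 121: test inequalities

PLANS.
* `exists_coef`: `β m = r^m / m` for `1 ≤ m ≤ N`; `Complex.hasSum_taylorSeries_neg_log`,
  `∑ r^m (ζ^m - ζ̄^m)/m = 2 i Im (-log (1 - r ζ))`, `|arg| ≤ π`; the tail is `≤ 2 r^N/(1-r)`;
  `∑ r^m/m → -log (1 - r)` (or use divergence of the harmonic series: first `M` with `∑_{m ≤ M} 1/m ≥ 2G`,
  then `r` with `r^M ≥ 1/2`).
* `norm_sum_mul_le`: `CStarModule.norm_inner_le` for `C⋆ᵐᵒᵈ(A, ι → A)`, or directly.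
* `toep`: `q > k + N`, `ω` a primitive `q`-th root of unity, `f ζ = ∑ β m (ζ^m - ζ̄^m)`;
  `tp β i j = (1/q) ∑_t f(ω^t) ω^{t i} ω̄^{t j}`; put `a' t ρ = f(ω^t) ∑_i ω^{t i} a i ρ`,
  `b' t ρ = ∑_j ω̄^{t j} b j ρ`; `(1/q) ∑_t b'⋆b' = ∑ b⋆b`; to handle `f` use
  `∑ c_t² x_t x_t⋆ ≤ 64 ∑ x_t x_t⋆`.
* `fejer`: `g_t = ∑_{j<L} ω^{tj} c^j`, `f_t = ∑ β m ((ω^t c)^m - (ω^t c)⋆^m)`, `‖f_t‖ ≤ 8` (cfc or spectral
  radius of a normal element), `|τ (g_t⋆ b θ (x f_t) g_t)|`-type Cauchy–Schwarz (`g_t` commutes with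
  nothing else, use traciality: `τ (b θ(x f_t) g_t g_t⋆) = τ (g_t⋆ b θ(x f_t) g_t)`), average over
  `t < q`, `q > N + L`, `(1/q) ∑_t τ (g_t⋆ g_t) = L`; one gets the weights `(L - m)/L`; `L → ∞`.
* `signAvg`: average over `ε` (`R124` `Sh.moment2`).
* `chaos`: expand `(Λ V)^(m+1)` along paths `π : Fin (m+1) → ι`, group by the content
  `γ c = #{s | π s = c} < q`; the characters `t ↦ ∏_c ω^(t c * γ c)` are orthogonal; for fixed `γ` at most
  `m + 1` colours `c = π 0` occur.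
-/

set_option autoImplicit false

namespace Crest.Agent.R121

open Filter Topology
open scoped ComplexConjugate ComplexOrder

universe u v

variable {A : Type u} [CStarAlgebra A]

theorem exists_coef (G : ℝ) : ∃ N β, Coef N β ∧ G ≤ ∑ m ∈ Finset.range (N + 1), β m := by
  obtain ⟨r, hr⟩ : ∃ r, r = 1 - Real.exp (-(|G| + 1)) := ⟨_, rfl⟩
  have r1 : r < 1 := by linarith [Real.exp_pos (-(|G| + 1))]
  have r0 : 0 ≤ r := by
    have := Real.exp_le_one_iff.2 (show -(|G| + 1) ≤ 0 by linarith [abs_nonneg G])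
    linarith
  have h1 : Tendsto (fun n => ∑ m ∈ Finset.range (n + 1), r ^ m / m) atTop (𝓝 (|G| + 1)) := by
    have := (Real.hasSum_pow_div_log_of_abs_lt_one (x := r) (by rwa [abs_of_nonneg r0])).tendsto_sum_nat
    rw [show 1 - r = Real.exp (-(|G| + 1)) by linarith, Real.log_exp, neg_neg] at this
    simpa [Finset.sum_range_succ'] using this
  have h2 : Tendsto (fun n : ℕ => 1 * r ^ (n + 1) / (1 - r)) atTop (𝓝 0) := by
    simpa using (((tendsto_pow_atTop_nhds_zero_of_lt_one r0 r1).comp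
      (tendsto_add_atTop_nat 1)).const_mul 1).div_const (1 - r)
  obtain ⟨N, h3, h4⟩ := ((h1.eventually (lt_mem_nhds (show G < |G| + 1 by
    linarith [le_abs_self G]))).and (h2.eventually (gt_mem_nhds (show (0 : ℝ) < 1 / 2 by norm_num)))).exists
  have e : ∀ m ∈ Finset.range (N + 1), (if m ≤ N then r ^ m / m else 0) = r ^ m / m :=
    fun m hm => if_pos (by simpa [Nat.lt_succ_iff] using hm)
  refine ⟨N, fun m => if m ≤ N then r ^ m / m else 0, ⟨fun m => by positivity, by simp,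
    fun m hm => if_neg (by omega), fun ζ hζ => ?_⟩, by rw [Finset.sum_congr rfl e]; exact h3.le⟩
  have n1 : ‖(r : ℂ) * ζ‖ = r := by simp [hζ, abs_of_nonneg r0]
  have h5 := norm_sub_le_of_geometric_bound_of_hasSum (C := 1) r1 (fun n => by
    rw [norm_div, norm_pow, n1, one_mul, Complex.norm_natCast]
    rcases n.eq_zero_or_pos with rfl | hn
    · simp
    · exact div_le_self (by positivity) (by exact_mod_cast hn))
    (Complex.hasSum_taylorSeries_neg_log (z := r * ζ) (by rwa [n1])) (N + 1)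
  set S := ∑ x ∈ Finset.range (N + 1), ((r : ℂ) * ζ) ^ x / x with hS
  have h6 : ∑ m ∈ Finset.range (N + 1),
      ((if m ≤ N then r ^ m / m else 0 : ℝ) : ℂ) * (ζ ^ m - conj ζ ^ m) = S - conj S := by
    rw [hS, map_sum, ← Finset.sum_sub_distrib]
    refine Finset.sum_congr rfl fun m hm => ?_
    rw [e m hm]
    simp only [map_div₀, map_pow, map_mul, Complex.conj_ofReal, Complex.conj_natCast]
    push_cast
    ring
  rw [h6, Complex.sub_conj, norm_mul, Complex.norm_I, mul_one, Complex.norm_real, norm_mul,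
    Real.norm_eq_abs, Real.norm_eq_abs]
  have h7 := Complex.abs_im_le_norm (S - -Complex.log (1 - r * ζ))
  have h8 := Complex.abs_arg_le_pi (1 - r * ζ)
  rw [sub_neg_eq_add, Complex.add_im, Complex.log_im, ← sub_neg_eq_add S] at h7
  have h9 := abs_sub (S.im + (1 - r * ζ).arg) (1 - r * ζ).arg
  rw [add_sub_cancel_right] at h9
  rw [abs_two]
  linarith [Real.pi_lt_d2]

theorem norm_sum_mul_le {ι : Type*} [Fintype ι] (a b : ι → A) :
    ‖∑ i, a i * b i‖ ≤ √‖∑ i, a i * star (a i)‖ * √‖∑ i, star (b i) * b i‖ := by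
  letI := CStarAlgebra.spectralOrder A
  haveI := CStarAlgebra.spectralOrderedRing A
  have := CStarModule.norm_inner_le (A := A) (WithCStarModule A (ι → A))
    (x := (WithCStarModule.equiv A _).symm fun i => star (b i)) (y := (WithCStarModule.equiv A _).symm a)
  simpa [WithCStarModule.pi_inner, WithCStarModule.pi_norm, WithCStarModule.inner_def, mul_comm]
    using this

namespace TestAux

open Finset

theorem orth {q : ℕ} {ω : ℂ} (hω : IsPrimitiveRoot ω q) {a b : ℕ} (ha : a < q) (hb : b < q) :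
    ∑ t ∈ range q, (ω ^ t) ^ a * conj ((ω ^ t) ^ b) = if a = b then (q : ℂ) else 0 := by
  have h1 : ω * conj ω = 1 := by
    rw [Complex.mul_conj, Complex.normSq_eq_norm_sq, hω.norm'_eq_one (by omega)]; simp
  have h2 : ∀ t, (ω ^ t) ^ a * conj ((ω ^ t) ^ b) = (ω ^ a * conj ω ^ b) ^ t := fun t => by
    simp only [map_pow, mul_pow, ← pow_mul, mul_comm]
  simp only [h2]
  split_ifs with h
  · simp [h, ← mul_pow, h1]
  · refine (mul_eq_zero.1 ((geom_sum_mul _ q).trans ?_)).resolve_right fun h0 => h ?_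
    · rw [mul_pow, ← pow_mul, ← pow_mul, mul_comm a, mul_comm b, pow_mul, pow_mul, ← map_pow,
        hω.pow_eq_one]
      simp
    · refine hω.pow_inj ha hb ?_
      rw [← mul_one (ω ^ a), ← one_pow b, ← h1, mul_pow, mul_left_comm, sub_eq_zero.1 h0, mul_one]

theorem exists_root (q : ℕ) : ∃ ω : ℂ, IsPrimitiveRoot ω (q + 1) ∧ ∀ t, ‖ω ^ t‖ = 1 :=
  ⟨_, Complex.isPrimitiveRoot_exp _ q.succ_ne_zero, fun t => by
    rw [norm_pow, (Complex.isPrimitiveRoot_exp _ q.succ_ne_zero).norm'_eq_one q.succ_ne_zero, one_pow]⟩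

theorem bil {κ ι : Type*} (s : Finset κ) (I : Finset ι) (c : κ → ℂ) (e : κ → ι → ℂ) (a b : ι → A) :
    ∑ t ∈ s, c t • ((∑ i ∈ I, e t i • a i) * ∑ j ∈ I, conj (e t j) • b j) =
      ∑ i ∈ I, ∑ j ∈ I, (∑ t ∈ s, c t * (e t i * conj (e t j))) • (a i * b j) := by
  simp only [sum_mul_sum, smul_sum, smul_mul_smul_comm, smul_smul, sum_smul]
  rw [sum_comm]
  exact sum_congr rfl fun i _ => sum_comm

theorem coef_eq {N : ℕ} {β : ℕ → ℝ} (h : Coef N β) (i j : ℕ) (c : ℂ) :
    ∑ m ∈ range (N + 1), (β m : ℂ) * (if m + i = j then c else 0) = β (j - i) * c := by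
  by_cases hij : i ≤ j
  · have : ∀ m, m + i = j ↔ m = j - i := fun m => by omega
    simp only [this, mul_ite, mul_zero, sum_ite_eq', mem_range]
    split_ifs with h1
    · rfl
    · rw [h.supp _ (by omega)]; simp
  · rw [Nat.sub_eq_zero_of_le (by omega), h.zero]
    simp [show ∀ m, m + i ≠ j from fun m => by omega]

theorem norm_wt {κ : Type*} [Fintype κ] (c : κ → ℂ) (x : κ → A) (hc : ∀ t, ‖c t‖ ≤ 8) :
    ‖∑ t, (c t • x t) * star (c t • x t)‖ ≤ 64 * ‖∑ t, x t * star (x t)‖ := by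
  letI := CStarAlgebra.spectralOrder A
  haveI := CStarAlgebra.spectralOrderedRing A
  refine (CStarAlgebra.norm_le_norm_of_nonneg_of_le (b := (64 : ℝ) • ∑ t, x t * star (x t))
    (sum_nonneg fun t _ => mul_star_self_nonneg _) ?_).trans (by simp [norm_smul])
  rw [smul_sum]
  refine sum_le_sum fun t _ => ?_
  rw [star_smul, smul_mul_smul_comm, Complex.star_def, Complex.mul_conj, Complex.normSq_eq_norm_sq,
    Complex.coe_smul]
  exact smul_le_smul_of_nonneg_right (by nlinarith [hc t, norm_nonneg (c t)])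
    (mul_star_self_nonneg _)

theorem norm_test {N : ℕ} {β : ℕ → ℝ} (h : Coef N β) {u : A} (hu : u ∈ unitary A) :
    ‖∑ m ∈ range (N + 1), (β m : ℂ) • (u ^ m - star u ^ m)‖ ≤ 8 := by
  have hn : IsStarNormal u := Unitary.coe_isStarNormal ⟨u, hu⟩
  have : ∑ m ∈ range (N + 1), (β m : ℂ) • (u ^ m - star u ^ m) =
      cfc (∑ m ∈ range (N + 1), fun ζ : ℂ => (β m : ℂ) * (ζ ^ m - star ζ ^ m)) u := by
    rw [cfc_sum _ _ _ (fun m _ => by fun_prop)]
    refine sum_congr rfl fun m _ => ?_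
    rw [cfc_const_mul .., cfc_sub .., cfc_pow_id .., cfc_pow (fun ζ : ℂ => star ζ) ..,
      cfc_star_id (R := ℂ) (a := u)]
  rw [this]
  refine norm_cfc_le (by norm_num) fun ζ hζ => ?_
  rw [Finset.sum_apply]
  exact h.bound ζ (by simpa using spectrum.subset_circle_of_unitary hu hζ)

theorem fej {q : ℕ} {ω : ℂ} (hω : IsPrimitiveRoot ω q) {c : A} (hc : c ∈ unitary A) {m L : ℕ}
    (hm : m ≤ L) (hq : m + L ≤ q) :
    ∑ t ∈ range q, (ω ^ t) ^ m • ((∑ j ∈ range L, (ω ^ t) ^ j • c ^ j) *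
      star (∑ j ∈ range L, (ω ^ t) ^ j • c ^ j)) = ((q : ℂ) * (L - m)) • star c ^ m := by
  simp only [star_sum, star_smul, Complex.star_def]
  rw [bil, ← Nat.cast_sub hm]
  have : ∀ i ∈ range L, ∑ j ∈ range L, (∑ t ∈ range q, (ω ^ t) ^ m *
      ((ω ^ t) ^ i * conj ((ω ^ t) ^ j))) • (c ^ i * star (c ^ j)) =
      if i ∈ range (L - m) then (q : ℂ) • star c ^ m else 0 := fun i hi => by
    rw [sum_congr rfl (g := fun j => if m + i = j then (q : ℂ) • star c ^ m else 0)]
    · simp only [sum_ite_eq, mem_range]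
      exact if_congr (by omega) rfl rfl
    · intro j hj
      simp only [← mul_assoc, ← pow_add]
      rw [orth hω (by have := mem_range.1 hi; omega) (by have := mem_range.1 hj; omega)]
      split_ifs with h
      · rw [← h, add_comm, star_pow, pow_add, ← mul_assoc, ← star_pow,
          Unitary.mul_star_self_of_mem (pow_mem hc i), one_mul]
      · simp
  rw [sum_congr rfl this, sum_ite_mem, inter_eq_right.2 (range_mono (Nat.sub_le _ _)), sum_const,
    card_range, mul_comm, mul_smul, Nat.cast_smul_eq_nsmul ℂ (L - m)]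

theorem parseval {ι E : Type*} [Fintype ι] [DecidableEq ι] [SeminormedAddCommGroup E]
    [InnerProductSpace ℂ E] {q : ℕ} {ω : ℂ} (hω : IsPrimitiveRoot ω q) (y : (ι → Fin q) → E) :
    ∑ t : ι → Fin q, ‖∑ γ : ι → Fin q, (∏ c, (ω ^ (t c).val) ^ (γ c).val) • y γ‖ ^ 2 =
      q ^ Fintype.card ι * ∑ γ, ‖y γ‖ ^ 2 := by
  have h1 : ∀ γ γ' : ι → Fin q, ∑ t : ι → Fin q, (∏ c, (ω ^ (t c).val) ^ (γ' c).val) *
      conj (∏ c, (ω ^ (t c).val) ^ (γ c).val) = if γ = γ' then (q : ℂ) ^ Fintype.card ι else 0 := by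
    intro γ γ'
    simp only [map_prod, ← prod_mul_distrib]
    rw [← Fintype.piFinset_univ, ← prod_univ_sum (fun _ => univ)
      fun c (s : Fin q) => (ω ^ s.val) ^ (γ' c).val * conj ((ω ^ s.val) ^ (γ c).val)]
    have e : ∀ a b : Fin q, ∑ s : Fin q, (ω ^ s.val) ^ a.val * conj ((ω ^ s.val) ^ b.val) =
        if a.val = b.val then (q : ℂ) else 0 := fun a b => by
      rw [Fin.sum_univ_eq_sum_range fun s => (ω ^ s) ^ a.val * conj ((ω ^ s) ^ b.val),
        orth hω (Fin.is_lt _) (Fin.is_lt _)]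
    simp only [e]
    split_ifs with h
    · simp [h]
    · obtain ⟨c, hc⟩ := Function.ne_iff.1 h
      exact prod_eq_zero (mem_univ c) (if_neg fun h => hc (Fin.ext h.symm))
  have h2 : ∀ x : E, ((‖x‖ ^ 2 : ℝ) : ℂ) = inner ℂ x x := fun x => by
    rw [inner_self_eq_norm_sq_to_K]; simp
  apply Complex.ofReal_injective
  rw [Complex.ofReal_mul, Complex.ofReal_sum, Complex.ofReal_sum]
  simp only [h2, sum_inner, inner_sum, inner_smul_left, inner_smul_right, ← mul_assoc]
  rw [sum_comm, mul_sum]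
  refine sum_congr rfl fun γ' _ => ?_
  simp only [mul_sum, ← mul_assoc]
  rw [sum_comm]
  simp only [← sum_mul, h1]
  simp

end TestAux

open TestAux Finset in
theorem toep {N : ℕ} {β : ℕ → ℝ} (h : Coef N β) {k : ℕ} {R : Type*} [Fintype R]
    (a b : Fin k → R → A) :
    ‖∑ ρ, ∑ i, ∑ j, (tp β i.val j.val : ℂ) • (a i ρ * b j ρ)‖ ≤
      8 * √‖∑ ρ, ∑ i, a i ρ * star (a i ρ)‖ * √‖∑ ρ, ∑ j, star (b j ρ) * b j ρ‖ := by
  obtain ⟨ω, hω, hn⟩ := exists_root (k + N)
  set q := k + N + 1 with hq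
  let f : ℕ → ℂ := fun t => ∑ m ∈ range (N + 1), (β m : ℂ) * ((ω ^ t) ^ m - conj (ω ^ t) ^ m)
  let a' : Fin q × R → A := fun s => ∑ i : Fin k, (ω ^ s.1.val) ^ i.val • a i s.2
  let b' : Fin q × R → A := fun s => ∑ j : Fin k, conj ((ω ^ s.1.val) ^ j.val) • b j s.2
  have h1 : ∀ i j : Fin k, ∑ t : Fin q, f t * ((ω ^ t.val) ^ i.val * conj ((ω ^ t.val) ^ j.val)) =
      q * tp β i j := fun i j => by
    rw [Fin.sum_univ_eq_sum_range fun t => f t * ((ω ^ t) ^ i.val * conj ((ω ^ t) ^ j.val))]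
    simp only [f, sum_mul]
    rw [sum_comm, tp, Complex.ofReal_sub, mul_sub, mul_comm, mul_comm (q : ℂ), ← coef_eq h,
      ← coef_eq h, ← sum_sub_distrib]
    refine sum_congr rfl fun m hm => ?_
    have := mem_range.1 hm
    rw [← orth hω (by omega) (by omega), if_congr eq_comm rfl rfl,
      ← orth hω (by omega) (by omega), ← mul_sub, ← sum_sub_distrib, mul_sum]
    refine sum_congr rfl fun t _ => ?_
    simp only [map_pow, pow_add, map_mul]
    ring
  have h2 : ∀ a b : Fin k → R → A,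
      ∑ s : Fin q × R, (∑ i : Fin k, (ω ^ s.1.val) ^ i.val • a i s.2) *
        ∑ j : Fin k, conj ((ω ^ s.1.val) ^ j.val) • b j s.2 =
      (q : ℂ) • ∑ ρ, ∑ i, a i ρ * b i ρ := fun a b => by
    rw [Fintype.sum_prod_type_right, smul_sum]
    refine sum_congr rfl fun ρ _ => ?_
    have := bil univ univ (fun _ : Fin q => 1) (fun t (i : Fin k) => (ω ^ t.val) ^ i.val)
      (fun i => a i ρ) fun i => b i ρ
    simp only [one_smul, one_mul] at this
    rw [this, smul_sum]
    refine sum_congr rfl fun i _ => ?_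
    have e : ∀ j : Fin k, ∑ t : Fin q, (ω ^ t.val) ^ i.val * conj ((ω ^ t.val) ^ j.val) =
        if i = j then (q : ℂ) else 0 := fun j => by
      rw [Fin.sum_univ_eq_sum_range fun t => (ω ^ t) ^ i.val * conj ((ω ^ t) ^ j.val),
        orth hω (by omega) (by omega)]
      simp only [Fin.val_inj]
    simp only [e]
    simp
  have h3 : ∑ s : Fin q × R, (f s.1 • a' s) * b' s =
      (q : ℂ) • ∑ ρ, ∑ i, ∑ j, (tp β i.val j.val : ℂ) • (a i ρ * b j ρ) := by
    rw [Fintype.sum_prod_type_right, smul_sum]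
    refine sum_congr rfl fun ρ _ => ?_
    simp only [smul_mul_assoc (f _), a', b']
    rw [bil univ univ (fun t : Fin q => f t) (fun t (i : Fin k) => (ω ^ t.val) ^ i.val)]
    simp only [h1, mul_smul, smul_sum]
  have h4 := norm_sum_mul_le (fun s => f s.1 • a' s) b'
  have h5 := norm_wt (fun s : Fin q × R => f s.1) a' fun s => h.bound _ (hn _)
  have h6 : ∑ s, a' s * star (a' s) = (q : ℂ) • ∑ ρ, ∑ i, a i ρ * star (a i ρ) := by
    rw [← h2]; simp only [a', star_sum, star_smul, Complex.star_def]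
  have h7 : ∑ s, star (b' s) * b' s = (q : ℂ) • ∑ ρ, ∑ i, star (b i ρ) * b i ρ := by
    rw [← h2]; simp only [b', star_sum, star_smul, Complex.star_def, Complex.conj_conj]
  rw [h6, norm_smul, Complex.norm_natCast] at h5
  rw [h3, h7, norm_smul, norm_smul, Complex.norm_natCast] at h4
  have q0 : (0 : ℝ) < q := by positivity
  refine le_of_mul_le_mul_left (h4.trans ((mul_le_mul_of_nonneg_right (Real.sqrt_le_sqrt h5)
    (Real.sqrt_nonneg _)).trans_eq ?_)) q0
  rw [Real.sqrt_mul (by norm_num), Real.sqrt_mul q0.le, Real.sqrt_mul q0.le,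
    show (64 : ℝ) = 8 ^ 2 by norm_num, Real.sqrt_sq (by norm_num)]
  conv_rhs => rw [← Real.mul_self_sqrt q0.le]
  ring

open TestAux Finset in
theorem fejer {N : ℕ} {β : ℕ → ℝ} (h : Coef N β) (τ : R95.Tr A) (θ : A →L[ℂ] A) {c : A}
    (hc : c ∈ unitary A) (x b : A) :
    ‖∑ m ∈ Finset.range (N + 1), (β m : ℂ) *
      (τ.φ (b * θ (x * c ^ m) * star c ^ m) - τ.φ (b * θ (x * star c ^ m) * c ^ m))‖ ≤
      8 * ‖θ‖ * ‖x‖ * ‖b‖ := by
  set D : ℕ → ℂ := fun m =>
    τ.φ (b * θ (x * c ^ m) * star c ^ m) - τ.φ (b * θ (x * star c ^ m) * c ^ m) with hD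
  have key : ∀ L ≥ N, ‖∑ m ∈ range (N + 1), (β m : ℂ) * (L - m) * D m‖ ≤
      8 * ‖θ‖ * ‖x‖ * ‖b‖ * L := by
    intro L hL
    obtain ⟨ω, hω, hn⟩ := exists_root (N + L)
    set q := N + L + 1 with hq
    let g : ℕ → A := fun t => ∑ j ∈ range L, (ω ^ t) ^ j • c ^ j
    let f : ℕ → A := fun t => ∑ m ∈ range (N + 1),
      (β m : ℂ) • ((ω ^ t • c) ^ m - star (ω ^ t • c) ^ m)
    have h1 : ∀ t, ‖τ.φ (b * θ (x * f t) * (g t * star (g t)))‖ ≤
        8 * ‖θ‖ * ‖x‖ * ‖b‖ * (τ.φ (g t * star (g t))).re := fun t => by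
      have hu : ω ^ t • c ∈ unitary A := by
        have : conj (ω ^ t) * ω ^ t = 1 := by
          rw [mul_comm, Complex.mul_conj, Complex.normSq_eq_norm_sq, hn]; simp
        constructor
        · rw [star_smul, smul_mul_smul_comm, hc.1, Complex.star_def, this, one_smul]
        · rw [star_smul, smul_mul_smul_comm, hc.2, Complex.star_def, mul_comm, this, one_smul]
      have a1 : ‖f t‖ ≤ 8 := norm_test h hu
      have a2 : ‖b * θ (x * f t)‖ ≤ 8 * ‖θ‖ * ‖x‖ * ‖b‖ := by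
        refine (norm_mul_le _ _).trans ((mul_le_mul_of_nonneg_left ((θ.le_opNorm _).trans
          (mul_le_mul_of_nonneg_left ((norm_mul_le _ _).trans (mul_le_mul_of_nonneg_left a1
            (norm_nonneg _))) (norm_nonneg _))) (norm_nonneg _)).trans_eq (by ring))
      rw [← mul_assoc, τ.comm, τ.comm (g t), ← τ.n2_sq]
      refine (τ.cs _ _).trans ((mul_le_mul_of_nonneg_left ((τ.n2_mul_le_left _ _).trans
        (mul_le_mul_of_nonneg_right a2 (τ.n2_nonneg _))) (τ.n2_nonneg _)).trans_eq (by ring))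
    have h2 : ∑ t ∈ range q, (τ.φ (g t * star (g t))).re = q * L := by
      have := fej hω hc (m := 0) (L := L) (by omega) (by omega)
      simp only [pow_zero, one_smul] at this
      rw [← Complex.re_sum, ← map_sum, this, map_smul, τ.one]
      simp
    have h3 : ∑ t ∈ range q, τ.φ (b * θ (x * f t) * (g t * star (g t))) =
        q * ∑ m ∈ range (N + 1), (β m : ℂ) * (L - m) * D m := by
      simp only [f, mul_sum _ _ x, map_sum, mul_sum _ _ b, sum_mul]
      rw [sum_comm, mul_sum]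
      refine sum_congr rfl fun m hm => ?_
      have hm' := mem_range.1 hm
      have e1 := fej hω hc (m := m) (L := L) (by omega) (by omega)
      have e2 := congrArg star e1
      simp only [star_sum (range q), star_smul, star_mul, star_star, star_pow, star_sub,
        star_natCast] at e2
      have e3 : ∀ t, τ.φ (b * θ (x * (β m : ℂ) • ((ω ^ t • c) ^ m - star (ω ^ t • c) ^ m)) *
          (g t * star (g t))) = β m * (τ.φ (b * θ (x * c ^ m) * ((ω ^ t) ^ m • (g t * star (g t)))) -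
            τ.φ (b * θ (x * star c ^ m) * ((star ω ^ t) ^ m • (g t * star (g t))))) := fun t => by
        simp only [star_smul, smul_pow, mul_smul_comm, mul_sub, sub_mul, map_smul, map_sub,
          smul_mul_assoc, smul_eq_mul, star_pow]
      simp only [e3, ← mul_sum, sum_sub_distrib, ← map_sum]
      rw [e1, e2]
      simp only [hD, mul_smul_comm, map_smul, smul_eq_mul]
      ring
    have h4 := (norm_sum_le _ _).trans (sum_le_sum fun t (_ : t ∈ range q) => h1 t)
    rw [h3, ← mul_sum, h2, norm_mul, Complex.norm_natCast] at h4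
    have q0 : (0 : ℝ) < q := by positivity
    exact le_of_mul_le_mul_left (h4.trans_eq (by ring)) q0
  have lim := (tendsto_one_div_add_atTop_nhds_zero_nat.mul_const
    ‖∑ m ∈ range (N + 1), (β m : ℂ) * m * D m‖).const_add (8 * ‖θ‖ * ‖x‖ * ‖b‖)
  rw [zero_mul, add_zero] at lim
  refine ge_of_tendsto lim ((eventually_ge_atTop N).mono fun L hL => ?_)
  have h1 := key (L + 1) (by omega)
  have e : ((L + 1 : ℕ) : ℂ) * ∑ m ∈ range (N + 1), (β m : ℂ) * D m =
      ∑ m ∈ range (N + 1), (β m : ℂ) * ((L + 1 : ℕ) - m) * D m +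
        ∑ m ∈ range (N + 1), (β m : ℂ) * m * D m := by
    rw [mul_sum, ← sum_add_distrib]
    exact sum_congr rfl fun m _ => by ring
  have h2 := norm_add_le (∑ m ∈ range (N + 1), (β m : ℂ) * ((L + 1 : ℕ) - m) * D m)
    (∑ m ∈ range (N + 1), (β m : ℂ) * m * D m)
  rw [← e, norm_mul, Complex.norm_natCast] at h2
  push_cast at h1 h2
  have L0 : (0 : ℝ) < L + 1 := by positivity
  refine le_of_mul_le_mul_left (h2.trans ?_) L0
  rw [mul_add, ← mul_assoc (L + 1 : ℝ) (1 / _), mul_one_div_cancel L0.ne']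
  linarith

open R124.Sh Finset in
theorem signAvg {ι E : Type*} [Fintype ι] [SeminormedAddCommGroup E] [NormedSpace ℂ E]
    (T : ι → ι → E) {R : ℝ}
    (h : ∀ ε : ι → ℂ, (∀ i, ε i = 1 ∨ ε i = -1) → ‖∑ i, ∑ j, (ε i * ε j) • T i j‖ ≤ R) :
    ‖∑ i, T i i‖ ≤ R := by
  classical
  have h1 : ∑ ω : ι → Bool, ∑ i, ∑ j, (((sg ω i : ℝ) : ℂ) * (sg ω j : ℝ)) • T i j =
      (NN ι : ℂ) • ∑ i, T i i := by
    rw [sum_comm, smul_sum]
    refine sum_congr rfl fun i _ => ?_
    rw [sum_comm]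
    simp only [← sum_smul, ← Complex.ofReal_mul, ← Complex.ofReal_sum, moment2]
    simp [apply_ite Complex.ofReal]
  have h2 := (norm_sum_le _ _).trans (sum_le_sum fun (ω : ι → Bool) (_ : ω ∈ univ) =>
    h (fun i => (sg ω i : ℝ)) fun i => by unfold sg; split_ifs <;> simp)
  rw [h1, norm_smul, Complex.norm_real, Real.norm_of_nonneg NN_pos.le, sum_const, nsmul_eq_mul] at h2
  exact le_of_mul_le_mul_left h2 NN_pos

open TestAux Finset in
theorem chaos {ι E : Type*} [Fintype ι] [DecidableEq ι] [SeminormedAddCommGroup E]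
    [InnerProductSpace ℂ E] (u : A →ₗ[ℂ] E) (p : ι → A)
    (hp : ∀ i j, p i * p j = if i = j then p i else 0) (V : A) {m q : ℕ} (hq : m + 1 < q) {ω : ℂ}
    (hω : IsPrimitiveRoot ω q) :
    ∑ t : ι → Fin q, ‖u (((∑ c, ω ^ (t c).val • p c) * V) ^ (m + 1))‖ ^ 2 ≤
      (m + 1) * ∑ t : ι → Fin q, ∑ c, ‖u (p c * ((∑ c, ω ^ (t c).val • p c) * V) ^ (m + 1))‖ ^ 2 := by
  let w : (Fin (m + 1) → ι) → A := fun π => (List.ofFn fun s => p (π s) * V).prod
  let cnt : (Fin (m + 1) → ι) → ι → Fin q := fun π c =>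
    ⟨#{s | π s = c}, lt_of_le_of_lt ((card_le_univ _).trans (by simp)) hq⟩
  let Y : (ι → Fin q) → A := fun γ => ∑ π with cnt π = γ, w π
  have h1 : ∀ z : ι → ℂ, ((∑ c, z c • p c) * V) ^ (m + 1) =
      ∑ γ : ι → Fin q, (∏ c, z c ^ (γ c).val) • Y γ := fun z => by
    rw [← MultilinearMap.mkPiAlgebraFin_apply_const (R := ℂ), sum_mul, MultilinearMap.map_sum,
      ← sum_fiberwise univ cnt]
    refine sum_congr rfl fun γ _ => ?_
    rw [smul_sum]
    refine sum_congr rfl fun π hπ => ?_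
    simp only [smul_mul_assoc]
    rw [MultilinearMap.map_smul_univ, ← prod_fiberwise' univ π z, ← (mem_filter.1 hπ).2]
    simp only [prod_const]
    rfl
  have h2 : ∀ γ, ‖u (Y γ)‖ ^ 2 ≤ (m + 1) * ∑ c, ‖u (p c * Y γ)‖ ^ 2 := fun γ => by
    rcases (filter (fun π => cnt π = γ) univ).eq_empty_or_nonempty with h | ⟨π₀, h⟩
    · simp [Y, h]
    have e : Y γ = ∑ c ∈ image π₀ univ, p c * Y γ := by
      simp only [Y, mul_sum]
      rw [sum_comm]
      refine sum_congr rfl fun π hπ => ?_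
      have e1 : #{s | π₀ s = π 0} = #{s | π s = π 0} :=
        congrArg (fun γ => (γ (π 0)).val) ((mem_filter.1 h).2.trans (mem_filter.1 hπ).2.symm)
      obtain ⟨s, hs⟩ : (filter (fun s => π₀ s = π 0) univ).Nonempty :=
        card_pos.1 (e1 ▸ card_pos.2 ⟨0, by simp⟩)
      simp only [w, List.ofFn_succ, List.prod_cons, ← mul_assoc, hp, ite_mul, zero_mul, sum_ite_eq']
      rw [if_pos (mem_image.2 ⟨s, mem_univ _, (mem_filter.1 hs).2⟩)]
    conv_lhs => rw [e, map_sum]
    refine (pow_le_pow_left₀ (norm_nonneg _) (norm_sum_le _ _) 2).trans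
      (sq_sum_le_card_mul_sum_sq.trans (mul_le_mul ?_ (sum_le_sum_of_subset_of_nonneg
        (subset_univ _) fun _ _ _ => by positivity) (by positivity) (by positivity)))
    exact_mod_cast card_image_le.trans (by simp)
  rw [sum_comm]
  simp only [h1, mul_sum _ _ (p _), mul_smul_comm, map_sum, map_smul, parseval hω]
  rw [← mul_sum, sum_comm, mul_left_comm, mul_sum univ _ (m + 1 : ℝ)]
  exact mul_le_mul_of_nonneg_left (sum_le_sum fun γ _ => h2 γ) (by positivity)

end Crest.Agent.R121
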