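import Crest.Agent.R121.Fam
import Crest.Agent.R121.Test

/-!
# Row 121: minimal sets for the commutant of a large matrix algebra are small

PLAN.  Write `E i = e i i`, `α i j = tp β i j`, `θ j = (η₁ j + η₂ j)/2 ∈ K`, and for unitaries
`V i ∈ cmm e`: `F i j = τ (b * θ j p (x V i⋆ V j) * (V j⋆ V i) * E i)` `= τ (b * act (V j⋆ V i) (θ j) p x * E i)`.
* Test inequality: `|∑_{ij} s i α i j F i j| ≤ 8 C ‖x‖ ‖b‖` if `|s i| ≤ 1`.  By `signAvg` for
  `T i i' = ∑_j s i α i j τ (b θ j p (x V i⋆ V j) V j⋆ V i' e i i')`; indeed `∑ ε i ε i' T i i' = τ (b Θ (x Z) g₁ g₂)`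
  with `Z = ∑ ε i s i α i j V i⋆ e i 0 * (e 0 j V j)` (`‖Z‖ ≤ 8` by `toep`), `g₁ = ∑ V j⋆ e j 0`,
  `g₂ = ∑ ε i e 0 i V i`, and `‖g₁‖₂ = ‖g₂‖₂ = 1` (`τ (e 0 0) = 1/k`), `τ (y g₁ g₂) = τ (g₂ y g₁)`.
* Potential: rotate `b` by a phase.  For `l ≤ k` construct `V, s` (functions on `ℕ`) with
  `Ψ l = Re ∑_{i<l} s i ∑_j α i j F i (min j l) ≥ ∑_{i<l} (U i/2 Re d i - δ)`, `U i = ∑_{j>i} α i j`,
  `d i = τ (b (η₁ i - η₂ i) p x E i)`.  Step: for `s = ±1` the new potential with `V (l+1)⋆ = w V l⋆` is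
  `c_s + ℓ_s (act w (θ (l+1)))`, `ℓ_s ψ = Re (∑_{i<l} s i U_{i,l} τ (b act (V l⋆ V i) ψ p x E i) + s U l τ (b ψ p x E l))`,
  and the average over `s` of `c_s + ℓ_s (η_s l)` is `Ψ l + U l/2 Re d l`; choose the better `s`, then
  `w` by `approx_US`.
* `U i = G` unless `i > k - N`, `0 ≤ U i ≤ G`, `|d i| ≤ 2 C ‖x‖ ‖b‖/(k+1)` (`norm_phi_proj_mul`).
-/

set_option autoImplicit false

namespace Crest.Agent.R121

open Filter Topology
open scoped ComplexConjugate ComplexOrder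

universe u v

variable {A : Type u} [CStarAlgebra A]

open Finset in
/-- the potential argument -/
theorem s1_pot {W : WS A} {P : Type v} {C : P → ℝ} {K : Set (Fam W P)} {N : StarSubalgebra ℂ A}
    (hK : IsMinS C (US W P N) K) (ℓ : ℕ → Fam W P → ℝ) (hc : ∀ i, Continuous (ℓ i))
    (hl : ∀ i, IsLinearMap ℝ (ℓ i)) (η₁ η₂ θ : ℕ → Fam W P) (h₁ : ∀ i, η₁ i ∈ K)
    (h₂ : ∀ i, η₂ i ∈ K) (hθ : ∀ i, θ i = (2⁻¹ : ℝ) • η₁ i + (2⁻¹ : ℝ) • η₂ i) (α : ℕ → ℕ → ℝ)
    (n : ℕ) {δ : ℝ} (hδ : 0 < δ) (l : ℕ) :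
    ∃ (V : ℕ → A) (s : ℕ → ℝ), (∀ i, V i ∈ N ∧ V i ∈ unitary A) ∧ (∀ i, s i = 1 ∨ s i = -1) ∧
      ∑ i ∈ range l, ((∑ j ∈ (range n).filter (i < ·), α i j) / 2 * (ℓ i (η₁ i) - ℓ i (η₂ i)) - δ) ≤
        ∑ i ∈ range l, s i * ∑ j ∈ range n,
          α i j * ℓ i (act (star (V (min j l)) * V i) (θ (min j l))) := by
  induction l with
  | zero => exact ⟨fun _ => 1, fun _ => 1, fun _ => ⟨one_mem _, one_mem _⟩, fun _ => Or.inl rfl,
      by simp⟩
  | succ l ih =>
    obtain ⟨V, s, hV, hs, ih⟩ := ih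
    have hθK : ∀ i, θ i ∈ K := fun i => by
      rw [hθ]; exact hK.adm.convex (h₁ i) (h₂ i) (by norm_num) (by norm_num) (by norm_num)
    set U : ℕ → ℝ := fun i => ∑ j ∈ (range n).filter (l < ·), α i j with hU
    set B : ℕ → ℝ := fun i => ∑ j ∈ (range n).filter (fun j => ¬ l < j),
      α i j * ℓ i (act (star (V j) * V i) (θ j)) with hB
    set L : ℝ → Fam W P → ℝ := fun σ ψ =>
      ∑ i ∈ range l, s i * (U i * ℓ i (act (star (V l) * V i) ψ)) + σ * (U l * ℓ l ψ) with hL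
    have hLc : ∀ σ, Continuous (L σ) := fun σ =>
      (continuous_finsetSum _ fun i _ => continuous_const.mul
        (continuous_const.mul ((hc i).comp (continuous_act _)))).add
        (continuous_const.mul (continuous_const.mul (hc l)))
    have hLl : ∀ σ, IsLinearMap ℝ (L σ) := fun σ =>
      ⟨fun y y' => by
        simp only [hL, map_add, (hl _).map_add, mul_add, sum_add_distrib]; ring,
      fun c y => by
        simp only [hL, LinearMap.map_smul_of_tower, (hl _).map_smul, smul_eq_mul, mul_add, mul_sum]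
        congr 1
        · exact sum_congr rfl fun i _ => by ring
        · ring⟩
    have split : ∀ (i m : ℕ) (V' : ℕ → A), l ≤ m → m ≤ l + 1 → (∀ j ≤ l, V' j = V j) → i ≤ l →
        ∑ j ∈ range n, α i j * ℓ i (act (star (V' (min j m)) * V' i) (θ (min j m))) =
          B i + U i * ℓ i (act (star (V' m) * V i) (θ m)) := by
      intro i m V' h1 h2 h3 hi
      rw [← sum_filter_add_sum_filter_not _ (l < ·), add_comm, hU, hB, sum_mul, h3 i hi]
      congr 1
      · refine sum_congr rfl fun j hj => ?_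
        have hj' : j ≤ l := not_lt.1 (mem_filter.1 hj).2
        rw [min_eq_left (hj'.trans h1), h3 j hj']
      · refine sum_congr rfl fun j hj => ?_
        rw [min_eq_right (h2.trans (mem_filter.1 hj).2)]
    have e0 : ∑ i ∈ range l, s i * ∑ j ∈ range n,
        α i j * ℓ i (act (star (V (min j l)) * V i) (θ (min j l))) =
        ∑ i ∈ range l, s i * B i + L 0 (θ l) := by
      simp only [hL, zero_mul, add_zero, ← sum_add_distrib, ← mul_add]
      exact sum_congr rfl fun i hi => by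
        rw [split i l V le_rfl (Nat.le_succ l) (fun _ _ => rfl) (mem_range.1 hi).le]
    have e1 : L 0 (θ l) + U l / 2 * (ℓ l (η₁ l) - ℓ l (η₂ l)) =
        ((1 * B l + L 1 (η₁ l)) + (-1 * B l + L (-1) (η₂ l))) / 2 := by
      rw [hθ l, (hLl 0).map_add, (hLl 0).map_smul, (hLl 0).map_smul]
      simp only [hL, smul_eq_mul]
      ring
    obtain ⟨σ, η, hσ, hη, e2⟩ : ∃ σ η, (σ = 1 ∨ σ = -1) ∧ η ∈ K ∧
        L 0 (θ l) + U l / 2 * (ℓ l (η₁ l) - ℓ l (η₂ l)) ≤ σ * B l + L σ η := by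
      rcases le_total (1 * B l + L 1 (η₁ l)) (-1 * B l + L (-1) (η₂ l)) with h | h
      · exact ⟨-1, η₂ l, Or.inr rfl, h₂ l, by rw [e1]; linarith⟩
      · exact ⟨1, η₁ l, Or.inl rfl, h₁ l, by rw [e1]; linarith⟩
    obtain ⟨w, hwN, hw, e3⟩ := hK.approx_US (hθK (l + 1)) hη (hLc σ) (hLl σ) hδ
    set V' : ℕ → A := fun i => if i ≤ l then V i else V l * star w with hV'
    have hV'1 : ∀ j ≤ l, V' j = V j := fun j hj => if_pos hj
    have hV'2 : star (V' (l + 1)) = w * star (V l) := by simp [hV']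
    refine ⟨V', fun i => if i < l then s i else σ, fun i => ?_, fun i => ?_, ?_⟩
    · simp only [hV']
      split_ifs
      exacts [hV i, ⟨mul_mem (hV l).1 (star_mem hwN), mul_mem (hV l).2 (Unitary.star_mem hw)⟩]
    · beta_reduce
      split_ifs
      exacts [hs i, hσ]
    · beta_reduce
      rw [sum_range_succ, sum_range_succ, if_neg (lt_irrefl l),
        split l (l + 1) V' (Nat.le_succ l) le_rfl hV'1 le_rfl, hV'2, mul_assoc w,
        Unitary.star_mul_self_of_mem (hV l).2, mul_one]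
      have e4 : ∑ i ∈ range l, (if i < l then s i else σ) * ∑ j ∈ range n,
          α i j * ℓ i (act (star (V' (min j (l + 1))) * V' i) (θ (min j (l + 1)))) =
          ∑ i ∈ range l, s i * B i +
            ∑ i ∈ range l, s i * (U i * ℓ i (act (star (V l) * V i) (act w (θ (l + 1))))) := by
        rw [← sum_add_distrib]
        refine sum_congr rfl fun i hi => ?_
        rw [if_pos (mem_range.1 hi), split i (l + 1) V' (Nat.le_succ l) le_rfl hV'1
          (mem_range.1 hi).le, hV'2, mul_assoc w, act_mul w, mul_add]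
      rw [e4]
      simp only [hL] at e0 e2 e3
      rw [e0] at ih
      change _ + (U l / 2 * _ - δ) ≤ _
      linarith

section mu

variable {k : ℕ} {e : Fin (k + 1) → Fin (k + 1) → A}

theorem s1_proj (he : MU e) (i : Fin (k + 1)) : IsStarProjection (e i i) :=
  ⟨by simp [IsIdempotentElem, he.mul], he.star i i⟩

theorem s1_tr (τ : R95.Tr A) (he : MU e) (i : Fin (k + 1)) : τ.φ (e i i) = ((k : ℂ) + 1)⁻¹ := by
  have h : ∀ j, τ.φ (e j j) = τ.φ (e i i) := fun j => by
    have := τ.comm (e j i) (e i j)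
    simpa [he.mul] using this
  have h1 := congrArg τ.φ he.sum
  rw [map_sum, τ.one] at h1
  simp only [h, Finset.sum_const, Finset.card_univ, Fintype.card_fin, nsmul_eq_mul] at h1
  push_cast at h1
  exact eq_inv_of_mul_eq_one_right h1

theorem s1_n2 (τ : R95.Tr A) (he : MU e) {V : Fin (k + 1) → A}
    (hV : ∀ i, V i ∈ cmm e ∧ V i ∈ unitary A) : τ.n2 (∑ j, star (V j) * e j 0) = 1 := by
  have h : star (∑ j, star (V j) * e j 0) * ∑ j, star (V j) * e j 0 = ∑ _j : Fin (k + 1), e 0 0 := by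
    rw [star_sum, Finset.sum_mul_sum]
    refine Finset.sum_congr rfl fun i _ => ?_
    rw [Finset.sum_eq_single i]
    · rw [star_mul, star_star, he.star, mul_assoc, ← mul_assoc (V i),
        Unitary.mul_star_self_of_mem (hV i).2, one_mul, he.mul, if_pos rfl]
    · intro j _ hj
      rw [star_mul, star_star, he.star, mul_assoc, ← mul_assoc (V i), ← mul_assoc,
        he.mem_cmm.1 (mul_mem (hV i).1 (star_mem (hV j).1)), mul_assoc, he.mul, if_neg hj.symm,
        mul_zero]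
    · simp
  have h2 := τ.n2_sq (∑ j, star (V j) * e j 0)
  rw [h, map_sum, s1_tr τ he, Finset.sum_const, Finset.card_univ, Fintype.card_fin,
    nsmul_eq_mul] at h2
  push_cast at h2
  rw [mul_inv_cancel₀ (by exact_mod_cast Nat.succ_ne_zero k), Complex.one_re] at h2
  exact (pow_eq_one_iff_of_nonneg (τ.n2_nonneg _) two_ne_zero).1 h2

theorem s1_test0 (τ : R95.Tr A) (he : MU e) {N : ℕ} {β : ℕ → ℝ} (hβ : Coef N β)
    (θ : Fin (k + 1) → A →L[ℂ] A) (hM : ∀ c z i j, θ c (z * e i j) = θ c z * e i j)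
    (Θ : A →L[ℂ] A) (hΘ : ∀ z c, Θ (z * e c c) = θ c z * e c c) (x b : A)
    {X V Y : Fin (k + 1) → A} (hX : ∀ i, X i ∈ cmm e ∧ X i ∈ unitary A)
    (hV : ∀ i, V i ∈ cmm e ∧ V i ∈ unitary A) (hY : ∀ i, Y i ∈ cmm e ∧ Y i ∈ unitary A) :
    ‖∑ i, ∑ i', ∑ j, (tp β i.val j.val : ℂ) *
      τ.φ (b * θ j (x * (star (X i) * V j)) * (star (V j) * Y i') * e i i')‖ ≤
      8 * ‖Θ‖ * ‖x‖ * ‖b‖ := by
  have := τ.nontrivial
  set Z : A := ∑ i, ∑ j, (tp β i.val j.val : ℂ) • (star (X i) * e i 0 * (e 0 j * V j)) with hZ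
  set g₁ : A := ∑ j, star (V j) * e j 0 with hg₁
  set g₂ : A := ∑ j, star (Y j) * e j 0 with hg₂
  have nZ : ‖Z‖ ≤ 8 := by
    have := toep hβ (R := Unit) (fun i _ => star (X i) * e i 0) fun j _ => e 0 j * V j
    simp only [Finset.univ_unique, Finset.sum_singleton] at this
    have e1 : ∑ i, star (X i) * e i 0 * star (star (X i) * e i 0) = 1 := by
      rw [← he.sum]
      refine Finset.sum_congr rfl fun i _ => ?_
      rw [star_mul, star_star, he.star, mul_assoc, ← mul_assoc (e i 0), he.mul, if_pos rfl,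
        he.mem_cmm.1 (hX i).1, ← mul_assoc, Unitary.star_mul_self_of_mem (hX i).2, one_mul]
    have e2 : ∑ j, star (e 0 j * V j) * (e 0 j * V j) = 1 := by
      rw [← he.sum]
      refine Finset.sum_congr rfl fun i _ => ?_
      rw [star_mul, he.star, mul_assoc, ← mul_assoc (e i 0), he.mul, if_pos rfl,
        he.mem_cmm.1 (hV i).1, ← mul_assoc, Unitary.star_mul_self_of_mem (hV i).2, one_mul]
    rw [e1, e2] at this
    simpa [hZ] using this
  have key : ∑ i, ∑ i', ∑ j, (tp β i.val j.val : ℂ) *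
      τ.φ (b * θ j (x * (star (X i) * V j)) * (star (V j) * Y i') * e i i') =
      τ.φ (star g₂ * (b * Θ (x * Z)) * g₁) := by
    rw [mul_assoc, τ.comm, hZ]
    simp only [Finset.mul_sum, map_sum, Finset.sum_mul, mul_smul_comm, map_smul, smul_mul_assoc,
      smul_eq_mul]
    refine Finset.sum_congr rfl fun i _ => ?_
    rw [Finset.sum_comm]
    refine Finset.sum_congr rfl fun j _ => ?_
    rw [← Finset.mul_sum, ← map_sum]
    congr 2
    have e1 : x * (star (X i) * e i 0 * (e 0 j * V j)) = x * (star (X i) * V j) * e i j * e j j := by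
      rw [mul_assoc (star (X i)), ← mul_assoc (e i 0), he.mul, if_pos rfl, he.mem_cmm.1 (hV j).1,
        mul_assoc _ (e i j), he.mul, if_pos rfl]
      simp only [mul_assoc]
    have e2 : e i j * g₁ = star (V j) * e i 0 := by
      rw [hg₁, Finset.mul_sum, Finset.sum_eq_single j]
      · rw [← mul_assoc, he.mem_cmm.1 (star_mem (hV j).1), mul_assoc, he.mul, if_pos rfl]
      · intro j' _ hj
        rw [← mul_assoc, he.mem_cmm.1 (star_mem (hV j').1), mul_assoc, he.mul, if_neg hj.symm,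
          mul_zero]
      · simp
    rw [e1, hΘ, hM, mul_assoc _ (e i j), he.mul, if_pos rfl, hg₂, star_sum, Finset.mul_sum]
    refine Finset.sum_congr rfl fun i' _ => ?_
    rw [star_mul, star_star, he.star]
    simp only [mul_assoc]
    rw [← mul_assoc (e i j), e2, mul_assoc, ← mul_assoc (e i 0), he.mul, if_pos rfl,
      he.mem_cmm.1 (hY i').1]
  rw [key]
  refine (τ.cs' _ _).trans ?_
  rw [s1_n2 τ he hV, mul_one]
  refine (τ.n2_mul_le_right _ _).trans ?_
  rw [τ.n2_star, s1_n2 τ he hY, one_mul]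
  calc ‖b * Θ (x * Z)‖ ≤ ‖b‖ * (‖Θ‖ * (‖x‖ * 8)) := by
        refine (norm_mul_le _ _).trans ?_
        gcongr
        refine (Θ.le_opNorm _).trans ?_
        gcongr
        refine (norm_mul_le _ _).trans ?_
        gcongr
    _ = _ := by ring

theorem s1_smul {V : A} (hV : V ∈ cmm e ∧ V ∈ unitary A) {c : ℂ} (hc : c = 1 ∨ c = -1) :
    c • V ∈ cmm e ∧ c • V ∈ unitary A := by
  rcases hc with rfl | rfl
  · simpa using hV
  · rw [neg_one_smul]
    refine ⟨neg_mem hV.1, ?_⟩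
    simpa [Unitary.mem_iff] using hV.2

theorem s1_test (τ : R95.Tr A) (he : MU e) {N : ℕ} {β : ℕ → ℝ} (hβ : Coef N β)
    (θ : Fin (k + 1) → A →L[ℂ] A) (hM : ∀ c z i j, θ c (z * e i j) = θ c z * e i j)
    (Θ : A →L[ℂ] A) (hΘ : ∀ z c, Θ (z * e c c) = θ c z * e c c) (x b : A)
    {V : Fin (k + 1) → A} (hV : ∀ i, V i ∈ cmm e ∧ V i ∈ unitary A) {s : Fin (k + 1) → ℝ}
    (hs : ∀ i, s i = 1 ∨ s i = -1) :
    ‖∑ i, (s i : ℂ) * ∑ j, (tp β i.val j.val : ℂ) *
      τ.φ (b * (θ j (x * star (star (V j) * V i)) * (star (V j) * V i)) * e i i)‖ ≤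
      8 * ‖Θ‖ * ‖x‖ * ‖b‖ := by
  refine le_trans (le_of_eq ?_) (signAvg (E := ℂ) (fun i i' => (s i : ℂ) * ∑ j,
    (tp β i.val j.val : ℂ) * τ.φ (b * θ j (x * (star (V i) * V j)) * (star (V j) * V i') * e i i'))
    fun ε hε => ?_)
  · simp only [star_mul, star_star, mul_assoc]
  · have hs' : ∀ i, ε i * s i = 1 ∨ ε i * s i = -1 := fun i => by
      rcases hε i with h | h <;> rcases hs i with h' | h' <;> simp [h, h']
    have hε' : ∀ i, star (ε i * s i) = ε i * s i := fun i => by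
      rcases hs' i with h | h <;> simp [h]
    refine le_trans (le_of_eq ?_) (s1_test0 τ he hβ θ hM Θ hΘ x b
      (fun i => s1_smul (hV i) (hs' i)) hV fun i => s1_smul (hV i) (hε i))
    congr 1
    refine Finset.sum_congr rfl fun i _ => Finset.sum_congr rfl fun i' _ => ?_
    rw [smul_eq_mul, Finset.mul_sum, Finset.mul_sum]
    refine Finset.sum_congr rfl fun j _ => ?_
    simp only [star_smul, hε', mul_smul_comm, smul_mul_assoc, map_smul, smul_eq_mul]
    ring

end mu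

open Finset in
theorem s1_U {N : ℕ} {β : ℕ → ℝ} (hβ : Coef N β) (n i : ℕ) :
    ∑ j ∈ (range n).filter (i < ·), tp β i j = ∑ m ∈ range (min (n - i) (N + 1)), β m := by
  have e1 : ∑ j ∈ (range n).filter (i < ·), tp β i j = ∑ j ∈ Ico i n, β (j - i) := by
    rw [← sum_filter_add_sum_filter_not (Ico i n) (i < ·), sum_eq_zero (s := (Ico i n).filter
      fun j => ¬ i < j) fun j hj => ?_, add_zero]
    · refine sum_congr (by ext j; simp; omega) fun j hj => ?_
      have : i - j = 0 := by have := (mem_filter.1 hj).2; omega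
      rw [tp, this, hβ.zero, sub_zero]
    · have : j - i = 0 := by have := (mem_filter.1 hj).2; omega
      rw [this, hβ.zero]
  rw [e1, sum_Ico_eq_sum_range]
  simp only [Nat.add_sub_cancel_left]
  refine (sum_subset (range_subset_range.2 (min_le_left _ _)) fun m h1 h2 => hβ.supp m ?_).symm
  simp only [mem_range] at h1 h2
  omega

theorem s1 {W : WS A} {P : Type v} {C : P → ℝ} {K : Set (Fam W P)} (τ : R95.Tr A)
    (hτ : τ.φ ∈ W.Φ) {k : ℕ} {e : Fin (k + 1) → Fin (k + 1) → A} (he : MU e)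
    (hK : IsMinS C (US W P (cmm e)) K) (hM : ∀ y ∈ K, MM e y) {N : ℕ} {β : ℕ → ℝ} (hβ : Coef N β)
    (hG : 0 < ∑ m ∈ Finset.range (N + 1), β m) (p : P) (η₁ η₂ : Fin (k + 1) → Fam W P)
    (h₁ : ∀ c, η₁ c ∈ K) (h₂ : ∀ c, η₂ c ∈ K) (Θ : A →L[ℂ] A) (hΘ : ‖Θ‖ ≤ C p)
    (hΘ' : ∀ z c, Θ (z * e c c) = (2⁻¹ : ℂ) • ((η₁ c p z + η₂ c p z) * e c c)) (x b : A) :
    ‖∑ c, τ.φ (b * (η₁ c p x - η₂ c p x) * e c c)‖ ≤
      (16 / (∑ m ∈ Finset.range (N + 1), β m) + 2 * N / (k + 1)) * C p * ‖x‖ * ‖b‖ := by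
  obtain ⟨c, hc, hc'⟩ :=
    Complex.exists_norm_eq_mul_self (∑ c, τ.φ (b * (η₁ c p x - η₂ c p x) * e c c))
  set G := ∑ m ∈ Finset.range (N + 1), β m with hGd
  set b' := c • b with hb'
  have nb : ‖b'‖ = ‖b‖ := by rw [hb', norm_smul, hc, one_mul]
  set θ : Fin (k + 1) → Fam W P := fun i => (2⁻¹ : ℝ) • η₁ i + (2⁻¹ : ℝ) • η₂ i with hθ
  have hθK : ∀ i, θ i ∈ K := fun i =>
    hK.adm.convex (h₁ i) (h₂ i) (by norm_num) (by norm_num) (by norm_num)
  set ℓ : Fin (k + 1) → Fam W P → ℝ := fun i y => (τ.φ (b' * y p x * e i i)).re with hℓ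
  set d : Fin (k + 1) → ℝ := fun i => ℓ i (η₁ i) - ℓ i (η₂ i) with hd
  set U : ℕ → ℝ := fun i => ∑ m ∈ Finset.range (min (k + 1 - i) (N + 1)), β m with hU
  set D := C p * ‖x‖ * ‖b‖ with hD
  have hD0 : 0 ≤ D := mul_nonneg (mul_nonneg ((norm_nonneg _).trans hΘ) (norm_nonneg _))
    (norm_nonneg _)
  have e0 : ‖∑ c, τ.φ (b * (η₁ c p x - η₂ c p x) * e c c)‖ = ∑ i, d i := by
    have := congrArg Complex.re hc'
    rw [Complex.ofReal_re] at this
    rw [this, Finset.mul_sum, Complex.re_sum]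
    refine Finset.sum_congr rfl fun i _ => ?_
    simp only [hd, hℓ, hb', smul_mul_assoc, map_smul, smul_eq_mul, mul_sub, sub_mul, map_sub,
      Complex.sub_re]
  have e1 : ∑ i : Fin (k + 1), U i / 2 * d i ≤ 8 * D := by
    refine le_of_forall_pos_le_add fun δ hδ => ?_
    obtain ⟨V, s, hV, hs, h⟩ := s1_pot hK (fun i => ℓ (Fin.ofNat _ i))
      (fun i => Complex.continuous_re.comp (Fam.continuous_eval' hτ _ _ _ _))
      (fun i => ⟨fun y y' => by simp [hℓ, mul_add, add_mul], fun r y => by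
        simp [hℓ, ContinuousLinearMap.map_smul_of_tower]⟩)
      (fun i => η₁ (Fin.ofNat _ i)) (fun i => η₂ (Fin.ofNat _ i)) (fun i => θ (Fin.ofNat _ i))
      (fun i => h₁ _) (fun i => h₂ _) (fun i => rfl) (tp β) (k + 1)
      (δ := δ / (k + 1)) (by positivity) (k + 1)
    have ht := s1_test τ he hβ (fun i => θ i p) (fun c => hM _ (hθK c) p) Θ (fun z c => by
      rw [hΘ', hθ]
      simp only [Fam.add_apply, Fam.rsmul_apply, ← smul_add, smul_mul_assoc]
      rw [← Complex.coe_smul]; norm_num) x b' (V := fun i => V i) (fun i => hV i)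
      (s := fun i => s i) fun i => hs i
    have h3 := (Complex.re_le_norm _).trans ht
    simp only [s1_U hβ, Finset.sum_range (n := k + 1), Fin.ofNat_val_eq_self, Fin.is_le',
      min_eq_left, Finset.sum_sub_distrib, Finset.sum_const, Finset.card_univ,
      Fintype.card_fin] at h
    simp only [Complex.re_sum, Complex.re_ofReal_mul] at h3
    have h4 : 8 * ‖Θ‖ * ‖x‖ * ‖b'‖ ≤ 8 * D := by
      rw [nb, hD, mul_assoc 8, mul_assoc 8]; gcongr
    have h5 : (k + 1) • (δ / (k + 1)) = δ := by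
      rw [nsmul_eq_mul]; push_cast; field_simp
    rw [h5] at h
    have h6 := h.trans h3
    simp only [hU, hd]
    linarith
  have e2 : ∀ i, d i ≤ 2 * D / (k + 1) := by
    intro i
    have h1 : d i = (τ.φ (e i i * (b' * (η₁ i p x - η₂ i p x)))).re := by
      rw [τ.comm]
      simp only [hd, hℓ, mul_sub, sub_mul, map_sub, Complex.sub_re]
    have h2 := τ.norm_phi_proj_mul (s1_proj he i) (b' * (η₁ i p x - η₂ i p x))
    have h3 : (τ.φ (e i i)).re = ((k : ℝ) + 1)⁻¹ := by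
      rw [s1_tr τ he, ← Complex.ofReal_re ((k : ℝ) + 1)⁻¹]; push_cast; rfl
    have h4 : ∀ y ∈ K, ‖y p x‖ ≤ C p * ‖x‖ := fun y hy =>
      ((y p).le_opNorm x).trans (by gcongr; exact hK.adm.bdd y hy p)
    have h5 : ‖b' * (η₁ i p x - η₂ i p x)‖ ≤ 2 * D := by
      refine (norm_mul_le _ _).trans ?_
      have := (norm_sub_le _ _).trans (add_le_add (h4 _ (h₁ i)) (h4 _ (h₂ i)))
      rw [nb, hD]
      nlinarith [norm_nonneg b]
    rw [h1]
    refine (Complex.re_le_norm _).trans (h2.trans ?_)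
    rw [h3, div_eq_inv_mul]
    gcongr
  have e3 : ∀ i : Fin (k + 1), (G - U i) / 2 * d i ≤
      if k + 1 - N ≤ i then G * D / (k + 1) else 0 := by
    intro i
    split_ifs with h
    · have u1 : U i ≤ G := Finset.sum_le_sum_of_subset_of_nonneg
        (Finset.range_subset_range.2 (min_le_right _ _)) fun m _ _ => hβ.nonneg m
      have u2 : 0 ≤ U i := Finset.sum_nonneg fun m _ => hβ.nonneg m
      calc (G - U i) / 2 * d i ≤ (G - U i) / 2 * (2 * D / (k + 1)) :=
            mul_le_mul_of_nonneg_left (e2 i) (by linarith)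
        _ ≤ G / 2 * (2 * D / (k + 1)) := by gcongr; linarith
        _ = _ := by ring
    · have : min (k + 1 - i) (N + 1) = N + 1 := by omega
      simp only [hU, this, ← hGd, sub_self, zero_div, zero_mul, le_refl]
  have e4 : ∑ i : Fin (k + 1), (G - U i) / 2 * d i ≤ N * (G * D / (k + 1)) := by
    refine (Finset.sum_le_sum fun i _ => e3 i).trans ?_
    rw [← Finset.sum_filter, Finset.sum_const, nsmul_eq_mul]
    gcongr
    refine (Finset.card_le_card_of_injOn (t := Finset.Ico (k + 1 - N) (k + 1)) Fin.val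
      (fun i hi => ?_) Fin.val_injective.injOn).trans (by simp; omega)
    simp only [Finset.coe_filter, Finset.mem_univ, true_and, Set.mem_ofPred_eq] at hi
    simpa using ⟨by omega, i.is_le⟩
  have e5 : G / 2 * ∑ i, d i ≤ 8 * D + N * (G * D / (k + 1)) := by
    refine le_trans (le_of_eq ?_) (add_le_add e1 e4)
    rw [Finset.mul_sum, ← Finset.sum_add_distrib]
    exact Finset.sum_congr rfl fun i _ => by ring
  rw [e0, mul_assoc, mul_assoc, ← mul_assoc (C p), ← hD]
  refine le_of_mul_le_mul_left (e5.trans (le_of_eq ?_)) (half_pos hG)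
  field_simp
  ring

end Crest.Agent.R121
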