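import Crest.Agent.R121.CB_A
import Crest.Agent.R121.S1

/-!
# Row 121: the fixed point theorem for completely bounded maps

PLAN.  Take a minimal `K₀ ⊆ K` (`exists_minS`) and show that it is a point (then `mod_of_fixed`).
Suppose `η₁, η₂ ∈ K₀`, `a = (η₁ - η₂) p x ≠ 0`, `θ = (η₁ + η₂)/2`.  `W.sp (a⋆a) t` with `0 < t < ‖a‖²` gives
a projection `f ≠ 0` with `f a⋆a f ≥ t f`; `ω ∈ Φ` positive with `ω f > 0`; `1 - z` from `W.central {f}`.
* (∗) For finitely many `ξ l` with `z ξ l = ξ l` and `δ > 0` there is a column `(w i, r)`, `f w i = w i`,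
  `∑ w⋆w + r⋆r = 1`, `∑_l ω (ξ⋆ r⋆r ξ) ≤ δ`.  (`h_F = ∑_{x ∈ F} x⋆ f x`, `r = (1 + n h)^{-1/2}`,
  `w_x = √n f x r`; otherwise an ultralimit `s'` of `r²` over `(F, n)` has `f x s' = 0` for all `x`, so
  `z s' = 0`, contradiction.)
* (∗∗) For `η ∈ K₀`, `ℓ` continuous real-linear, finitely many `ξ l`, `δ > 0` there is a column `m` with
  `ℓ (col m θ) ≥ ℓ η - δ` and `∑_{l,i} ω ((a m i ξ l)⋆ (a m i ξ l)) ≥ t (∑_l ω (ξ l⋆ ξ l) - δ)`:
  by compactness there is `θ₀ ∈ K₀` in the closure of `{col β θ | β good for (Ξ, δ)}` for all finite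
  `Ξ ⊆ zA`, `δ`; take `v` from `approx_CS` for `θ₀`, then `β` good for the vectors `v j ξ l` with
  `ℓ (col v (col β θ))` close to `ℓ (col v θ₀)`; `m (i,j) = β i * v j`.
* Potential, by induction on the level `l`: finite types `I` (past), `R` (current layer), `lev : I → ℕ`
  (`< l`), `M : R → I → A`, `ξ : I → A`, `ξ' : R → A`, signs `s : I → {±1}`, with
  `∑_ρ (M ρ q)⋆ M ρ q' = δ` for `lev q = lev q'`, `∑_{lev q = i} ξ⋆ξ = f` (`i < l`), `∑ ξ'⋆ξ' = f`, `z ξ' = ξ'`,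
  `M ρ q ξ q`-compatibility is not needed beyond the step.  With `Γ q q' = ∑_ρ (M ρ q)⋆ M ρ q'`,
  `Ψ = Re ∑_q s q (∑_{q'} α(lev q, lev q') ω ((aξ q)⋆ θ (x Γ q q') ξ q') + U(lev q, l) ∑_ρ ω ((aξ q)⋆ θ (x (M ρ q)⋆) ξ' ρ))`,
  `U(i,l) = ∑_{l ≤ j < k} α i j`.  Step: `I' = I ⊕ R`, `R' = R × Fin J`, `M' (ρ,i) (inl q) = m i M ρ q`,
  `M' (ρ,i) (inr ρ') = δ m i`, `ξ' (ρ,i) = m i ξ' ρ`, common sign `s` on `R`; as in `S1` the average over
  `s` increases `Ψ` by `U(l, l+1)/2 ∑_ρ ω ((aξ')⋆(aξ'))` `≥ U t (ω f - δ)/2`.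
  At level `k` (where `U = 0`), `toep` and `CB` (reindex by `Fintype.equivFin`) give
  `Ψ ≤ ‖ω‖ C 8 ‖x‖ ‖a‖ k`.  For `G` large and `k ≥ 2N + 2` this is a contradiction.
-/

set_option autoImplicit false

namespace Crest.Agent.R121

open Filter Topology
open scoped ComplexConjugate ComplexOrder

universe u v

variable {A : Type u} [CStarAlgebra A]

open Finset in
/-- the potential argument -/
theorem cb_pot {W : WS A} {P : Type v} {K : Set (Fam W P)} {ω : A →L[ℂ] ℂ} (hω : ω ∈ W.Φ)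
    {η₁ η₂ θ : Fam W P} (h₁ : η₁ ∈ K) (h₂ : η₂ ∈ K) (hθ : θ = (2⁻¹ : ℝ) • η₁ + (2⁻¹ : ℝ) • η₂)
    (p : P) (x : A) {a f z : A} (ha : a = η₁ p x - η₂ p x) (hf : star f * f = f)
    (hz : ∀ x, z * x = x * z) (hzf : z * f = f) {g δ : ℝ} (hg : g ≤ cbq ω (a * f))
    (hcol : ∀ η ∈ K, ∀ ℓ : Fam W P → ℝ, Continuous ℓ → IsLinearMap ℝ ℓ →
      ∀ (R : Type u) [Fintype R] (ξ : R → A), (∀ ρ, z * ξ ρ = ξ ρ) →
      ∑ ρ, star (ξ ρ) * ξ ρ = f → ∃ (ι : Type u) (_ : Fintype ι) (m : ι → A),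
        ∑ i, star (m i) * m i = 1 ∧ ℓ η - δ ≤ ℓ (col m θ) ∧
        g ≤ ∑ ρ, ∑ i, cbq ω (a * (m i * ξ ρ)))
    (α : ℕ → ℕ → ℝ) (k : ℕ) (hα : ∀ i, 0 ≤ ∑ j ∈ Ico (i + 1) k, α i j)
    (B : Fam W P → A → A → A → ℝ)
    (hB : ∀ ψ u y v, B ψ u y v = (ω (star (a * u) * ψ p (x * y) * v)).re) (l : ℕ) (hl : l ≤ k) :
    ∃ (I R : Type u) (_ : Fintype I) (_ : Fintype R) (lev : I → ℕ) (M : R → I → A) (ξ : I → A)
      (ξ' : R → A) (s : I → ℝ), (∀ q, lev q < l) ∧ (∀ q, ∑ ρ, star (M ρ q) * M ρ q = 1) ∧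
      (∀ q q', lev q = lev q' → q ≠ q' → ∑ ρ, star (M ρ q) * M ρ q' = 0) ∧
      ∑ q, star (ξ q) * ξ q = (l : ℂ) • f ∧ ∑ ρ, star (ξ' ρ) * ξ' ρ = f ∧
      (∀ ρ, z * ξ' ρ = ξ' ρ) ∧ (∀ q, s q * s q = 1) ∧ g ≤ ∑ ρ, cbq ω (a * ξ' ρ) ∧
      ∑ i ∈ range l, ((∑ j ∈ Ico (i + 1) k, α i j) / 2 * g - δ) ≤
        ∑ q, s q * (∑ q', α (lev q) (lev q') * B θ (ξ q) (∑ ρ, star (M ρ q) * M ρ q') (ξ q') +
          (∑ j ∈ Ico l k, α (lev q) j) * ∑ ρ, B θ (ξ q) (star (M ρ q)) (ξ' ρ)) := by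
  classical
  induction l with
  | zero =>
    exact ⟨PEmpty, PUnit, inferInstance, inferInstance, PEmpty.elim, fun _ => PEmpty.elim,
      PEmpty.elim, fun _ => f, PEmpty.elim, fun q => q.elim, fun q => q.elim, fun q => q.elim,
      by simp, by simpa using hf, fun _ => hzf, fun q => q.elim, by simpa using hg, by simp⟩
  | succ l ih =>
    obtain ⟨I, R, _, _, lev, M, ξ, ξ', s, i1, i2, i3, i4, i5, i6, i7, i8, ih⟩ :=
      ih (Nat.le_of_succ_le hl)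
    have hBc : ∀ u y v, Continuous fun ψ => B ψ u y v := fun u y v => by
      simp only [hB]
      exact Complex.continuous_re.comp (Fam.continuous_eval' hω _ _ _ _)
    have hBa : ∀ ψ ψ' u y v, B (ψ + ψ') u y v = B ψ u y v + B ψ' u y v := fun ψ ψ' u y v => by
      simp [hB, mul_add, add_mul]
    have hBs : ∀ (c : ℝ) ψ u y v, B (c • ψ) u y v = c * B ψ u y v := fun c ψ u y v => by
      simp [hB, ContinuousLinearMap.map_smul_of_tower]
    have hB0 : ∀ ψ u v, B ψ u 0 v = 0 := fun ψ u v => by simp [hB]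
    set lev' : I ⊕ R → ℕ := Sum.elim lev fun _ => l with hlev'
    set M₀ : R → I ⊕ R → A := fun ρ => Sum.elim (M ρ) fun ρ' => if ρ = ρ' then 1 else 0 with hM₀
    set ξ₀ : I ⊕ R → A := Sum.elim ξ ξ' with hξ₀
    set s' : ℝ → I ⊕ R → ℝ := fun σ => Sum.elim s fun _ => σ with hs'
    set U : ℕ → ℝ := fun i => ∑ j ∈ Ico (l + 1) k, α i j with hU
    set D : I ⊕ R → ℝ := fun q => ∑ q', α (lev' q) (lev' q') *
      B θ (ξ₀ q) (∑ ρ, star (M₀ ρ q) * M₀ ρ q') (ξ₀ q') with hD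
    set L : ℝ → Fam W P → ℝ := fun σ ψ =>
      ∑ q, s' σ q * (U (lev' q) * ∑ ρ, B ψ (ξ₀ q) (star (M₀ ρ q)) (ξ' ρ)) with hL
    have hLc : ∀ σ, Continuous (L σ) := fun σ => continuous_finsetSum _ fun q _ =>
      continuous_const.mul (continuous_const.mul (continuous_finsetSum _ fun ρ _ => hBc _ _ _))
    have hLl : ∀ σ, IsLinearMap ℝ (L σ) := fun σ =>
      ⟨fun y y' => by simp only [hL, hBa, mul_add, sum_add_distrib],
      fun c y => by
        simp only [hL, hBs, smul_eq_mul, mul_sum]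
        exact sum_congr rfl fun _ _ => sum_congr rfl fun _ _ => by ring⟩
    have eL : ∀ σ ψ, L σ ψ = ∑ q, s q * (U (lev q) * ∑ ρ, B ψ (ξ q) (star (M ρ q)) (ξ' ρ)) +
        σ * (U l * ∑ ρ, B ψ (ξ' ρ) 1 (ξ' ρ)) := by
      intro σ ψ
      simp only [hL, Fintype.sum_sum_type, hs', hlev', hξ₀, hM₀, Sum.elim_inl, Sum.elim_inr,
        ← mul_sum]
      congr 3
      refine sum_congr rfl fun ρ _ => ?_
      rw [sum_eq_single ρ (fun ρ' _ h => by rw [if_neg h, star_zero, hB0]) (by simp), if_pos rfl,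
        star_one]
    have eD : ∀ σ, ∑ q, s' σ q * D q = ∑ q, s q * (∑ q', α (lev q) (lev q') *
        B θ (ξ q) (∑ ρ, star (M ρ q) * M ρ q') (ξ q') +
        α (lev q) l * ∑ ρ, B θ (ξ q) (star (M ρ q)) (ξ' ρ)) + σ * ∑ ρ, D (Sum.inr ρ) := by
      intro σ
      rw [Fintype.sum_sum_type]
      simp only [hs', Sum.elim_inl, Sum.elim_inr, ← mul_sum]
      congr 1
      refine sum_congr rfl fun q _ => ?_
      simp [hD, hlev', hξ₀, hM₀, mul_sum]
    have e1 : ∑ ρ, B η₁ (ξ' ρ) 1 (ξ' ρ) - ∑ ρ, B η₂ (ξ' ρ) 1 (ξ' ρ) = ∑ ρ, cbq ω (a * ξ' ρ) := by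
      rw [← sum_sub_distrib]
      refine sum_congr rfl fun ρ _ => ?_
      rw [hB, hB, cbq, mul_one, ← Complex.sub_re, ← map_sub, ← sub_mul, ← mul_sub, ← ha, mul_assoc]
    obtain ⟨σ, η, hσ, hη, e2⟩ : ∃ σ η, σ * σ = 1 ∧ η ∈ K ∧
        ∑ q, s' 0 q * D q + L 0 θ + U l / 2 * g ≤ ∑ q, s' σ q * D q + L σ η := by
      have e3 : ∑ q, s' 0 q * D q + L 0 θ + U l / 2 * ∑ ρ, cbq ω (a * ξ' ρ) =
          ((∑ q, s' 1 q * D q + L 1 η₁) + (∑ q, s' (-1) q * D q + L (-1) η₂)) / 2 := by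
        rw [eD, eD, eD, ← e1]
        nth_rw 3 [hθ]
        rw [(hLl 0).map_add, (hLl 0).map_smul, (hLl 0).map_smul, eL, eL, eL, eL]
        simp only [smul_eq_mul]
        ring
      have e4 : U l / 2 * g ≤ U l / 2 * ∑ ρ, cbq ω (a * ξ' ρ) :=
        mul_le_mul_of_nonneg_left i8 (div_nonneg (hα l) zero_le_two)
      rcases le_total (∑ q, s' 1 q * D q + L 1 η₁) (∑ q, s' (-1) q * D q + L (-1) η₂) with h | h
      · exact ⟨-1, η₂, by norm_num, h₂, by linarith⟩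
      · exact ⟨1, η₁, by norm_num, h₁, by linarith⟩
    obtain ⟨ι, _, m, hm, e3, e4⟩ := hcol η hη (L σ) (hLc σ) (hLl σ) R ξ' i6 i5
    have eΓ : ∀ y y' : R → A, ∑ ρ : R × ι, star (m ρ.2 * y ρ.1) * (m ρ.2 * y' ρ.1) =
        ∑ ρ, star (y ρ) * y' ρ := by
      intro y y'
      rw [Fintype.sum_prod_type]
      refine sum_congr rfl fun ρ _ => ?_
      simp only [star_mul, mul_assoc, ← mul_sum]
      simp only [← mul_assoc, ← sum_mul, hm, one_mul]
    refine ⟨I ⊕ R, R × ι, inferInstance, inferInstance, lev', fun ρ q => m ρ.2 * M₀ ρ.1 q, ξ₀,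
      fun ρ => m ρ.2 * ξ' ρ.1, s' σ, ?_, ?_, ?_, ?_, ?_, ?_, ?_, ?_, ?_⟩
    · rintro (q | q)
      exacts [(i1 q).trans (Nat.lt_succ_self l), Nat.lt_succ_self l]
    · intro q
      rw [eΓ (M₀ · q) (M₀ · q)]
      rcases q with q | q
      · exact i2 q
      · simp [hM₀]
    · intro q q' h h'
      rw [eΓ (M₀ · q) (M₀ · q')]
      rcases q with q | q <;> rcases q' with q' | q'
      · exact i3 q q' h fun e => h' (by rw [e])
      · exact absurd h (i1 q).ne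
      · exact absurd h (i1 q').ne'
      · have : q' ≠ q := fun e => h' (by rw [e])
        simp [hM₀, this]
    · rw [Fintype.sum_sum_type]
      simp only [hξ₀, Sum.elim_inl, Sum.elim_inr, i4, i5, Nat.cast_succ, add_smul, one_smul]
    · rw [eΓ, i5]
    · intro ρ
      rw [← mul_assoc, hz, mul_assoc, i6]
    · rintro (q | q)
      exacts [i7 q, hσ]
    · rw [Fintype.sum_prod_type]
      exact e4
    · have e5 : ∀ q, ∑ ρ : R × ι, B θ (ξ₀ q) (star (m ρ.2 * M₀ ρ.1 q)) (m ρ.2 * ξ' ρ.1) =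
          ∑ ρ, B (col m θ) (ξ₀ q) (star (M₀ ρ q)) (ξ' ρ) := by
        intro q
        rw [Fintype.sum_prod_type]
        refine sum_congr rfl fun ρ _ => ?_
        simp only [hB, col_apply, star_mul, mul_sum, sum_mul, map_sum, Complex.re_sum, mul_assoc]
      have e6 : ∀ q q', ∑ ρ : R × ι, star (m ρ.2 * M₀ ρ.1 q) * (m ρ.2 * M₀ ρ.1 q') =
          ∑ ρ, star (M₀ ρ q) * M₀ ρ q' := fun q q' => eΓ (M₀ · q) (M₀ · q')
      simp only [e5, e6, mul_add, sum_add_distrib]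
      rw [sum_range_succ]
      change _ + (U l / 2 * g - δ) ≤ ∑ q, s' σ q * D q + L σ (col m θ)
      rw [eD 0, eL 0] at e2
      simp only [sum_eq_sum_Ico_succ_bot (Nat.lt_of_succ_le hl), add_mul, mul_add,
        sum_add_distrib] at ih e2
      linarith

theorem FPcb (W : WS A) {P : Type v} {C : P → ℝ} {K : Set (Fam W P)} (hK : Adm C K)
    (hi : Inv (CS W P) K) (hcb : ∀ y ∈ K, ∀ p, CB (y p) (C p)) : ∃ y ∈ K, Mod y := by
  classical
  obtain ⟨K₀, hK₀, hmin⟩ := exists_minS hK hi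
  suffices h : ∀ η₁ ∈ K₀, ∀ η₂ ∈ K₀, η₁ = η₂ by
    obtain ⟨y, hy⟩ := hmin.adm.ne
    refine ⟨y, hK₀ hy, mod_of_fixed fun u hu => h _ ?_ _ hy⟩
    have := hmin.inv.col_mem (m := fun _ : Unit => u)
      (by simpa using Unitary.star_mul_self_of_mem hu) hy
    simpa [col] using this
  intro η₁ h₁ η₂ h₂
  refine Fam.ext fun p x => sub_eq_zero.1 ?_
  by_contra ha0
  set a := η₁ p x - η₂ p x with ha
  have hna : 0 < ‖a‖ ^ 2 := pow_pos (norm_pos_iff.2 ha0) 2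
  set t := ‖a‖ ^ 2 / 2 with ht
  have ht0 : 0 < t := half_pos hna
  obtain ⟨f, hf, -, ⟨g₁, hg₁⟩, ⟨g₂, hg₂⟩, -⟩ := W.sp (IsSelfAdjoint.star_mul_self a) t
  have hf0 : f ≠ 0 := by
    rintro rfl
    have := cb_norm_le ht0.le (by rwa [sub_zero, one_mul] at hg₂)
    linarith
  have hff : star f * f = f := by rw [hf.isSelfAdjoint.star_eq, hf.isIdempotentElem.eq]
  obtain ⟨ω, hω, hp, hω0⟩ := W.pos f hf0
  have hq : 0 < cbq ω f := lt_of_le_of_ne (cbq_nonneg hp f) fun h =>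
    hω0 (Complex.ext h.symm (Complex.nonneg_iff.1 (hp f)).2.symm)
  have haf : ∀ y, f * y = y → t * cbq ω y ≤ cbq ω (a * y) := by
    intro y hy
    have h1 := cbq_nonneg hp (g₁ * y)
    have h2 : star y * f = star y := by
      rw [← hf.isSelfAdjoint.star_eq, ← star_mul, hy]
    rw [cbq, star_mul, mul_assoc, ← mul_assoc (star g₁), hg₁, ← mul_assoc, ← mul_assoc, h2] at h1
    simp only [mul_sub, sub_mul, mul_smul_comm, smul_mul_assoc, mul_one, map_sub, map_smul,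
      smul_eq_mul, Complex.sub_re, Complex.re_ofReal_mul] at h1
    simp only [cbq, star_mul, mul_assoc] at h1 ⊢
    linarith
  obtain ⟨z₀, hz₀, hz₁⟩ := W.central {f}
  have hz : ∀ x, (1 - z₀) * x = x * (1 - z₀) := fun x => by
    rw [sub_mul, mul_sub, hz₀.2, one_mul, mul_one]
  have hzf : (1 - z₀) * f = f := by
    have := (hz₁ z₀).2 hz₀.1.isIdempotentElem.eq f rfl 1
    rw [mul_one] at this
    rw [sub_mul, this, one_mul, sub_zero]
  have hzf' : ∀ y, (∀ x, f * x * y = 0) → (1 - z₀) * y = 0 := by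
    intro y hy
    have := congrArg star ((hz₁ (star y)).1 fun b hb x => by
      have := congrArg star (hy (star x))
      rw [star_mul, star_mul, star_star, hf.isSelfAdjoint.star_eq, star_zero, ← mul_assoc] at this
      rw [hb, this])
    rw [star_mul, star_star, hz₀.1.isSelfAdjoint.star_eq] at this
    rw [sub_mul, this, one_mul, sub_self]
  set θ : Fam W P := (2⁻¹ : ℝ) • η₁ + (2⁻¹ : ℝ) • η₂ with hθ
  have hθK : θ ∈ K₀ := hmin.adm.convex h₁ h₂ (by norm_num) (by norm_num) (by norm_num)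
  have hC : 0 ≤ C p := (norm_nonneg _).trans (hK.bdd _ (hK₀ h₁) p)
  set D := ‖ω‖ * (C p * (8 * ‖x‖) * ‖a‖) with hD
  have hD0 : 0 ≤ D := by positivity
  set δ := min (cbq ω f / 2) 1 with hδ
  have hδ0 : 0 < δ := lt_min (half_pos hq) one_pos
  set g := t * (cbq ω f - δ) with hg
  have hg0 : 0 < g := mul_pos ht0 (by have := min_le_left (cbq ω f / 2) 1; linarith)
  obtain ⟨N, β, hβ, hG⟩ := exists_coef (4 * (D + 2) / g)
  set G := ∑ m ∈ Finset.range (N + 1), β m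
  have hU : ∀ i, ∑ j ∈ Finset.Ico (i + 1) (2 * N + 2), tp β i j =
      ∑ m ∈ Finset.range (min (2 * N + 2 - i) (N + 1)), β m := fun i => by
    rw [← s1_U hβ]
    exact Finset.sum_congr (by ext j; simp; omega) fun _ _ => rfl
  have hU0 : ∀ i, 0 ≤ ∑ j ∈ Finset.Ico (i + 1) (2 * N + 2), tp β i j := fun i => by
    rw [hU]; exact Finset.sum_nonneg fun m _ => hβ.nonneg m
  obtain ⟨I, R, _, _, lev, M, ξ, ξ', s, i1, i2, i3, i4, -, -, i7, -, h⟩ :=
    cb_pot (g := g) (δ := δ) hω h₁ h₂ hθ p x ha hff hz hzf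
      ((mul_le_mul_of_nonneg_left (sub_le_self _ hδ0.le) ht0.le).trans
        (haf f hf.isIdempotentElem.eq))
      (fun η hη ℓ hc hl R _ ξ hξ hξ' => by
        obtain ⟨ι, _, m, e1, e2, e3⟩ := cb_col hmin hθK hω hp ht0 hf.isIdempotentElem.eq haf hz hzf'
          hη hc hl hξ hδ0
        refine ⟨ι, inferInstance, m, e1, e2, le_trans (le_of_eq ?_) e3⟩
        simp only [hg, cbq]
        rw [← Complex.re_sum, ← map_sum, hξ', hff])
      (tp β) (2 * N + 2) hU0 _ (fun _ _ _ _ => rfl) (2 * N + 2) le_rfl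
  have hBd := cb_apply (hcb θ (hK₀ hθK) p) (by positivity) (cb_bd_mul (by norm_num)
    (cb_bd_toep hβ (fun q => ⟨lev q, i1 q⟩) M fun q q' h => by
      split_ifs with h'
      · rw [h', i2]
      · exact i3 q q' (congrArg Fin.val h) h') x) (fun q => (s q : ℂ) • star (a * ξ q)) ξ
  have e1 : ∑ q, (s q : ℂ) • star (a * ξ q) * star ((s q : ℂ) • star (a * ξ q)) =
      ∑ q, star (a * ξ q) * (a * ξ q) := Finset.sum_congr rfl fun q _ => by
    rw [star_smul, star_star, smul_mul_smul_comm, Complex.star_def, Complex.conj_ofReal,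
      ← Complex.ofReal_mul, i7, Complex.ofReal_one, one_smul]
  have e2 : √‖∑ q, star (ξ q) * ξ q‖ * √‖∑ q, star (ξ q) * ξ q‖ ≤ 2 * N + 2 := by
    rw [Real.mul_self_sqrt (norm_nonneg _), i4, norm_smul, Complex.norm_natCast]
    push_cast
    exact mul_le_of_le_one_right (by positivity) hf.norm_le
  rw [e1] at hBd
  have e3 := ((Complex.re_le_norm _).trans (ω.le_opNorm _)).trans
    (mul_le_mul_of_nonneg_left hBd (norm_nonneg ω))
  have e4 : ‖ω‖ * (C p * (8 * ‖x‖) * √‖∑ q, star (a * ξ q) * (a * ξ q)‖ *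
      √‖∑ q, star (ξ q) * ξ q‖) ≤ D * (2 * N + 2) := by
    calc _ ≤ ‖ω‖ * (C p * (8 * ‖x‖) * (‖a‖ * √‖∑ q, star (ξ q) * ξ q‖) *
          √‖∑ q, star (ξ q) * ξ q‖) := by gcongr; exact cb_norm_sum a ξ
      _ = D * (√‖∑ q, star (ξ q) * ξ q‖ * √‖∑ q, star (ξ q) * ξ q‖) := by rw [hD]; ring
      _ ≤ _ := by gcongr
  simp only [Finset.Ico_self, Finset.sum_empty, zero_mul, add_zero] at h
  rw [Finset.sum_sub_distrib, Finset.sum_const, Finset.card_range, nsmul_eq_mul] at h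
  simp only [mul_smul_comm, smul_mul_assoc, map_smul, map_sum ω, smul_eq_mul, Complex.re_sum,
    Complex.re_ofReal_mul] at e3
  have e5 : (N + 1) * (G / 2 * g) ≤
      ∑ i ∈ Finset.range (2 * N + 2), (∑ j ∈ Finset.Ico (i + 1) (2 * N + 2), tp β i j) / 2 * g := by
    refine le_trans (le_of_eq ?_) (Finset.sum_le_sum_of_subset_of_nonneg
      (Finset.range_subset_range.2 (by omega : N + 1 ≤ 2 * N + 2)) fun i _ _ =>
        mul_nonneg (div_nonneg (hU0 i) zero_le_two) hg0.le)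
    rw [Finset.sum_congr rfl (g := fun _ => G / 2 * g) fun i hi => by
      rw [hU, min_eq_right (by have := Finset.mem_range.1 hi; omega)]]
    simp
  rw [div_le_iff₀ hg0] at hG
  have e6 : δ ≤ 1 := min_le_right _ _
  have e7 : (0 : ℝ) ≤ N := Nat.cast_nonneg N
  have e8 := h.trans ((le_of_eq ?_).trans (e3.trans e4))
  · push_cast at e8
    nlinarith
  · refine Finset.sum_congr rfl fun q _ => ?_
    rw [Finset.mul_sum]
    exact Finset.sum_congr rfl fun q' _ => by ring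

end Crest.Agent.R121
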