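import Crest.Agent.R121.Defs

/-!
# Row 121: minimal invariant sets

PLANS.
* `isCompact_box`: `isCompact_iff_ultrafilter_le_nhds`, `W.exists_T` pointwise, `Fam.tendsto_iff`.
* `exists_minS`: Zorn for `⊇` (`zorn_superset_nonempty`), compactness for chains.
* `approx`: otherwise `{θ ∈ K | ∀ s ∈ S, ℓ (s θ) ≤ ℓ y' - δ}` is a nonempty closed convex invariant set.
* `exists_MM`: `y' p x = (1/k) ∑_{ij} y p (x e_{ji}) e_{ij}` is the average of `act g y` over
  `g = ∑_j ε_j e_{j+σ, j}` (signs `ε`, shifts `σ ∈ Fin (k+1)`); (`Convex.sum_mem`).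
* `exists_fixed_pauli`: induction on the list; `(y + act s y)/2`; `act s` and `act t` commute.
* `mod_of_MM`: `x = ∑ x_{ij} e_{ij}` with `x_{ij} = ∑_l e_{li} x e_{jl} ∈ cmm e`; elements of the closed
  algebra `cmm e` are combinations of its unitaries (`R95.exists_unitary_decomp`).
* `FP_I`: minimal `K₀` from `exists_min_MM`; for a unitary `u ∈ cmm e` a cluster point of the Cesàro
  means of `act (u^n) y` is fixed by `act u`; `{y ∈ K₀ | act u y = y}` is invariant by commutativity.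
-/

set_option autoImplicit false

namespace Crest.Agent.R121

open Filter Topology
open scoped ComplexConjugate ComplexOrder

universe u v

variable {A : Type u} [CStarAlgebra A]

variable {W : WS A} {P : Type v} {C : P → ℝ} {K : Set (Fam W P)}

theorem isCompact_box (C : P → ℝ) : IsCompact {y : Fam W P | ∀ p, ‖y p‖ ≤ C p} := by
  refine isCompact_iff_ultrafilter_le_nhds.2 fun 𝒰 h𝒰 => ?_
  have h : ∀ᶠ y in (𝒰 : Filter (Fam W P)), ∀ p, ‖y p‖ ≤ C p := le_principal_iff.1 h𝒰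
  have hC : ∀ p, 0 ≤ C p := fun p => let ⟨y, hy⟩ := h.exists; (norm_nonneg _).trans (hy p)
  choose b hb hT using fun p x => W.exists_T 𝒰 (fun y : Fam W P => y p x) (C := C p * ‖x‖)
    (h.mono fun y hy => (y p).le_of_opNorm_le (hy p) x)
  refine ⟨fun p => LinearMap.mkContinuous
    { toFun := b p
      map_add' := fun x x' => (hT p _).unique (by simpa only [map_add] using (hT p x).add (hT p x'))
      map_smul' := fun c x => (hT p _).unique (by
        simpa only [map_smul, RingHom.id_apply] using (hT p x).smul c) }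
    (C p) (hb p), fun p => LinearMap.mkContinuous_norm_le _ (hC p) _, ?_⟩
  exact Fam.tendsto_iff (y := id).2 hT

theorem isClosed_box (C : P → ℝ) : IsClosed {y : Fam W P | ∀ p, ‖y p‖ ≤ C p} :=
  (isCompact_box C).isClosed

theorem convex_box (C : P → ℝ) : Convex ℝ {y : Fam W P | ∀ p, ‖y p‖ ≤ C p} := by
  intro y hy y' hy' a b ha hb hab p
  change ‖a • y p + b • y' p‖ ≤ C p
  exact convex_closedBall (0 : A →L[ℂ] A) (C p) (mem_closedBall_zero_iff.2 (hy p))
    (mem_closedBall_zero_iff.2 (hy' p)) ha hb hab |> mem_closedBall_zero_iff.1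

theorem norm_act_le {u : A} (hu : u ∈ unitary A) (y : Fam W P) (p : P) : ‖act u y p‖ ≤ ‖y p‖ := by
  refine ContinuousLinearMap.opNorm_le_bound _ (norm_nonneg _) fun x => ?_
  rw [act_apply, CStarRing.norm_mul_mem_unitary _ hu,
    ← CStarRing.norm_mul_mem_unitary x (Unitary.star_mem hu)]
  exact (y p).le_opNorm _

theorem Adm.isCompact (h : Adm C K) : IsCompact K :=
  (isCompact_box C).of_isClosed_subset h.closed h.bdd

theorem exists_minS {S : Set (Fam W P →ₗ[ℂ] Fam W P)} (h : Adm C K) (hi : Inv S K) :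
    ∃ K' ⊆ K, IsMinS C S K' := by
  obtain ⟨K', h1, ⟨h2, h3, h4, h5, h6⟩, hmin⟩ := zorn_superset_nonempty
    {K' | K' ⊆ K ∧ K'.Nonempty ∧ IsClosed K' ∧ Convex ℝ K' ∧ Inv S K'}
    (fun c hc hch ⟨K₀, hK₀⟩ => by
      haveI : Nonempty c := ⟨⟨K₀, hK₀⟩⟩
      refine ⟨⋂₀ c, ⟨(Set.sInter_subset_of_mem hK₀).trans (hc hK₀).1, ?_,
        isClosed_sInter fun t ht => (hc ht).2.2.1, convex_sInter fun t ht => (hc ht).2.2.2.1,
        fun s hs y hy t ht => (hc ht).2.2.2.2 s hs y (hy t ht)⟩,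
        fun t ht => Set.sInter_subset_of_mem ht⟩
      exact IsCompact.nonempty_sInter_of_directed_nonempty_isCompact_isClosed
        (fun a ha b hb => (hch.total ha hb).elim (fun h => ⟨a, ha, subset_rfl, h⟩)
          fun h => ⟨b, hb, h, subset_rfl⟩)
        (fun t ht => (hc ht).2.1)
        (fun t ht => h.isCompact.of_isClosed_subset (hc ht).2.2.1 (hc ht).1)
        fun t ht => (hc ht).2.2.1)
    K ⟨subset_rfl, h.ne, h.closed, h.convex, hi⟩
  exact ⟨K', h1, ⟨h3, h4, h5, fun y hy => h.bdd y (h1 hy)⟩, h6, fun K'' a b c d e =>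
    a.antisymm (hmin ⟨a.trans h1, b, c, d, e⟩ a)⟩

theorem fam_map_rsmul (s : Fam W P →ₗ[ℂ] Fam W P) (c : ℝ) (y : Fam W P) : s (c • y) = c • s y :=
  s.map_smul_of_tower c y

theorem IsMinS.approx {S : Set (Fam W P →ₗ[ℂ] Fam W P)} (h : IsMinS C S K)
    (h1 : ∃ s ∈ S, ∀ y, s y = y) (h2 : ∀ s ∈ S, ∀ t ∈ S, ∃ r ∈ S, ∀ y, r y = s (t y))
    (h3 : ∀ s ∈ S, Continuous s) {y y' : Fam W P}
    (hy : y ∈ K) (hy' : y' ∈ K) {ℓ : Fam W P → ℝ} (hc : Continuous ℓ) (hl : IsLinearMap ℝ ℓ)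
    {δ : ℝ} (hδ : 0 < δ) : ∃ s ∈ S, ℓ y' - δ ≤ ℓ (s y) := by
  by_contra! hcon
  have := h.min {θ ∈ K | ∀ s ∈ S, ℓ (s θ) ≤ ℓ y' - δ} (fun _ h => h.1)
    ⟨y, hy, fun s hs => (hcon s hs).le⟩ ?_ ?_ ?_
  · rw [← this] at hy'
    obtain ⟨s, hs, e⟩ := h1
    have := hy'.2 s hs
    rw [e] at this
    linarith
  · refine h.adm.closed.inter (?_ : IsClosed {θ | ∀ s ∈ S, ℓ (s θ) ≤ ℓ y' - δ})
    simp only [Set.setOf_forall]
    exact isClosed_iInter fun s => isClosed_iInter fun hs =>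
      isClosed_le (hc.comp (h3 s hs)) continuous_const
  · intro θ hθ θ' hθ' a b ha hb hab
    refine ⟨h.adm.convex hθ.1 hθ'.1 ha hb hab, fun s hs => ?_⟩
    rw [map_add, fam_map_rsmul, fam_map_rsmul, hl.map_add, hl.map_smul, hl.map_smul]
    exact convex_Iic (ℓ y' - δ) (Set.mem_Iic.2 (hθ.2 s hs)) (Set.mem_Iic.2 (hθ'.2 s hs)) ha hb hab
  · intro t ht θ hθ
    refine ⟨h.inv t ht θ hθ.1, fun s hs => ?_⟩
    obtain ⟨r, hr, e⟩ := h2 s hs t ht
    rw [← e]
    exact hθ.2 r hr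

theorem col_mem_CS {ι : Type*} [Fintype ι] {m : ι → A} (hm : ∑ i, star (m i) * m i = 1) :
    col m ∈ CS W P :=
  ⟨_, fun i => m ((Fintype.equivFin ι).symm i),
    by rw [← hm]; exact Equiv.sum_comp (Fintype.equivFin ι).symm fun i => star (m i) * m i,
    (Equiv.sum_comp (Fintype.equivFin ι).symm fun i => act (m i)).symm⟩

theorem continuous_col {ι : Type*} [Fintype ι] (m : ι → A) :
    Continuous (col m : Fam W P → Fam W P) :=
  Fam.continuous_iff.2 fun p x => by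
    simp only [col_apply]
    exact WC.sum Finset.univ fun i _ => (WC.eval p (x * star (m i))).mul_right (m i)

theorem IsMinS.approx_US {N : StarSubalgebra ℂ A} (h : IsMinS C (US W P N) K) {y y' : Fam W P}
    (hy : y ∈ K) (hy' : y' ∈ K) {ℓ : Fam W P → ℝ} (hc : Continuous ℓ) (hl : IsLinearMap ℝ ℓ)
    {δ : ℝ} (hδ : 0 < δ) : ∃ u ∈ N, u ∈ unitary A ∧ ℓ y' - δ ≤ ℓ (act u y) := by
  obtain ⟨_, ⟨u, h1, h2, rfl⟩, h3⟩ := h.approx ⟨_, ⟨1, one_mem _, one_mem _, rfl⟩, act_one⟩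
    (by
      rintro _ ⟨u, h1, h2, rfl⟩ _ ⟨v, h3, h4, rfl⟩
      exact ⟨_, ⟨v * u, mul_mem h3 h1, mul_mem h4 h2, rfl⟩, act_mul v u⟩)
    (by rintro _ ⟨u, -, -, rfl⟩; exact continuous_act u) hy hy' hc hl hδ
  exact ⟨u, h1, h2, h3⟩

theorem IsMinS.approx_CS (h : IsMinS C (CS W P) K) {y y' : Fam W P}
    (hy : y ∈ K) (hy' : y' ∈ K) {ℓ : Fam W P → ℝ} (hc : Continuous ℓ) (hl : IsLinearMap ℝ ℓ)
    {δ : ℝ} (hδ : 0 < δ) :
    ∃ (J : ℕ) (m : Fin J → A), ∑ i, star (m i) * m i = 1 ∧ ℓ y' - δ ≤ ℓ (col m y) := by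
  obtain ⟨_, ⟨J, m, h1, rfl⟩, h3⟩ := h.approx
    ⟨_, ⟨1, fun _ => 1, by simp, rfl⟩, fun y => Fam.ext fun p x => by simp⟩
    (by
      rintro _ ⟨J, m, h1, rfl⟩ _ ⟨J', m', h2, rfl⟩
      refine ⟨_, col_mem_CS (m := fun q : Fin J × Fin J' => m' q.2 * m q.1) ?_,
        fun y => Fam.ext fun p x => ?_⟩
      · rw [Fintype.sum_prod_type, ← h1]
        refine Finset.sum_congr rfl fun i _ => ?_
        have : ∀ j, star (m' j * m i) * (m' j * m i) = star (m i) * (star (m' j) * m' j) * m i :=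
          fun j => by simp only [star_mul, mul_assoc]
        simp only [this, ← Finset.sum_mul, ← Finset.mul_sum, h2, mul_one]
      · simp only [col_apply, Fintype.sum_prod_type, Finset.sum_mul, star_mul, mul_assoc])
    (by rintro _ ⟨J, m, -, rfl⟩; exact continuous_col m) hy hy' hc hl hδ
  exact ⟨J, m, h1, h3⟩

theorem Inv.col_mem (h : Inv (CS W P) K) {ι : Type*} [Fintype ι] {m : ι → A}
    (hm : ∑ i, star (m i) * m i = 1) {y : Fam W P} (hy : y ∈ K) : col m y ∈ K :=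
  h _ (col_mem_CS hm) y hy

theorem Adm.exists_fixed (h : Adm C K) {s : Fam W P →ₗ[ℂ] Fam W P} (hs : Continuous s)
    (hi : ∀ y ∈ K, s y ∈ K) : ∃ y ∈ K, s y = y := by
  obtain ⟨y₀, hy₀⟩ := h.ne
  have h1 : ∀ n : ℕ, s^[n] y₀ ∈ K := fun n => by
    induction n with
    | zero => exact hy₀
    | succ n ih => rw [Function.iterate_succ_apply']; exact hi _ ih
  let z : ℕ → Fam W P := fun n => ∑ i ∈ Finset.range (n + 1), ((n : ℝ) + 1)⁻¹ • s^[i] y₀
  have h2 : ∀ n, z n ∈ K := fun n => h.convex.sum_mem (fun _ _ => by positivity)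
    (by simp; field_simp) fun i _ => h1 i
  have h3 : ∀ n, s (z n) - z n = ((n : ℝ) + 1)⁻¹ • (s^[n + 1] y₀ - y₀) := fun n => by
    simp only [z, map_sum, fam_map_rsmul, ← Function.iterate_succ_apply' s, ← Finset.smul_sum,
      ← smul_sub, ← Finset.sum_sub_distrib]
    rw [Finset.sum_range_sub fun i => s^[i] y₀]
    rfl
  obtain ⟨y, hy, ht⟩ := isCompact_iff_ultrafilter_le_nhds.1 h.isCompact
    ((Ultrafilter.of atTop).map z) (le_principal_iff.2 (mem_map.2 (Eventually.of_forall h2)))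
  have ht' : Tendsto z (Ultrafilter.of (atTop : Filter ℕ) : Filter ℕ) (𝓝 y) := ht
  refine ⟨y, hy, Fam.ext fun p x => sub_eq_zero.1 ?_⟩
  refine ((Fam.tendsto_iff.1 ((hs.tendsto y).comp ht') p x).sub
    (Fam.tendsto_iff.1 ht' p x)).unique (WS.T.of_tendsto W (Tendsto.mono_left ?_ (Ultrafilter.of_le _)))
  have h4 := tendsto_one_div_add_atTop_nhds_zero_nat.mul_const (2 * C p * ‖x‖)
  rw [zero_mul] at h4
  refine squeeze_zero_norm (fun n => ?_) h4
  rw [Function.comp, ← Fam.sub_apply, h3, Fam.rsmul_apply, Fam.sub_apply, norm_smul, one_div,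
    Real.norm_of_nonneg (by positivity)]
  refine mul_le_mul_of_nonneg_left ((norm_sub_le _ _).trans ?_) (by positivity)
  have a1 := (s^[n + 1] y₀ p).le_of_opNorm_le (h.bdd _ (h1 _) p) x
  have a2 := (y₀ p).le_of_opNorm_le (h.bdd _ hy₀ p) x
  linarith

/-- Markov–Kakutani -/
theorem Adm.exists_fixed_comm (h : Adm C K) {S : Set (Fam W P →ₗ[ℂ] Fam W P)} (hi : Inv S K)
    (hs : ∀ s ∈ S, Continuous s) (hc : ∀ s ∈ S, ∀ t ∈ S, ∀ y, s (t y) = t (s y)) :
    ∃ y ∈ K, ∀ s ∈ S, s y = y := by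
  obtain ⟨K', h1, h2⟩ := exists_minS h hi
  obtain ⟨y, hy⟩ := h2.adm.ne
  refine ⟨y, h1 hy, fun s hs' => ?_⟩
  have := h2.min {y ∈ K' | s y = y} (fun _ h => h.1) (h2.adm.exists_fixed (hs s hs') (h2.inv s hs'))
    (h2.adm.closed.inter (isClosed_eq (hs s hs') continuous_id))
    (fun θ hθ θ' hθ' a b ha hb hab => ⟨h2.adm.convex hθ.1 hθ'.1 ha hb hab, by
      rw [map_add, fam_map_rsmul, fam_map_rsmul, hθ.2, hθ'.2]⟩)
    (fun t ht θ hθ => ⟨h2.inv t ht θ hθ.1, by rw [hc s hs' t ht, hθ.2]⟩)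
  rw [← this] at hy
  exact hy.2

/-- the elements for which `y` is right modular -/
def modSub (y : Fam W P) : Subalgebra ℂ A where
  carrier := {a | ∀ p x, y p (x * a) = y p x * a}
  mul_mem' ha hb p x := by rw [← mul_assoc, hb, ha, mul_assoc]
  add_mem' ha hb p x := by rw [mul_add, map_add, ha, hb, mul_add]
  algebraMap_mem' c p x := by simp [Algebra.algebraMap_eq_smul_one]

theorem mem_modSub {y : Fam W P} {u : A} (hu : u ∈ unitary A) (h : act u y = y) :
    u ∈ modSub y ∧ star u ∈ modSub y := by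
  refine ⟨fun p x => ?_, fun p x => ?_⟩
  · conv_lhs => rw [← h, act_apply, mul_assoc, Unitary.mul_star_self_of_mem hu, mul_one]
  · conv_rhs => rw [← h, act_apply, mul_assoc, Unitary.mul_star_self_of_mem hu, mul_one]

theorem Adm.inter_modSub (h : Adm C K) {ι : Type*} (a : ι → A)
    (hne : ∃ y ∈ K, ∀ i, a i ∈ modSub y) : Adm C {y ∈ K | ∀ i, a i ∈ modSub y} := by
  refine ⟨hne, h.closed.inter ?_, fun θ hθ θ' hθ' r t hr ht hrt =>
    ⟨h.convex hθ.1 hθ'.1 hr ht hrt, fun i p x => ?_⟩, fun y hy => h.bdd y hy.1⟩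
  · change IsClosed {y : Fam W P | ∀ i p x, y p (x * a i) = y p x * a i}
    simp only [Set.setOf_forall]
    exact isClosed_iInter fun i => isClosed_iInter fun p => isClosed_iInter fun x =>
      (WC.eval p _).isClosed_eq ((WC.eval p x).mul_right _)
  · simp only [Fam.add_apply, Fam.rsmul_apply, hθ.2 i p x, hθ'.2 i p x, add_mul, smul_mul_assoc]

theorem act_mem_modSub {y : Fam W P} {u a b : A} (h1 : a * star u = star u * b) (h2 : b * u = u * a)
    (hb : b ∈ modSub y) : a ∈ modSub (act u y) := fun p x => by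
  rw [act_apply, act_apply, mul_assoc, h1, ← mul_assoc, hb, mul_assoc, h2, mul_assoc]

theorem exists_MM {k : ℕ} {e : Fin (k + 1) → Fin (k + 1) → A} (he : MU e) (h : Adm C K)
    (hi : Inv (US W P ⊤) K) : ∃ y ∈ K, MM e y := by
  have pe : ∀ j, IsStarProjection (e j j) := fun j => ⟨(he.mul j j j j).trans (if_pos rfl), he.star j j⟩
  obtain ⟨y₀, hy₀, h₀⟩ := h.exists_fixed_comm (S := Set.range fun j => act (2 * e j j - 1))
    (by rintro _ ⟨j, rfl⟩; exact hi _ ⟨_, trivial, (pe j).two_mul_sub_one_mem_unitary, rfl⟩)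
    (by rintro _ ⟨j, rfl⟩; exact continuous_act _)
    (by
      rintro _ ⟨i, rfl⟩ _ ⟨j, rfl⟩ y
      have : e i i * e j j = e j j * e i i := by
        by_cases hij : i = j
        · rw [hij]
        · rw [he.mul, he.mul, if_neg hij, if_neg (Ne.symm hij)]
      rw [← act_mul, ← act_mul]
      congr 2
      simp only [two_mul, mul_sub, sub_mul, mul_add, add_mul, this, mul_one, one_mul]
      abel)
  have h1 := h.inter_modSub (fun j => e j j) ⟨y₀, hy₀, fun j => by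
    have := (modSub y₀).smul_mem (add_mem
      (mem_modSub (pe j).two_mul_sub_one_mem_unitary (h₀ _ ⟨j, rfl⟩)).1 (one_mem _)) (2⁻¹ : ℂ)
    rwa [sub_add_cancel, two_mul, ← two_smul ℂ, smul_smul, inv_mul_cancel₀ two_ne_zero,
      one_smul] at this⟩
  obtain ⟨V, hV⟩ : ∃ V, V = ∑ j, e (j + 1) j := ⟨_, rfl⟩
  have hV' : star V = ∑ j, e j (j + 1) := by simp [hV, star_sum, he.star]
  have v1 : ∀ i j, V * e i j = e (i + 1) j := fun i j => by simp [hV, Finset.sum_mul, he.mul]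
  have v2 : ∀ i j, e i (j + 1) * V = e i j := fun i j => by simp [hV, Finset.mul_sum, he.mul]
  have v3 : ∀ i j, e i j * star V = e i (j + 1) := fun i j => by
    simpa only [star_mul, he.star] using congrArg star (v1 j i)
  have v4 : ∀ i j, star V * e (i + 1) j = e i j := fun i j => by
    simpa only [star_mul, he.star] using congrArg star (v2 j i)
  have hu : V ∈ unitary A := by
    constructor
    · conv_lhs => rw [hV, Finset.mul_sum, ← hV]
      simp only [v4, he.sum]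
    · rw [hV', Finset.mul_sum]
      simp only [v1]
      rw [← he.sum]
      exact Equiv.sum_comp (Equiv.addRight 1) fun i => e i i
  obtain ⟨y, ⟨hy, h2⟩, h3⟩ := h1.exists_fixed (continuous_act V) fun y hy =>
    ⟨hi _ ⟨V, trivial, hu, rfl⟩ y hy.1, fun j => act_mem_modSub (by rw [v3, v4]) (by rw [v1, v2])
      (hy.2 (j + 1))⟩
  obtain ⟨h4, h5⟩ := mem_modSub hu h3
  have h6 : ∀ i, e i 0 ∈ modSub y ∧ e 0 i ∈ modSub y := fun i => by
    induction i using Fin.induction with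
    | zero => exact ⟨h2 0, h2 0⟩
    | succ i ih =>
      rw [← Fin.coeSucc_eq_succ, ← v1, ← v3]
      exact ⟨mul_mem h4 ih.1, mul_mem ih.2 h5⟩
  refine ⟨y, hy, fun p x i j => ?_⟩
  have := mul_mem (h6 i).1 (h6 j).2
  rw [he.mul, if_pos rfl] at this
  exact this p x

theorem exists_min_MM {k : ℕ} {e : Fin (k + 1) → Fin (k + 1) → A} (he : MU e) (h : Adm C K)
    (hi : Inv (US W P ⊤) K) : ∃ K' ⊆ K, IsMinS C (US W P (cmm e)) K' ∧ ∀ y ∈ K', MM e y := by
  obtain ⟨y, hy, h1⟩ := exists_MM he h hi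
  obtain ⟨K', h2, h3⟩ := exists_minS (S := US W P (cmm e))
    (h.inter_modSub (fun q : Fin (k + 1) × Fin (k + 1) => e q.1 q.2)
      ⟨y, hy, fun q p x => h1 p x q.1 q.2⟩)
    (by
      rintro _ ⟨u, h1, h2, rfl⟩ y hy
      exact ⟨hi _ ⟨u, trivial, h2, rfl⟩ y hy.1, fun q => act_mem_modSub
        (he.mem_cmm.1 (star_mem h1) _ _) (he.mem_cmm.1 h1 _ _) (hy.2 q)⟩)
  exact ⟨K', fun y hy => (h2 hy).1, h3, fun y hy p x i j => (h2 hy).2 (i, j) p x⟩

theorem exists_fixed_pauli {N : StarSubalgebra ℂ A} (h : Adm C K) (hi : Inv (US W P N) K)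
    {L : List A} (hL : Pauli N L) : ∃ y ∈ K, ∀ s ∈ L, ∀ p x, y p (x * s) = y p x * s := by
  have hu : ∀ s ∈ L, s ∈ unitary A := fun s hs => by
    obtain ⟨-, h1, h2⟩ := hL.1 s hs
    exact ⟨by rw [h1, h2], by rw [h1, h2]⟩
  obtain ⟨y, hy, h₀⟩ := h.exists_fixed_comm (S := {t | ∃ s ∈ L, t = act s})
    (by rintro _ ⟨s, hs, rfl⟩; exact hi _ ⟨s, (hL.1 s hs).1, hu s hs, rfl⟩)
    (by rintro _ ⟨s, -, rfl⟩; exact continuous_act _)
    (by
      rintro _ ⟨s, hs, rfl⟩ _ ⟨t, ht, rfl⟩ y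
      rw [← act_mul, ← act_mul]
      haveI : Std.Symm fun s t : A => s * t = t * s ∨ s * t = -(t * s) :=
        ⟨fun a b h => h.imp Eq.symm fun h => by rw [h, neg_neg]⟩
      rcases List.Pairwise.forall_of_forall (R := fun s t : A => s * t = t * s ∨ s * t = -(t * s))
        (fun _ _ => Or.inl rfl) hL.2 ht hs with h | h
      · rw [h]
      · rw [h]
        exact Fam.ext fun p x => by simp)
  exact ⟨y, hy, fun s hs => (mem_modSub (hu s hs) (h₀ _ ⟨s, hs, rfl⟩)).1⟩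

theorem mem_modSub_of_closed {y : Fam W P} {N : StarSubalgebra ℂ A} (hN : IsClosed (N : Set A))
    (h : ∀ u ∈ N, u ∈ unitary A → act u y = y) {a : A} (ha : a ∈ N) : a ∈ modSub y := by
  obtain ⟨c, u, h1, rfl⟩ := R95.exists_unitary_decomp hN ha
  exact sum_mem fun i _ => (modSub y).smul_mem (mem_modSub (h1 i).2 (h _ (h1 i).1 (h1 i).2)).1 _

theorem mod_of_fixed {y : Fam W P} (h : ∀ u ∈ unitary A, act u y = y) : Mod y :=
  fun p x _ => mem_modSub_of_closed (N := ⊤) isClosed_univ (fun u _ => h u) trivial p x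

theorem mod_of_MM {ι : Type*} [Fintype ι] [DecidableEq ι] {e : ι → ι → A} (he : MU e)
    {y : Fam W P} (hy : MM e y) (h : ∀ u ∈ cmm e, u ∈ unitary A → act u y = y) : Mod y := by
  intro p x a
  have hc : IsClosed (cmm e : Set A) := by
    rw [cmm, StarSubalgebra.coe_centralizer]
    exact Set.isClosed_centralizer _
  have h1 : a = ∑ i, ∑ j, (∑ l, e l i * a * e j l) * e i j := by
    simp only [Finset.sum_mul, mul_assoc, he.mul, mul_ite, mul_zero, Finset.sum_ite_eq',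
      Finset.mem_univ, if_true, ← Finset.mul_sum, he.sum, mul_one]
    rw [← Finset.sum_mul, he.sum, one_mul]
  have h2 : a ∈ modSub y := by
    rw [h1]
    refine sum_mem fun i _ => sum_mem fun j _ => mul_mem
      (mem_modSub_of_closed hc h (he.mem_cmm.2 fun r s => ?_)) fun p x => hy p x i j
    rw [Finset.mul_sum, Finset.sum_mul]
    simp only [← mul_assoc, he.mul]
    simp [mul_assoc, he.mul]
  exact h2 p x

theorem FP_I (W : WS A) {k : ℕ} {e : Fin (k + 1) → Fin (k + 1) → A} (he : MU e)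
    (hc : ∀ x ∈ cmm e, ∀ y ∈ cmm e, x * y = y * x) : FP W := by
  intro P C K h hi
  obtain ⟨K', h1, h2, h3⟩ := exists_min_MM he h hi
  obtain ⟨y, hy, h₀⟩ := h2.adm.exists_fixed_comm h2.inv
    (by rintro _ ⟨s, -, -, rfl⟩; exact continuous_act _)
    (by
      rintro _ ⟨s, hs, -, rfl⟩ _ ⟨t, ht, -, rfl⟩ y
      rw [← act_mul, ← act_mul, hc s hs t ht])
  exact ⟨y, h1 hy, mod_of_MM he (h3 y hy) fun u hu hu' => h₀ _ ⟨u, hu, hu', rfl⟩⟩

end Crest.Agent.R121
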