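import Crest.Agent.R121.Basic
import Crest.Agent.R121.Fam
import Crest.Agent.R121.Test

/-! # Row 121: auxiliary lemmas for `FPcb` -/

set_option autoImplicit false

namespace Crest.Agent.R121

open Filter Topology
open scoped ComplexConjugate ComplexOrder

universe u v

variable {A : Type u} [CStarAlgebra A]

theorem cb_col_exists {ι : Type*} [Fintype ι] (g : ι → A) :
    ∃ r : A, star r = r ∧ star r * r + ∑ i, star (g i * r) * (g i * r) = 1 := by
  let _ := CStarAlgebra.spectralOrder A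
  have := CStarAlgebra.spectralOrderedRing A
  have hb : IsStrictlyPositive (1 + ∑ i, star (g i) * g i) :=
    isStrictlyPositive_one.add_nonneg (Finset.sum_nonneg fun i _ => star_mul_self_nonneg _)
  have h := CFC.conjugate_rpow_neg_one_half _ hb
  have hs : star ((1 + ∑ i, star (g i) * g i) ^ (-(1 / 2) : ℝ)) = _ :=
    (IsSelfAdjoint.of_nonneg CFC.rpow_nonneg).star_eq
  generalize (1 + ∑ i, star (g i) * g i) ^ (-(1 / 2) : ℝ) = r at h hs
  refine ⟨r, hs, ?_⟩
  rw [← h]
  simp only [star_mul, hs, mul_add, add_mul, mul_one, Finset.mul_sum, Finset.sum_mul, mul_assoc]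

theorem cb_norm_col {ι : Type*} [Fintype ι] {m : ι → A} (hm : ∑ i, star (m i) * m i = 1) (i : ι) :
    ‖m i‖ ≤ 1 := by
  let _ := CStarAlgebra.spectralOrder A
  have := CStarAlgebra.spectralOrderedRing A
  have h : star (m i) * m i ≤ 1 := hm ▸ Finset.single_le_sum (f := fun i => star (m i) * m i)
    (fun i _ => star_mul_self_nonneg _) (Finset.mem_univ i)
  rw [← CStarAlgebra.norm_le_one_iff_of_nonneg _ (star_mul_self_nonneg _),
    CStarRing.norm_star_mul_self] at h
  nlinarith [norm_nonneg (m i)]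

theorem cb_norm_sum {ι : Type*} [Fintype ι] (a : A) (ξ : ι → A) :
    √‖∑ i, star (a * ξ i) * (a * ξ i)‖ ≤ ‖a‖ * √‖∑ i, star (ξ i) * ξ i‖ := by
  let _ := CStarAlgebra.spectralOrder A
  have := CStarAlgebra.spectralOrderedRing A
  have h : ∑ i, star (a * ξ i) * (a * ξ i) ≤ ‖star a * a‖ • ∑ i, star (ξ i) * ξ i := by
    rw [Finset.smul_sum]
    refine Finset.sum_le_sum fun i _ => ?_
    have := CStarAlgebra.star_left_conjugate_le_norm_smul (a := ξ i) (b := star a * a)
    simpa only [star_mul, mul_assoc] using this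
  have h2 := CStarAlgebra.norm_le_norm_of_nonneg_of_le
    (Finset.sum_nonneg fun i _ => star_mul_self_nonneg _) h
  rw [norm_smul, norm_norm, CStarRing.norm_star_mul_self] at h2
  refine (Real.sqrt_le_sqrt h2).trans (le_of_eq ?_)
  rw [Real.sqrt_mul (by positivity), Real.sqrt_mul_self (norm_nonneg _)]

theorem cb_norm_le {a g : A} {t : ℝ} (ht : 0 ≤ t) (h : star g * g = (t : ℂ) • 1 - star a * a) :
    ‖a‖ ^ 2 ≤ t := by
  let _ := CStarAlgebra.spectralOrder A
  have := CStarAlgebra.spectralOrderedRing A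
  rw [sq, ← CStarRing.norm_star_mul_self,
    CStarAlgebra.norm_le_iff_le_algebraMap _ ht (star_mul_self_nonneg _),
    Algebra.algebraMap_eq_smul_one, ← sub_nonneg, ← Complex.coe_smul, ← h]
  exact star_mul_self_nonneg _

theorem cb_bd_reindex {ι ι' : Type*} [Fintype ι] [Fintype ι'] (e : ι' ≃ ι) {Z : ι → ι → A} {R : ℝ}
    (h : Bd Z R) : Bd (fun i j => Z (e i) (e j)) R := by
  intro r c
  have := h (r ∘ e.symm) (c ∘ e.symm)
  simp only [← e.sum_comp, Function.comp_apply, Equiv.symm_apply_apply] at this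
  exact this

theorem cb_apply {θ : A →L[ℂ] A} {C : ℝ} (h : CB θ C) {ι : Type*} [Fintype ι] {Z : ι → ι → A}
    {R : ℝ} (hR : 0 ≤ R) (hZ : Bd Z R) : Bd (fun i j => θ (Z i j)) (C * R) := by
  have := cb_bd_reindex (Fintype.equivFin ι)
    (h _ _ le_rfl _ R hR (cb_bd_reindex (Fintype.equivFin ι).symm hZ))
  simpa only [Equiv.symm_apply_apply] using this

theorem cb_bd_mul {ι : Type*} [Fintype ι] {Z : ι → ι → A} {R : ℝ} (hR : 0 ≤ R) (h : Bd Z R)
    (x : A) : Bd (fun i j => x * Z i j) (R * ‖x‖) := by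
  intro r c
  have h1 := h (fun i => r i * x) c
  have h2 := cb_norm_sum (star x) fun i => star (r i)
  simp only [star_mul, star_star, norm_star, mul_assoc] at h1 h2 ⊢
  refine h1.trans ?_
  rw [← mul_assoc ‖x‖]
  gcongr

theorem cb_bd_toep {N : ℕ} {β : ℕ → ℝ} (hβ : Coef N β) {k : ℕ} {I R : Type*} [Fintype I]
    [DecidableEq I] [Fintype R] (lv : I → Fin k) (M : R → I → A)
    (hM : ∀ q q', lv q = lv q' → ∑ ρ, star (M ρ q) * M ρ q' = if q = q' then 1 else 0) :
    Bd (fun q q' => (tp β (lv q).val (lv q').val : ℂ) • ∑ ρ, star (M ρ q) * M ρ q') 8 := by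
  have key : ∀ c : I → A, ∑ ρ, ∑ j, star (∑ q with lv q = j, M ρ q * c q) *
      (∑ q with lv q = j, M ρ q * c q) = ∑ q, star (c q) * c q := by
    intro c
    rw [Finset.sum_comm, ← Finset.sum_fiberwise Finset.univ lv]
    refine Finset.sum_congr rfl fun j _ => ?_
    simp only [star_sum, Finset.sum_mul_sum]
    rw [Finset.sum_comm]
    refine Finset.sum_congr rfl fun q hq => ?_
    rw [Finset.sum_comm, Finset.sum_eq_single q]
    · simp only [star_mul, mul_assoc, ← Finset.mul_sum]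
      simp only [← mul_assoc, ← Finset.sum_mul]
      rw [hM q q rfl, if_pos rfl, mul_one]
    · intro q' hq' hne
      simp only [star_mul, mul_assoc, ← Finset.mul_sum]
      simp only [← mul_assoc, ← Finset.sum_mul]
      rw [hM q q' ((Finset.mem_filter.1 hq).2.trans (Finset.mem_filter.1 hq').2.symm),
        if_neg hne.symm, mul_zero, zero_mul]
    · exact fun h => absurd hq h
  intro r c
  have := toep hβ (fun i ρ => star (∑ q with lv q = i, M ρ q * star (r q)))
    fun j ρ => ∑ q with lv q = j, M ρ q * c q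
  simp only [star_star] at this
  rw [key, key] at this
  simp only [star_star] at this
  refine le_trans (le_of_eq ?_) this
  congr 1
  rw [Finset.sum_comm (s := Finset.univ) (t := (Finset.univ : Finset (Fin k))),
    ← Finset.sum_fiberwise Finset.univ lv]
  refine Finset.sum_congr rfl fun i _ => ?_
  simp only [star_sum, Finset.sum_mul_sum, Finset.smul_sum]
  symm
  rw [Finset.sum_comm]
  simp only [Finset.sum_comm (s := (Finset.univ : Finset R))]
  rw [Finset.sum_comm]
  refine Finset.sum_congr rfl fun q hq => ?_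
  rw [← Finset.sum_fiberwise Finset.univ lv]
  refine Finset.sum_congr rfl fun j _ => Finset.sum_congr rfl fun q' hq' => ?_
  rw [(Finset.mem_filter.1 hq).2, (Finset.mem_filter.1 hq').2]
  simp only [Finset.mul_sum, Finset.sum_mul, star_mul, star_star, mul_smul_comm, smul_mul_assoc,
    mul_assoc]

/-- the square of the `ω`-seminorm -/
noncomputable def cbq (ω : A →L[ℂ] ℂ) (y : A) : ℝ := (ω (star y * y)).re

theorem cbq_col (ω : A →L[ℂ] ℂ) {ι : Type*} [Fintype ι] {m : ι → A}
    (hm : ∑ i, star (m i) * m i = 1) (ξ : A) : ∑ i, cbq ω (m i * ξ) = cbq ω ξ := by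
  simp only [cbq]
  rw [← Complex.re_sum, ← map_sum]
  simp only [star_mul, mul_assoc, ← Finset.mul_sum]
  simp only [← mul_assoc, ← Finset.sum_mul, hm, one_mul]

theorem cbq_nonneg {ω : A →L[ℂ] ℂ} (h : IsPos ω) (y : A) : 0 ≤ cbq ω y :=
  (Complex.nonneg_iff.1 (h y)).1

/-- columns which move the vectors into the range of `f` without changing `ℓ` much -/
theorem cb_col {W : WS A} {P : Type v} {C : P → ℝ} {K : Set (Fam W P)}
    (hK : IsMinS C (CS W P) K) {θ : Fam W P} (hθ : θ ∈ K) {ω : A →L[ℂ] ℂ} (hω : ω ∈ W.Φ)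
    (hp : IsPos ω) {a f z : A} {t : ℝ} (ht : 0 < t) (hf : f * f = f)
    (ha : ∀ y, f * y = y → t * cbq ω y ≤ cbq ω (a * y)) (hz : ∀ x, z * x = x * z)
    (hzf : ∀ y, (∀ x, f * x * y = 0) → z * y = 0) {η : Fam W P} (hη : η ∈ K)
    {ℓ : Fam W P → ℝ} (hc : Continuous ℓ) (hl : IsLinearMap ℝ ℓ) {R : Type*} [Fintype R]
    {ξ : R → A} (hξ : ∀ ρ, z * ξ ρ = ξ ρ) {δ : ℝ} (hδ : 0 < δ) :
    ∃ (ι : Type u) (_ : Fintype ι) (m : ι → A), ∑ i, star (m i) * m i = 1 ∧
      ℓ η - δ ≤ ℓ (col m θ) ∧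
      t * (∑ ρ, cbq ω (ξ ρ) - δ) ≤ ∑ ρ, ∑ i, cbq ω (a * (m i * ξ ρ)) := by
  classical
  choose r hrs hr using fun d : Finset A × ℕ =>
    cb_col_exists fun x : d.1 => ((d.2 : ℂ) + 1) • (f * x)
  set b : ∀ d : Finset A × ℕ, Option d.1 → A := fun d o =>
    o.elim (r d) fun x => ((d.2 : ℂ) + 1) • (f * x) * r d with hb
  have hb1 : ∀ d, ∑ i, star (b d i) * b d i = 1 := fun d => by
    rw [Fintype.sum_option]; exact hr d
  obtain ⟨𝒰, h𝒰⟩ := Ultrafilter.exists_le (atTop : Filter (Finset A × ℕ))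
  have hr1 : ∀ d, ‖r d‖ ≤ 1 := fun d => cb_norm_col (hb1 d) none
  obtain ⟨s, -, hs⟩ := W.exists_T 𝒰 (fun d => star (r d) * r d) (C := 1)
    (Eventually.of_forall fun d => by
      rw [CStarRing.norm_star_mul_self]; exact mul_le_one₀ (hr1 d) (norm_nonneg _) (hr1 d))
  have hzs : z * s = 0 := hzf s fun x => by
    refine norm_le_zero_iff.1 (le_of_forall_pos_le_add fun ε hε => ?_)
    obtain ⟨n, hn⟩ := exists_nat_one_div_lt hε
    refine (hs.mul_left (f * x)).norm_le (h𝒰 ?_)
    filter_upwards [eventually_ge_atTop (({x} : Finset A), n)] with d hd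
    have h1 := cb_norm_col (hb1 d) (some ⟨x, hd.1 (Finset.mem_singleton_self x)⟩)
    simp only [hb, Option.elim_some, smul_mul_assoc, norm_smul] at h1
    have h2 : ‖(d.2 : ℂ) + 1‖ = d.2 + 1 := by norm_cast
    have h3 : (n : ℝ) ≤ d.2 := by exact_mod_cast hd.2
    rw [h2] at h1
    rw [div_lt_iff₀ (by positivity)] at hn
    rw [hrs, ← mul_assoc, zero_add]
    refine (norm_mul_le _ _).trans ((mul_le_of_le_one_right (norm_nonneg _) (hr1 d)).trans ?_)
    nlinarith [norm_nonneg (f * x * r d)]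
  have hq : ∀ y, z * y = y → Tendsto (fun d => cbq ω (r d * y)) 𝒰 (𝓝 0) := by
    intro y hy
    have h1 := (Complex.continuous_re.tendsto _).comp (((hs.mul_right y).mul_left (star y)) ω hω)
    rw [← hy, ← mul_assoc s, ← hz, hzs, hy, zero_mul, mul_zero, map_zero, Complex.zero_re] at h1
    simpa only [cbq, star_mul, mul_assoc, Function.comp_def] using h1
  obtain ⟨θ₀, hθ₀, hlim⟩ := hK.adm.isCompact.ultrafilter_le_nhds' (𝒰.map fun d => col (b d) θ)
    (by rw [Ultrafilter.mem_map]; exact univ_mem' fun d => hK.inv.col_mem (hb1 d) hθ)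
  obtain ⟨J, w, hw, h1⟩ := hK.approx_CS hθ₀ hη hc hl (half_pos hδ)
  have h2 : Tendsto (fun d => ℓ (col w (col (b d) θ))) 𝒰 (𝓝 (ℓ (col w θ₀))) :=
    ((hc.comp (continuous_col w)).tendsto θ₀).comp hlim
  have h3 : Tendsto (fun d => ∑ ρ, ∑ j, cbq ω (r d * (w j * ξ ρ))) 𝒰 (𝓝 (∑ _ρ : R, ∑ _j : Fin J, 0)) :=
    tendsto_finsetSum _ fun ρ _ => tendsto_finsetSum _ fun j _ =>
      hq _ (by rw [← mul_assoc, hz, mul_assoc, hξ])
  simp only [Finset.sum_const_zero] at h3
  obtain ⟨d, h4, h5⟩ := ((h2.eventually (lt_mem_nhds (sub_lt_self _ (half_pos hδ)))).and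
    (h3.eventually (gt_mem_nhds hδ))).exists
  refine ⟨Option d.1 × Fin J, inferInstance, fun i => b d i.1 * w i.2, ?_, ?_, ?_⟩
  · rw [Fintype.sum_prod_type, Finset.sum_comm, ← hw]
    refine Finset.sum_congr rfl fun j _ => ?_
    simp only [star_mul, mul_assoc, ← Finset.mul_sum]
    simp only [← mul_assoc, ← Finset.sum_mul, hb1, one_mul]
  · have : col (fun i : Option d.1 × Fin J => b d i.1 * w i.2) θ = col w (col (b d) θ) :=
      Fam.ext fun p x => by
        simp only [col_apply, Fintype.sum_prod_type_right, star_mul, mul_assoc, Finset.sum_mul]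
    rw [this]
    linarith
  · have h6 : ∀ y, t * (cbq ω y - cbq ω (r d * y)) ≤ ∑ i, cbq ω (a * (b d i * y)) := by
      intro y
      rw [← cbq_col ω (hb1 d) y, Fintype.sum_option, Fintype.sum_option]
      simp only [hb, Option.elim_none, add_sub_cancel_left, Finset.mul_sum]
      refine le_add_of_nonneg_of_le (cbq_nonneg hp _) (Finset.sum_le_sum fun x _ => ha _ ?_)
      simp only [Option.elim_some, smul_mul_assoc, mul_smul_comm, ← mul_assoc, hf]
    simp only [Fintype.sum_prod_type_right, mul_assoc]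
    refine le_trans ?_ (Finset.sum_le_sum fun ρ _ => Finset.sum_le_sum fun j _ => h6 _)
    simp only [← Finset.mul_sum, Finset.sum_sub_distrib, cbq_col ω hw]
    gcongr

end Crest.Agent.R121
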