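import Crest.Agent.R121.Basic
import Crest.Agent.R95.Corner
import Crest.Agent.R95.Conc
import Crest.Agent.R124.Sh.UL

/-!
# Row 121: chains of partial isometries, comparison, corners, concrete algebras

PLANS.
* `chain`: `T` = ultralimit of `t`, `Q` = ultralimit of `t⋆ t`; `t i⋆ T = t i⋆ t i`, so `T⋆ T = Q`,
  `T Q = T`, `t i t i⋆ = T (t i⋆ t i) T⋆`.
* `comparison`: maximal `v = f v e`; then `(e - v⋆v) A (f - v v⋆) = 0` by `exists_pi`; take `z` from
  `central {e - v⋆ v}` or its complement.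
* `corner`: `R95.Corner.exists_alg`; `Φ_B = {ψ | ψ ∘ (compression) ∈ Φ}`.
* `exists_WS`: `Φ` = closure of the span of the vector functionals; `R124` `exists_wot_ultralimit`.
-/

set_option autoImplicit false

namespace Crest.Agent.R121

open Filter Topology R95
open scoped ComplexConjugate ComplexOrder

universe u v

variable {A : Type u} [CStarAlgebra A]

namespace Ch

theorem pi_norm_le {v : A} (h : IsPI v) : ‖v‖ ≤ 1 := by
  have := h.proj_left.norm_le
  rw [CStarRing.norm_star_mul_self] at this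
  nlinarith [norm_nonneg v]

theorem pi_mul {v : A} (h : IsPI v) : v * (star v * v) = v := by rw [← mul_assoc]; exact h

theorem proj_le {v w : A} (hv : IsPI v) (hw : IsPI w) (h : w * (star v * v) = v) :
    (star w * w) * (star v * v) = star v * v := by
  have pv := hv.proj_left
  have pw := hw.proj_left
  set p := star v * v with hp
  set q := star w * w with hq
  have e1 : p * q * p = p := by
    calc p * q * p = star (w * p) * (w * p) := by
          rw [star_mul, pv.isSelfAdjoint.star_eq, hq]; simp only [mul_assoc]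
      _ = p := by rw [h]
  have e2 : star (p - q * p) * (p - q * p) = 0 := by
    rw [star_sub, star_mul q p, pv.isSelfAdjoint.star_eq, pw.isSelfAdjoint.star_eq, sub_mul, mul_sub,
      mul_sub, pv.isIdempotentElem.eq, ← mul_assoc, e1, ← mul_assoc, mul_assoc p q q,
      pw.isIdempotentElem.eq, e1, sub_self]
  exact (sub_eq_zero.1 (CStarRing.star_mul_self_eq_zero_iff _ |>.1 e2)).symm

theorem proj_le' {v w : A} (hv : IsPI v) (hw : IsPI w) (h : w * (star v * v) = v) :
    (star v * v) * (star w * w) = star v * v := by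
  have := congrArg star (proj_le hv hw h)
  rwa [star_mul, hv.proj_left.isSelfAdjoint.star_eq, hw.proj_left.isSelfAdjoint.star_eq] at this

end Ch

open Ch

theorem WS.chain (W : WS A) {ι : Type*} [Preorder ι] (𝒰 : Ultrafilter ι)
    (h𝒰 : (𝒰 : Filter ι) ≤ atTop) (t : ι → A) (ht : ∀ i, IsPI (t i))
    (hm : ∀ i j, i ≤ j → t j * (star (t i) * t i) = t i) :
    ∃ T, IsPI T ∧ (∀ i, T * (star (t i) * t i) = t i) ∧ W.T 𝒰 t T ∧
      W.T 𝒰 (fun i => star (t i) * t i) (star T * T) ∧
      W.T 𝒰 (fun i => t i * star (t i)) (T * star T) := by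
  obtain ⟨T, -, hT⟩ := W.exists_T 𝒰 t (Eventually.of_forall fun i => pi_norm_le (ht i))
  obtain ⟨Q, -, hQ⟩ := W.exists_T 𝒰 (fun i => star (t i) * t i)
    (Eventually.of_forall fun i => (ht i).proj_left.norm_le)
  have ev : ∀ i, ∀ᶠ j in (𝒰 : Filter ι), i ≤ j := fun i => h𝒰 (eventually_ge_atTop i)
  have e1 : ∀ i, T * (star (t i) * t i) = t i := fun i =>
    (hT.mul_right _).unique ((WS.T.const W _ _).congr' ((ev i).mono fun j hj => (hm i j hj).symm))
  have e2 : ∀ i, star (t i) * T = star (t i) * t i := fun i =>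
    (hT.mul_left _).unique ((WS.T.const W _ _).congr' ((ev i).mono fun j hj => by
      have h1 := congrArg star (hm i j hj)
      rw [star_mul, (ht i).proj_left.isSelfAdjoint.star_eq] at h1
      change star (t i) * t i = star (t i) * t j
      conv_rhs => rw [← h1]
      rw [mul_assoc, proj_le' (ht i) (ht j) (hm i j hj)]))
  have e3 : star T * T = Q := (hT.star.mul_right T).unique (by simpa only [e2] using hQ)
  have e4 : T * Q = T := (hQ.mul_left T).unique (by simpa only [e1] using hT)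
  refine ⟨T, by rw [IsPI, mul_assoc, e3, e4], e1, hT, e3 ▸ hQ, ?_⟩
  have := (hQ.mul_left T).mul_right (star T)
  rw [e4] at this
  refine this.congr' (Eventually.of_forall fun i => ?_)
  have h1 := congrArg star (e2 i)
  rw [star_mul, star_star, (ht i).proj_left.isSelfAdjoint.star_eq] at h1
  have h2 := congrArg star (e1 i)
  rw [star_mul, (ht i).proj_left.isSelfAdjoint.star_eq] at h2
  change T * (star (t i) * t i) * star T = t i * star (t i)
  conv_rhs => rw [← h2, ← mul_assoc, pi_mul (ht i)]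
  rw [e1]

/-- maximal partial isometries -/
theorem WS.exists_max_pi (W : WS A) (Q : A → Prop) (h0 : Q 0) (hQ : ∀ v, Q v → IsPI v)
    (hlim : ∀ (𝒰 : Ultrafilter A) (T : A), (∀ᶠ v in (𝒰 : Filter A), Q v) → IsPI T → W.T 𝒰 id T →
      W.T 𝒰 (fun v => star v * v) (star T * T) → W.T 𝒰 (fun v => v * star v) (T * star T) → Q T) :
    ∃ v, Q v ∧ ∀ v', Q v' → v' * (star v * v) = v → v' = v := by
  let r : {v // Q v} → {v // Q v} → Prop := fun v w => w.1 * (star v.1 * v.1) = v.1
  have rr : ∀ v, r v v := fun v => pi_mul (hQ _ v.2)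
  have rt : ∀ {a b c}, r a b → r b c → r a c := fun {a b c} h1 h2 => by
    change c.1 * (star a.1 * a.1) = a.1
    rw [← proj_le (hQ _ a.2) (hQ _ b.2) h1, ← mul_assoc, h2, h1]
  obtain ⟨m, hm⟩ := exists_maximal_of_chains_bounded (r := r) (fun c hc => by
    rcases c.eq_empty_or_nonempty with rfl | hne
    · exact ⟨⟨0, h0⟩, by simp⟩
    let _ : Preorder c :=
      { le := fun a b => r a.1 b.1
        le_refl := fun a => rr a.1
        le_trans := fun a b c h1 h2 => rt h1 h2 }
    have : Nonempty c := hne.to_subtype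
    have : IsDirectedOrder c := ⟨fun a b => by
      rcases eq_or_ne a.1 b.1 with h | h
      · exact ⟨b, Subtype.ext h ▸ le_refl b, le_refl b⟩
      · rcases hc a.2 b.2 h with h | h
        · exact ⟨b, h, le_refl b⟩
        · exact ⟨a, le_refl a, h⟩⟩
    obtain ⟨T, h1, h2, h3, h4, h5⟩ := W.chain (Ultrafilter.of (atTop : Filter c))
      (Ultrafilter.of_le _) (fun a => a.1.1) (fun a => hQ _ a.1.2) (fun a b h => h)
    exact ⟨⟨T, hlim ((Ultrafilter.of (atTop : Filter c)).map fun a : c => (a.1.1 : A)) T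
      (by
        rw [Ultrafilter.coe_map, eventually_map]
        exact Eventually.of_forall fun a => a.1.2) h1 h3 h4 h5⟩, fun a ha => h2 ⟨a, ha⟩⟩) rt
  refine ⟨m.1, m.2, fun v' hv' h => ?_⟩
  have h1 : m.1 * (star v' * v') = v' := hm ⟨v', hv'⟩ h
  have h2 := proj_le' (hQ _ m.2) (hQ _ hv') h
  rw [← h1, ← pi_mul (hQ _ m.2), mul_assoc m.1, h2]

theorem WS.comparison (W : WS A) {e f : A} (he : IsStarProjection e) (hf : IsStarProjection f) :
    ∃ z, IsCP z ∧ (∃ v, star v * v = z * e ∧ f * v = v) ∧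
      ∃ v, star v * v = (1 - z) * f ∧ e * v = v := by
  obtain ⟨v, ⟨hv, fv, ve⟩, hmax⟩ := W.exists_max_pi (fun v => IsPI v ∧ f * v = v ∧ v * e = v)
    ⟨by simp [IsPI], by simp, by simp⟩ (fun v h => h.1) (fun 𝒰 T h h1 h2 _ _ =>
      ⟨h1, (h2.mul_left f).unique (h2.congr' (h.mono fun v hv => hv.2.1.symm)),
        (h2.mul_right e).unique (h2.congr' (h.mono fun v hv => hv.2.2.symm))⟩)
  have ev : e * star v = star v := by
    have := congrArg star ve
    rwa [star_mul, he.isSelfAdjoint.star_eq] at this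
  have vf : star v * f = star v := by
    have := congrArg star fv
    rwa [star_mul, hf.isSelfAdjoint.star_eq] at this
  have hv' : star v * v * star v = star v := by
    have := congrArg star hv
    rwa [star_mul, star_mul, star_star, ← mul_assoc] at this
  have a1 : f * (f - v * star v) = f - v * star v := by
    rw [mul_sub, hf.isIdempotentElem.eq, ← mul_assoc, fv]
  have a2 : (e - star v * v) * e = e - star v * v := by
    rw [sub_mul, he.isIdempotentElem.eq, mul_assoc, ve]
  have a3 : star v * (f - v * star v) = 0 := by rw [mul_sub, vf, ← mul_assoc, hv', sub_self]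
  have a4 : (e - star v * v) * star v = 0 := by rw [sub_mul, ev, hv', sub_self]
  have a5 : (f - v * star v) * (f - v * star v) = f - v * star v := by
    rw [sub_mul, a1, mul_assoc v, a3, mul_zero, sub_zero]
  have a6 : (e - star v * v) * (e - star v * v) = e - star v * v := by
    rw [mul_sub, a2, ← mul_assoc, a4, zero_mul, sub_zero]
  have key : ∀ x, (f - v * star v) * x * (e - star v * v) = 0 := fun x => by
    by_contra hx
    obtain ⟨w, w0, hw, w1, w2⟩ := W.exists_pi hx
    have b1 := w1 (f - v * star v) (by rw [← mul_assoc, ← mul_assoc, a5])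
    have b2 := w2 (e - star v * v) (by rw [mul_assoc, a6])
    have c1 : star v * w = 0 := by rw [← b1, ← mul_assoc, a3, zero_mul]
    have c2 : w * star v = 0 := by rw [← b2, mul_assoc, a4, mul_zero]
    have c3 : star w * v = 0 := by simpa using congrArg star c1
    have c4 : v * star w = 0 := by simpa using congrArg star c2
    have := hmax (v + w) ⟨?_, ?_, ?_⟩ ?_
    · exact w0 (by simpa using this)
    · rw [IsPI, star_add, add_mul, mul_add v, mul_add w, c2, c4, add_zero, zero_add, add_mul,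
        mul_add, mul_add, hv, hw, mul_assoc v, c1, mul_assoc w, c3]
      simp
    · rw [mul_add, fv, ← b1, ← mul_assoc, a1]
    · rw [add_mul, ve, ← b2, mul_assoc, a2]
    · rw [add_mul, pi_mul hv, ← mul_assoc, c2, zero_mul, add_zero]
  obtain ⟨z, hz, hz'⟩ := W.central {e - star v * v}
  have z1 : (f - v * star v) * z = f - v * star v := (hz' _).1 (by rintro _ rfl; exact key)
  have z2 : z * (e - star v * v) = 0 := by
    simpa using (hz' z).2 hz.1.isIdempotentElem.eq _ rfl 1
  have c1 : ∀ a, (1 - z) * a = a * (1 - z) := fun a => by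
    rw [sub_mul, mul_sub, one_mul, mul_one, hz.2]
  refine ⟨z, hz, ⟨v * z, ?_, by rw [← mul_assoc, fv]⟩, star v * (1 - z), ?_,
    by rw [← mul_assoc, ev]⟩
  · rw [mul_sub, sub_eq_zero] at z2
    rw [star_mul, hz.1.isSelfAdjoint.star_eq, z2, mul_assoc, ← mul_assoc (star v), ← hz.2,
      ← mul_assoc, hz.1.isIdempotentElem.eq]
  · have : (1 - z) * (f - v * star v) = 0 := by
      rw [c1, mul_sub, mul_one, z1, sub_self]
    rw [mul_sub, sub_eq_zero] at this
    rw [star_mul, star_star, hz.1.one_sub.isSelfAdjoint.star_eq, this, mul_assoc,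
      ← mul_assoc v, ← c1, ← mul_assoc, hz.1.one_sub.isIdempotentElem.eq]

theorem WS.corner (W : WS A) {e : A} (he : IsStarProjection e) :
    ∃ (B : Type u) (_ : CStarAlgebra B) (W' : WS B) (ι : B →⋆ₙₐ[ℂ] A),
      ι 1 = e ∧ (∀ b, ‖ι b‖ = ‖b‖) ∧ (∀ x, e * x * e = x → ∃ b, ι b = x) ∧
      ∀ φ ∈ W.Φ, ∃ ψ ∈ W'.Φ, ∀ b, ψ b = φ (ι b) := by
  obtain ⟨B, _, ι, h1, hn, hs⟩ := Corner.exists_alg he
  have inj : ∀ {a b}, ι a = ι b → a = b := fun {a b} hab => by
    rw [← sub_eq_zero, ← norm_eq_zero, ← hn, map_sub, hab, sub_self, norm_zero]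
  have l1 : ∀ b, e * ι b = ι b := fun b => by rw [← h1, ← map_mul, one_mul]
  have l2 : ∀ b, ι b * e = ι b := fun b => by rw [← h1, ← map_mul, mul_one]
  choose k hk using fun x => hs (e * x * e) (by
    simp only [← mul_assoc, he.isIdempotentElem.eq]
    rw [mul_assoc, he.isIdempotentElem.eq])
  let κ : A →L[ℂ] B := LinearMap.mkContinuous
    { toFun := k
      map_add' := fun x y => inj (by rw [map_add, hk, hk, hk, mul_add, add_mul])
      map_smul' := fun c x => inj (by
        rw [RingHom.id_apply, map_smul, hk, hk, mul_smul_comm, smul_mul_assoc]) } 1 fun x => by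
      change ‖k x‖ ≤ _
      rw [← hn, hk, one_mul]
      exact (norm_mul_le _ _).trans ((mul_le_of_le_one_right (norm_nonneg _) he.norm_le).trans
        ((norm_mul_le _ _).trans (mul_le_of_le_one_left (norm_nonneg _) he.norm_le)))
  have hκ : ∀ x, ι (κ x) = e * x * e := hk
  have κn : ∀ x, ‖κ x‖ ≤ ‖x‖ := fun x => by
    rw [← hn, hκ]
    exact (norm_mul_le _ _).trans ((mul_le_of_le_one_right (norm_nonneg _) he.norm_le).trans
      ((norm_mul_le _ _).trans (mul_le_of_le_one_left (norm_nonneg _) he.norm_le)))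
  have κι : ∀ b, κ (ι b) = b := fun b => inj (by rw [hκ, l1, l2])
  let ιL : B →L[ℂ] A := LinearMap.mkContinuous
    { toFun := ι, map_add' := map_add ι, map_smul' := map_smul ι } 1 fun b => by simp [hn]
  let pre : (B →L[ℂ] ℂ) →L[ℂ] (A →L[ℂ] ℂ) := (ContinuousLinearMap.compL ℂ A B ℂ).flip κ
  have res : ∀ φ ∈ W.Φ, φ.comp ιL ∈ W.Φ.comap (pre : (B →L[ℂ] ℂ) →ₗ[ℂ] (A →L[ℂ] ℂ)) := by
    intro φ hφ
    obtain ⟨ψ, hψ, h⟩ := W.mul φ hφ e e
    have : pre (φ.comp ιL) = ψ := by
      ext x
      rw [h, ← hκ]; rfl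
    change pre (φ.comp ιL) ∈ W.Φ
    rwa [this]
  refine ⟨B, inferInstance,
    { Φ := W.Φ.comap (pre : (B →L[ℂ] ℂ) →ₗ[ℂ] (A →L[ℂ] ℂ))
      closed := W.closed.preimage pre.continuous
      mul := fun ψ hψ a b => ?_
      star_mem := fun ψ hψ => ?_
      pos := fun a ha => ?_
      cpt := fun 𝒰 h => ?_ }, ι, h1, hn, hs, fun φ hφ => ⟨φ.comp ιL, res φ hφ, fun _ => rfl⟩⟩
  · obtain ⟨φ, hφ, h⟩ := W.mul _ hψ (ι a) (ι b)
    refine ⟨φ.comp ιL, res φ hφ, fun x => (h (ι x)).trans ?_⟩
    rw [← map_mul, ← map_mul]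
    exact congrArg ψ (κι _)
  · obtain ⟨φ, hφ, h⟩ := W.star_mem _ hψ
    refine ⟨φ.comp ιL, res φ hφ, fun x => (h (ι x)).trans ?_⟩
    rw [← map_star]
    exact congrArg (fun b => conj (ψ b)) (κι _)
  · obtain ⟨ω, hω, h2, h3⟩ := W.pos (ι a) fun h => ha (inj (by rw [h, map_zero]))
    have e : ∀ x, (ω.comp ιL) (star x * x) = ω (star (ι x) * ι x) := fun x => by
      rw [← map_star, ← map_mul]; rfl
    exact ⟨ω.comp ιL, res ω hω, fun x => by rw [e]; exact h2 _, by rwa [e]⟩
  · obtain ⟨b, hb, h'⟩ := W.exists_T 𝒰 ι (C := 1) (h.mono fun x hx => by rwa [hn])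
    refine ⟨κ b, (κn b).trans hb, fun ψ hψ => (h' _ hψ).congr fun x => ?_⟩
    exact congrArg ψ (κι x)

theorem exists_WS {H : Type u} [NormedAddCommGroup H] [InnerProductSpace ℂ H] [CompleteSpace H]
    (M : VonNeumannAlgebra H) : Nonempty (WS M.toStarSubalgebra) := by
  let ιL : M.toStarSubalgebra →L[ℂ] (H →L[ℂ] H) :=
    M.toStarSubalgebra.toSubalgebra.toSubmodule.subtypeL
  let om : H × H → M.toStarSubalgebra →L[ℂ] ℂ := fun p =>
    innerSL ℂ p.1 ∘L ContinuousLinearMap.apply ℂ H p.2 ∘L ιL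
  have hom : ∀ p x, om p x = inner ℂ p.1 ((x : H →L[ℂ] H) p.2) := fun _ _ => rfl
  let V := Submodule.span ℂ (Set.range om)
  have hV : ∀ p, om p ∈ V := fun p => Submodule.subset_span ⟨p, rfl⟩
  refine ⟨{ Φ := V.topologicalClosure
            closed := V.isClosed_topologicalClosure
            mul := fun φ hφ a b => ?_
            star_mem := fun φ hφ => ?_
            pos := fun a ha => ?_
            cpt := fun 𝒰 h => ?_ }⟩
  · let F : (M.toStarSubalgebra →L[ℂ] ℂ) →L[ℂ] (M.toStarSubalgebra →L[ℂ] ℂ) :=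
      (ContinuousLinearMap.compL ℂ _ _ ℂ).flip (ContinuousLinearMap.mulLeftRight ℂ _ a b)
    refine ⟨F φ, map_mem_closure F.continuous hφ fun ψ hψ => ?_, fun x => rfl⟩
    refine (Submodule.span_le (p := V.comap (F : _ →ₗ[ℂ] _))).2 ?_ hψ
    rintro _ ⟨p, rfl⟩
    have : F (om p) = om (star (a : H →L[ℂ] H) p.1, (b : H →L[ℂ] H) p.2) := by
      ext x
      rw [hom, ContinuousLinearMap.star_eq_adjoint, ContinuousLinearMap.adjoint_inner_left]
      rfl
    change F (om p) ∈ V
    rw [this]
    exact hV _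
  · let F : (M.toStarSubalgebra →L[ℂ] ℂ) → (M.toStarSubalgebra →L[ℂ] ℂ) := fun φ =>
      LinearMap.mkContinuous
        { toFun := fun x => conj (φ (star x))
          map_add' := fun x y => by rw [star_add, map_add, map_add]
          map_smul' := fun c x => by
            rw [star_smul, map_smul, smul_eq_mul, map_mul]; simp } ‖φ‖ fun x => by
          change ‖conj (φ (star x))‖ ≤ _
          rw [Complex.norm_conj, ← norm_star x]
          exact φ.le_opNorm _
    have hF : ∀ φ x, F φ x = conj (φ (star x)) := fun _ _ => rfl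
    have cF : Continuous F := by
      refine (LipschitzWith.of_dist_le_mul (K := 1) fun φ ψ => ?_).continuous
      rw [dist_eq_norm, dist_eq_norm, NNReal.coe_one, one_mul]
      refine ContinuousLinearMap.opNorm_le_bound _ (norm_nonneg _) fun x => ?_
      rw [_root_.sub_apply, hF, hF, ← map_sub, Complex.norm_conj, ← norm_star x]
      exact (φ - ψ).le_opNorm _
    refine ⟨F φ, map_mem_closure cF hφ fun ψ hψ => ?_, hF φ⟩
    change F ψ ∈ V
    induction hψ using Submodule.span_induction with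
    | mem ψ hψ =>
      obtain ⟨p, rfl⟩ := hψ
      have : F (om p) = om p.swap := by
        ext x
        rw [hF, hom, hom, inner_conj_symm]
        exact ContinuousLinearMap.adjoint_inner_left _ _ _
      rw [this]
      exact hV _
    | zero =>
      have : F 0 = 0 := by ext x; rw [hF]; simp
      rw [this]; exact zero_mem _
    | add φ ψ _ _ h1 h2 =>
      have : F (φ + ψ) = F φ + F ψ := by ext x; simp [hF]
      rw [this]; exact add_mem h1 h2
    | smul c φ _ h1 =>
      have : F (c • φ) = conj c • F φ := by ext x; simp [hF]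
      rw [this]; exact V.smul_mem _ h1
  · obtain ⟨ξ, hξ⟩ : ∃ ξ, (a : H →L[ℂ] H) ξ ≠ 0 := by
      by_contra h
      push Not at h
      exact ha (Subtype.ext (ContinuousLinearMap.ext h))
    have e : ∀ x : M.toStarSubalgebra,
        om (ξ, ξ) (star x * x) = ((‖(x : H →L[ℂ] H) ξ‖ ^ 2 : ℝ) : ℂ) := fun x => by
      rw [hom]
      change inner ℂ ξ (star (x : H →L[ℂ] H) ((x : H →L[ℂ] H) ξ)) = _
      rw [ContinuousLinearMap.star_eq_adjoint, ContinuousLinearMap.adjoint_inner_right,
        inner_self_eq_norm_sq_to_K]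
      simp
    refine ⟨om (ξ, ξ), V.le_topologicalClosure (hV _), fun x => ?_, ?_⟩
    · rw [e]; exact Complex.zero_le_real.2 (sq_nonneg _)
    · rw [e]; exact_mod_cast pow_ne_zero 2 (norm_ne_zero_iff.2 hξ)
  · obtain ⟨Z, hZ1, hZ⟩ := R124.Sh.exists_wot_ultralimit 𝒰
      (fun x : M.toStarSubalgebra => (x : H →L[ℂ] H)) zero_le_one h
    have ZM : Z ∈ M := by
      rw [← M.commutant_commutant, VonNeumannAlgebra.mem_commutant_iff]
      intro g hg
      ext v
      refine ext_inner_left ℂ fun w => ?_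
      change inner ℂ w (g (Z v)) = inner ℂ w (Z (g v))
      rw [← ContinuousLinearMap.adjoint_inner_left]
      refine tendsto_nhds_unique (hZ _ _) ((hZ _ _).congr fun x => ?_)
      rw [ContinuousLinearMap.adjoint_inner_left]
      exact congrArg (fun R : H →L[ℂ] H => inner ℂ w (R v))
        (VonNeumannAlgebra.mem_commutant_iff.1 hg _ x.2)
    refine ⟨⟨Z, ZM⟩, hZ1, fun φ hφ => ?_⟩
    have h1 : ∀ ψ ∈ V, Tendsto ψ 𝒰 (𝓝 (ψ ⟨Z, ZM⟩)) := fun ψ hψ => by
      induction hψ using Submodule.span_induction with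
      | mem ψ hψ => obtain ⟨p, rfl⟩ := hψ; exact hZ p.1 p.2
      | zero => exact tendsto_const_nhds
      | add φ ψ _ _ h1 h2 => exact h1.add h2
      | smul c φ _ h1 => exact h1.const_smul c
    refine Metric.tendsto_nhds.2 fun ε hε => ?_
    obtain ⟨ψ, hψ, h2⟩ := Metric.mem_closure_iff.1 hφ (ε / 3) (by positivity)
    filter_upwards [h, Metric.tendsto_nhds.1 (h1 ψ hψ) (ε / 3) (by positivity)] with x hx h3
    rw [dist_eq_norm] at h2
    have h4 : ∀ y : M.toStarSubalgebra, ‖y‖ ≤ 1 → dist (φ y) (ψ y) < ε / 3 := fun y hy => by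
      rw [dist_eq_norm]
      exact (((φ - ψ).le_opNorm y).trans (mul_le_of_le_one_right (norm_nonneg _) hy)).trans_lt h2
    have h5 := dist_triangle4_right (φ x) (φ ⟨Z, ZM⟩) (ψ x) (ψ ⟨Z, ZM⟩)
    linarith [h4 x hx, h4 ⟨Z, ZM⟩ hZ1]

end Crest.Agent.R121
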