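import Crest.Agent.R121.Snoc

/-!
# Row 121: the homotopy between a cocycle and its amplification
-/

set_option autoImplicit false

namespace Crest.Agent.R121

open OpAlg

universe u

variable {A : Type u} [CStarAlgebra A]

/-- the differential with coefficients -/
def dE {E : Type*} [AddCommGroup E] {n : ℕ} (L : A → E → E) (R : E → A → E)
    (f : (Fin n → A) → E) (a : Fin (n + 1) → A) : E :=
  L (a 0) (f fun i => a i.succ) + (∑ j : Fin n, ((-1 : ℤ) ^ (j.val + 1)) • f (mergeArgs j a)) +
    ((-1 : ℤ) ^ (n + 1)) • R (f fun i => a i.castSucc) (a (Fin.last n))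

theorem dE_snoc {E : Type*} [AddCommGroup E] {n : ℕ} (L : A → E → E) (R : E → A → E)
    (f : (Fin (n + 1) → A) → E) (a : Fin (n + 1) → A) (x : A) :
    dE L R f (Fin.snoc a x : Fin (n + 2) → A) =
      L (a 0) (f (Fin.snoc (fun i : Fin n => a i.succ) x)) +
      (∑ i : Fin n, ((-1 : ℤ) ^ (i.val + 1)) • f (Fin.snoc (mergeArgs i a) x)) +
      ((-1 : ℤ) ^ (n + 1)) • f (Fin.snoc (fun i : Fin n => a i.castSucc) (a (Fin.last n) * x)) +
      ((-1 : ℤ) ^ (n + 2)) • R (f a) x := by
  rw [dE, Fin.sum_univ_castSucc, succ_snoc, merge_last_snoc]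
  simp only [merge_castSucc_snoc, Fin.snoc_castSucc, Fin.snoc_last, Fin.val_castSucc, Fin.val_last]
  rw [show (Fin.snoc a x : Fin (n + 2) → A) 0 = a 0 from Fin.snoc_castSucc (i := 0) ..]
  abel

theorem merge_map {π : A → A} (hπ : ∀ a b, π (a * b) = π a * π b) {n : ℕ} (j : Fin n)
    (a : Fin (n + 1) → A) : mergeArgs j (fun i => π (a i)) = fun i => π (mergeArgs j a i) := by
  funext i
  simp only [mergeArgs]
  split_ifs <;> simp [hπ]

theorem snoc_eq {n : ℕ} (a : Fin (n + 1) → A) :
    (Fin.snoc (fun i : Fin n => a i.castSucc) (a (Fin.last n)) : Fin (n + 1) → A) = a :=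
  Fin.snoc_init_self a

theorem norm_curry_comp_le {E : Type*} [NormedAddCommGroup E] [NormedSpace ℂ E] {n : ℕ}
    (f : ContinuousMultilinearMap ℂ (fun _ : Fin (n + 1) => A) E) {π : A →L[ℂ] A} (hn : ‖π‖ ≤ 1) :
    ‖f.curryRight.compContinuousLinearMap fun _ : Fin n => π‖ ≤ ‖f‖ := by
  refine (ContinuousMultilinearMap.norm_compContinuousLinearMap_le _ _).trans ?_
  rw [f.curryRight_norm]
  exact mul_le_of_le_one_right (norm_nonneg _)
    (Finset.prod_le_one (fun _ _ => norm_nonneg _) fun _ _ => hn)

theorem homotopy {π : A →L[ℂ] A} (hπ : ∀ a b, π (a * b) = π a * π b) (hn : ‖π‖ ≤ 1) {v : A}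
    (hv : ‖v‖ ≤ 1) (hc : ∀ a, π a * v = v * a) (n : ℕ) :
    ∀ (E : Type u) [NormedAddCommGroup E] [NormedSpace ℂ E] (L : A → E →L[ℂ] E)
      (R : E →L[ℂ] A →L[ℂ] E) (f : ContinuousMultilinearMap ℂ (fun _ : Fin (n + 1) => A) E),
      (∀ a, dE (fun a e => L a e) (fun e a => R e a) f a = 0) →
      ∃ h : ContinuousMultilinearMap ℂ (fun _ : Fin n => A) E, ‖h‖ ≤ (n + 1) * ‖f‖ ∧
        ∀ a, dE (fun a e => L (π a) e) (fun e a => R e a) h a =
          R (f fun i => π (a i)) v - L v (f a) := by
  induction n with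
  | zero =>
    intro E _ _ L R f hf
    refine ⟨ContinuousMultilinearMap.constOfIsEmpty ℂ _ (-f fun _ => v), ?_, fun a => ?_⟩
    · rw [ContinuousMultilinearMap.norm_constOfIsEmpty, norm_neg]
      refine (f.le_opNorm _).trans ?_
      simpa using mul_le_of_le_one_right (norm_nonneg f) hv
    · have c : ∀ (g : Fin 0 → A) (x : A), (Fin.snoc g x : Fin 1 → A) = fun _ => x := fun g x => by
        funext i
        rw [Subsingleton.elim (α := Fin 1) i (Fin.last 0), Fin.snoc_last]
      have h1 := hf (Fin.snoc (fun i => π (a i)) v)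
      have h2 := hf (Fin.snoc (fun _ => v) (a 0))
      have ea : a = fun _ => a 0 := funext fun i => by rw [Subsingleton.elim (α := Fin 1) i 0]
      rw [dE_snoc] at h1 h2
      simp only [c, Finset.univ_eq_empty, Finset.sum_empty, add_zero, zero_add, pow_one,
        neg_smul, one_smul, even_two, Even.neg_pow, one_pow, ← ea] at h1 h2
      rw [show Fin.last 0 = 0 from rfl, hc] at h1
      simp only [dE, Finset.univ_eq_empty, Finset.sum_empty, add_zero, zero_add, pow_one,
        neg_smul, one_smul, ContinuousMultilinearMap.constOfIsEmpty_apply, map_neg,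
        ContinuousLinearMap.neg_apply, neg_neg]
      rw [show Fin.last 0 = 0 from rfl, ← sub_eq_zero, ← sub_eq_zero.2 (h2.trans h1.symm)]
      abel
  | succ n ih =>
    intro E _ _ L R f hf
    let L' : A → (A →L[ℂ] E) →L[ℂ] (A →L[ℂ] E) := fun a =>
      ContinuousLinearMap.compL ℂ A E E (L a)
    let R' : (A →L[ℂ] E) →L[ℂ] A →L[ℂ] (A →L[ℂ] E) :=
      ((ContinuousLinearMap.compL ℂ A (A →L[ℂ] A) (A →L[ℂ] E)).flip
        (ContinuousLinearMap.mul ℂ A)).comp (ContinuousLinearMap.compL ℂ A A E) -
      ContinuousLinearMap.compL ℂ A E (A →L[ℂ] E) R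
    have hR' : ∀ T a x, R' T a x = T (a * x) - R (T a) x := fun _ _ _ => rfl
    have key : ∀ {m : ℕ} (M : A → A)
        (g : ContinuousMultilinearMap ℂ (fun _ : Fin (m + 1) => A) E) (a : Fin (m + 1) → A) (x : A),
        dE (fun a e => L' (M a) e) (fun e a => R' e a) g.curryRight a x =
          dE (fun a e => L (M a) e) (fun e a => R e a) g (Fin.snoc a x : Fin (m + 2) → A) := by
      intro m M g a x
      rw [dE_snoc, dE]
      simp only [ContinuousLinearMap.add_apply, ContinuousLinearMap.sum_apply,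
        ContinuousLinearMap.smul_apply, hR', ContinuousMultilinearMap.curryRight_apply, L',
        ContinuousLinearMap.compL_apply, ContinuousLinearMap.comp_apply, snoc_eq, smul_sub,
        pow_succ _ (m + 1), mul_neg, mul_one, neg_smul]
      abel
    obtain ⟨h', h1, h2⟩ := ih (A →L[ℂ] E) L' R' f.curryRight fun a => by
      ext x
      exact (key id f a x).trans (hf _)
    let k : ContinuousMultilinearMap ℂ (fun _ : Fin (n + 1) => A) E :=
      (ContinuousLinearMap.apply ℂ E v).compContinuousMultilinearMap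
        (f.curryRight.compContinuousLinearMap fun _ => π)
    have hk : ∀ b, k b = f (Fin.snoc (fun i => π (b i)) v) := fun _ => rfl
    have hkn : ‖k‖ ≤ ‖f‖ := by
      refine ContinuousMultilinearMap.opNorm_le_bound (norm_nonneg _) fun b => ?_
      refine (((f.curryRight.compContinuousLinearMap fun _ => π) b).le_opNorm v).trans
        ((mul_le_of_le_one_right (norm_nonneg _) hv).trans ?_)
      exact ContinuousMultilinearMap.le_of_opNorm_le (norm_curry_comp_le f hn) b
    let h'' : ContinuousMultilinearMap ℂ (fun _ : Fin (n + 1) => A) E :=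
      ContinuousMultilinearMap.uncurryRight (Ei := fun _ => A) h'
    refine ⟨h'' + ((-1 : ℤ) ^ n) • k, ?_, fun a => ?_⟩
    · refine (norm_add_le _ _).trans ?_
      have e1 : ‖h''‖ = ‖h'‖ := ContinuousMultilinearMap.uncurryRight_norm (Ei := fun _ => A) h'
      have e2 : ‖((-1 : ℤ) ^ n) • k‖ = ‖k‖ := by
        rcases neg_one_pow_eq_or ℤ n with h | h <;> simp [h]
      rw [f.curryRight_norm] at h1
      rw [e1, e2]
      push_cast
      linarith
    · obtain ⟨b, x, rfl⟩ : ∃ (b : Fin (n + 1) → A) (x : A), a = Fin.snoc b x :=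
        ⟨_, _, (snoc_eq a).symm⟩
      have e1 := key π h'' b x
      rw [show h''.curryRight = h' from
        ContinuousMultilinearMap.curry_uncurryRight (Ei := fun _ => A) h', h2] at e1
      have e2 := hf (Fin.snoc (fun i => π ((Fin.snoc b x : Fin (n + 2) → A) i)) v)
      rw [dE_snoc] at e2
      simp only [merge_map hπ, ← hk, Fin.snoc_castSucc, Fin.snoc_last, hc] at e2
      simp only [ContinuousLinearMap.sub_apply, hR', ContinuousMultilinearMap.curryRight_apply, L',
        ContinuousLinearMap.compL_apply, ContinuousLinearMap.comp_apply, ← hk] at e1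
      have e3 : dE (fun a e => L (π a) e) (fun e a => R e a) (h'' + ((-1 : ℤ) ^ n) • k :)
          (Fin.snoc b x) = dE (fun a e => L (π a) e) (fun e a => R e a) h'' (Fin.snoc b x) +
            ((-1 : ℤ) ^ n) • dE (fun a e => L (π a) e) (fun e a => R e a) k (Fin.snoc b x) := by
        simp only [dE, ContinuousMultilinearMap.add_apply, ContinuousMultilinearMap.smul_apply,
          map_add, map_zsmul, smul_add, Finset.sum_add_distrib, Finset.smul_sum,
          ContinuousLinearMap.add_apply, ContinuousLinearMap.smul_apply, smul_comm ((-1 : ℤ) ^ n)]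
        abel
      rw [e3, ← e1, dE, eq_neg_of_add_eq_zero_left e2 |> eq_sub_of_add_eq]
      simp only [Fin.snoc_castSucc, Fin.snoc_last]
      rcases neg_one_pow_eq_or ℤ n with h | h <;> simp only [pow_succ, h] <;> simp <;> abel

end Crest.Agent.R121
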