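import Crest.Agent.R121.Test

/-!
# Row 121: bounds for matrices over a C⋆-algebra
-/

set_option autoImplicit false

namespace Crest.Agent.R121

open Finset

universe u

variable {A : Type u} [CStarAlgebra A]

theorem norm_one_le' : ‖(1 : A)‖ ≤ 1 := by
  rcases subsingleton_or_nontrivial A with h | h
  · simp [Subsingleton.elim (1 : A) 0]
  · simp

theorem norm_sum_sq_le_of {ι κ μ : Type*} [Fintype ι] [Fintype κ] [Fintype μ] {a : ι → A}
    {b : κ → A} (d : μ → A)
    (h : ∑ i, star (a i) * a i + ∑ l, star (d l) * d l = ∑ j, star (b j) * b j) :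
    ‖∑ i, star (a i) * a i‖ ≤ ‖∑ j, star (b j) * b j‖ := by
  let _ := CStarAlgebra.spectralOrder A
  have := CStarAlgebra.spectralOrderedRing A
  refine CStarAlgebra.norm_le_norm_of_nonneg_of_le (sum_nonneg fun i _ => star_mul_self_nonneg _) ?_
  rw [← h]
  exact le_add_of_nonneg_right (sum_nonneg fun i _ => star_mul_self_nonneg _)

theorem norm_sum_row_mul_le {ι : Type*} [Fintype ι] (r : ι → A) (b : A) :
    ‖∑ i, r i * b * star (r i * b)‖ ≤ ‖b‖ ^ 2 * ‖∑ i, r i * star (r i)‖ := by
  let _ := CStarAlgebra.spectralOrder A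
  have := CStarAlgebra.spectralOrderedRing A
  refine (CStarAlgebra.norm_le_norm_of_nonneg_of_le (sum_nonneg fun i _ => mul_star_self_nonneg _)
    (b := ‖b * star b‖ • ∑ i, r i * star (r i)) ?_).trans ?_
  · rw [smul_sum]
    refine sum_le_sum fun i _ => ?_
    have := CStarAlgebra.star_right_conjugate_le_norm_smul (a := r i) (b := b * star b)
      (IsSelfAdjoint.mul_star_self b)
    simpa only [star_mul, mul_assoc] using this
  · rw [norm_smul, norm_norm, CStarRing.norm_self_mul_star, sq]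

section

variable {ι κ : Type*} [Fintype ι] [Fintype κ]

theorem Bd.mono {Z : ι → κ → A} {R R' : ℝ} (h : Bd Z R) (hR : R ≤ R') : Bd Z R' := fun r c =>
  (h r c).trans (by gcongr)

theorem Bd.mul_left {Z : ι → κ → A} {R : ℝ} (h : Bd Z R) (hR : 0 ≤ R) (b : A) :
    Bd (fun i j => b * Z i j) (‖b‖ * R) := by
  intro r c
  have h1 := h (fun i => r i * b) c
  have h2 := Real.sqrt_le_sqrt (norm_sum_row_mul_le r b)
  rw [Real.sqrt_mul (sq_nonneg _), Real.sqrt_sq (norm_nonneg _)] at h2
  simp only [← mul_assoc]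
  refine h1.trans ?_
  calc _ ≤ R * (‖b‖ * √‖∑ i, r i * star (r i)‖) * √‖∑ j, star (c j) * c j‖ := by gcongr
    _ = _ := by ring

theorem Bd.add {Z Z' : ι → κ → A} {R R' : ℝ} (h : Bd Z R) (h' : Bd Z' R') :
    Bd (fun i j => Z i j + Z' i j) (R + R') := by
  intro r c
  simp only [mul_add, add_mul, sum_add_distrib]
  exact (norm_add_le _ _).trans (add_le_add (h r c) (h' r c))

theorem Bd.smul {Z : ι → κ → A} {R : ℝ} (h : Bd Z R) (t : ℂ) :
    Bd (fun i j => t • Z i j) (‖t‖ * R) := by
  intro r c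
  simp only [mul_smul_comm, smul_mul_assoc, ← smul_sum, norm_smul, mul_assoc ‖t‖]
  exact mul_le_mul_of_nonneg_left (h r c) (norm_nonneg _)

theorem Bd.equiv {Z : ι → κ → A} {R : ℝ} (h : Bd Z R) {ι' κ' : Type*} [Fintype ι'] [Fintype κ']
    (e : ι' ≃ ι) (e' : κ' ≃ κ) : Bd (fun i j => Z (e i) (e' j)) R := by
  intro r c
  have := h (fun a => r (e.symm a)) fun b => c (e'.symm b)
  rw [e.symm.sum_comp fun a => r a * star (r a), e'.symm.sum_comp fun b => star (c b) * c b,
    ← e.sum_comp] at this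
  simp only [← e'.sum_comp, Equiv.symm_apply_apply] at this
  exact this

/-- completely bounded maps act on rectangular matrices -/
theorem CB.bd {θ : A →L[ℂ] A} {C : ℝ} (h : CB θ C) {Z : ι → κ → A} {R : ℝ} (hR : 0 ≤ R)
    (hZ : Bd Z R) : Bd (fun i j => θ (Z i j)) (C * R) := by
  let e := Fintype.equivFin (ι ⊕ κ)
  let Z' : ι ⊕ κ → ι ⊕ κ → A := fun a b => a.elim (fun i => b.elim 0 fun j => Z i j) 0
  have h1 : Bd Z' R := by
    intro r c
    have h2 := hZ (fun i => r (.inl i)) fun j => c (.inr j)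
    have h3 := norm_sum_sq_le_of (a := fun i => star (r (.inl i))) (b := fun i => star (r i))
      (fun j => star (r (.inr j))) (by rw [Fintype.sum_sum_type])
    have h4 := norm_sum_sq_le_of (a := fun j => c (.inr j)) (b := c)
      (fun i => c (.inl i)) (by rw [Fintype.sum_sum_type, add_comm])
    simp only [star_star] at h3
    refine le_of_eq_of_le (by simp [Z', Fintype.sum_sum_type]) (h2.trans ?_)
    gcongr
  have h2 := (h _ _ le_rfl _ R hR (h1.equiv e.symm e.symm)).equiv e e
  intro r c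
  simpa [Z', Fintype.sum_sum_type] using h2 (fun a => a.elim r 0) fun b => b.elim 0 c

theorem CB.col {θ θ' : A →L[ℂ] A} {C : ℝ} (h : CB θ C) {m : κ → A}
    (hm : ∑ t, star (m t) * m t = 1) (h' : ∀ x, θ' x = ∑ t, θ (x * star (m t)) * m t) :
    CB θ' C := by
  intro k l _ Z R hR hZ r c
  have h1 : Bd (fun i (q : Fin l × κ) => Z i q.1 * star (m q.2)) R := by
    intro r c
    have h2 := hZ r fun j => ∑ t, star (m t) * c (j, t)
    have h3 := norm_sum_sq_le_of (a := fun j => ∑ t, star (m t) * c (j, t)) (b := c)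
      (fun q : Fin l × κ => c q - m q.2 * ∑ t, star (m t) * c (q.1, t)) (by
        rw [Fintype.sum_prod_type, Fintype.sum_prod_type, ← sum_add_distrib]
        refine sum_congr rfl fun j _ => ?_
        set d := ∑ t, star (m t) * c (j, t) with hd
        have e1 : ∑ t, star (c (j, t)) * m t = star d := by simp [hd, star_sum]
        have e2 : ∀ t, star (c (j, t) - m t * d) * (c (j, t) - m t * d) =
            star (c (j, t)) * c (j, t) - star (c (j, t)) * m t * d -
              star d * (star (m t) * c (j, t)) + star d * (star (m t) * m t) * d := fun t => by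
          simp only [star_sub, star_mul]; noncomm_ring
        simp only [e2, sum_add_distrib, sum_sub_distrib, ← sum_mul, ← mul_sum, e1, ← hd, hm,
          mul_one]
        abel)
    refine le_of_eq_of_le (by simp only [Fintype.sum_prod_type, mul_sum, mul_assoc]) (h2.trans ?_)
    gcongr
  have h2 := h.bd hR h1 r fun q => m q.2 * c q.1
  have e : ∑ q : Fin l × κ, star (m q.2 * c q.1) * (m q.2 * c q.1) = ∑ j, star (c j) * c j := by
    rw [Fintype.sum_prod_type]
    refine sum_congr rfl fun j _ => ?_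
    have : ∀ t, star (m t * c j) * (m t * c j) = star (c j) * (star (m t) * m t) * c j :=
      fun t => by simp only [star_mul, mul_assoc]
    simp only [this, ← sum_mul, ← mul_sum, hm, mul_one]
  rw [e] at h2
  refine le_of_eq_of_le ?_ h2
  simp only [h', Fintype.sum_prod_type, mul_sum, sum_mul, mul_assoc]

end

theorem CBk.norm_le {θ : A →L[ℂ] A} {C : ℝ} {k : ℕ} (h : CBk (k + 1) θ C) (hC : 0 ≤ C) :
    ‖θ‖ ≤ C := by
  refine θ.opNorm_le_bound hC fun x => ?_
  have h1 := h 1 (by omega) (fun _ _ => x) ‖x‖ (norm_nonneg _) (fun r c => by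
    simp only [univ_unique, sum_singleton, CStarRing.norm_self_mul_star,
      CStarRing.norm_star_mul_self, Real.sqrt_mul_self (norm_nonneg _)]
    refine (norm_mul_le _ _).trans (mul_le_mul_of_nonneg_right ?_ (norm_nonneg _))
    rw [mul_comm ‖x‖]; exact norm_mul_le _ _) (fun _ => 1) fun _ => 1
  simp only [univ_unique, sum_singleton, mul_one, one_mul, star_one] at h1
  have h2 : √‖(1 : A)‖ ≤ 1 := Real.sqrt_le_one.2 norm_one_le'
  refine h1.trans ?_
  calc _ ≤ C * ‖x‖ * 1 * 1 := by gcongr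
    _ = _ := by ring

section

variable {ι : Type*} [DecidableEq ι] {s : ι → A} {z : A}

theorem norm_sum_range_le (hs : ∀ i j, star (s i) * s j = if i = j then z else 0)
    (hz : ∀ i, s i * z = s i) {κ : Type*} [Fintype κ] {α : κ → ι} (hα : Function.Injective α) :
    ‖∑ p, s (α p) * star (s (α p))‖ ≤ 1 := by
  classical
  refine IsStarProjection.norm_le _ ⟨?_, ?_⟩
  · rw [IsIdempotentElem, sum_mul]
    refine sum_congr rfl fun p _ => ?_
    rw [mul_sum, sum_eq_single p]
    · rw [mul_assoc, ← mul_assoc (star _), hs, if_pos rfl, ← mul_assoc, hz]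
    · intro q _ hq
      rw [mul_assoc, ← mul_assoc (star _), hs, if_neg (hα.ne hq.symm), zero_mul, mul_zero]
    · simp
  · simp [IsSelfAdjoint, star_sum]

theorem diag_bound (hs : ∀ i j, star (s i) * s j = if i = j then z else 0)
    (hz : ∀ i, s i * z = s i) (θ : A →L[ℂ] A) {κ : Type*} [Fintype κ] {α β : κ → ι}
    (hα : Function.Injective α) (hβ : Function.Injective β) {Z : κ → κ → A} {R : ℝ} (hR : 0 ≤ R)
    (hZ : Bd Z R) (r c : κ → A) :
    ‖∑ p, ∑ q, r p * (star (s (α p)) * θ (s (α p) * Z p q * star (s (β q))) * s (β q)) * c q‖ ≤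
      ‖θ‖ * R * √‖∑ i, r i * star (r i)‖ * √‖∑ j, star (c j) * c j‖ := by
  have sq : ∀ ε : ℂ, ε = 1 ∨ ε = -1 → ∀ a b : A, (ε • a) * (ε • b) = a * b ∧ star ε = ε := by
    rintro ε (rfl | rfl) a b <;> simp
  have n1 := Real.sqrt_le_one.2 (norm_sum_range_le hs hz hα)
  have n2 := Real.sqrt_le_one.2 (norm_sum_range_le hs hz hβ)
  let T : κ → κ → κ → κ → A := fun p p' q q' =>
    r p * (star (s (α p)) * θ (s (α p') * Z p' q * star (s (β q))) * s (β q')) * c q'
  refine signAvg (fun p p' => ∑ q, T p p' q q) fun ε hε => ?_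
  simp only [smul_sum]
  rw [sum_congr rfl fun p _ => sum_comm, sum_comm]
  refine signAvg (fun q q' => ∑ p, ∑ p', (ε p * ε p') • T p p' q q') fun ε' hε' => ?_
  have e : ∑ q, ∑ q', (ε' q * ε' q') • ∑ p, ∑ p', (ε p * ε p') • T p p' q q' =
      (∑ p, r p * (ε p • star (s (α p)))) *
        θ (∑ p, ∑ q, (ε p • s (α p)) * Z p q * (ε' q • star (s (β q)))) *
        ∑ q, (ε' q • s (β q)) * c q := by
    simp only [map_sum, smul_mul_assoc, mul_smul_comm, map_smul, smul_sum, sum_mul, mul_sum,
      smul_smul, T, mul_assoc]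
    rw [sum_comm]
    refine sum_congr rfl fun q' _ => ?_
    conv_rhs => rw [sum_comm]
    refine sum_congr rfl fun q _ => ?_
    rw [sum_comm]
    exact sum_congr rfl fun p' _ => sum_congr rfl fun p _ => by congr 1; ring
  have h1 := hZ (fun p => ε p • s (α p)) fun q => ε' q • star (s (β q))
  have h2 := norm_sum_mul_le r fun p => ε p • star (s (α p))
  have h3 := norm_sum_mul_le (fun q => ε' q • s (β q)) c
  simp only [star_smul, star_star, fun p => (sq _ (hε p) 0 0).2, fun p => (sq _ (hε' p) 0 0).2,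
    fun p a b => (sq _ (hε p) a b).1, fun p a b => (sq _ (hε' p) a b).1] at h1 h2 h3
  rw [e]
  refine (norm_mul₃_le).trans ?_
  have h4 := (θ.le_opNorm _).trans (mul_le_mul_of_nonneg_left h1 (norm_nonneg _))
  calc _ ≤ (√‖∑ i, r i * star (r i)‖ * 1) * (‖θ‖ * (R * 1 * 1)) *
        (1 * √‖∑ j, star (c j) * c j‖) := by
        gcongr
        · exact h2.trans (by gcongr)
        · exact h4.trans (by gcongr)
        · exact h3.trans (by gcongr)
    _ = _ := by ring

end

theorem cbk_avg {k : ℕ} {s : Fin (k + 1) → A} {z : A}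
    (hs : ∀ i j, star (s i) * s j = if i = j then z else 0) (hz : ∀ i, s i * z = s i)
    (θ θ₀ : A →L[ℂ] A) (h : ∀ x, θ₀ x = (((k + 1 : ℕ) : ℂ)⁻¹ ^ 2) •
      ∑ i, ∑ j, star (s i) * θ (s i * x * star (s j)) * s j) : CBk (k + 1) θ₀ ‖θ‖ := by
  intro l hl Z R hR hZ r c
  let α : Fin (k + 1) → Fin l → Fin (k + 1) := fun σ p => Fin.castLE hl p + σ
  have hα : ∀ σ, Function.Injective (α σ) := fun σ p q h =>
    Fin.castLE_injective hl (add_right_cancel h)
  have e : ∑ p, ∑ q, r p * θ₀ (Z p q) * c q = (((k + 1 : ℕ) : ℂ)⁻¹ ^ 2) • ∑ σ, ∑ σ', ∑ p, ∑ q,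
      r p * (star (s (α σ p)) * θ (s (α σ p) * Z p q * star (s (α σ' q))) * s (α σ' q)) * c q := by
    simp only [h, mul_smul_comm, smul_mul_assoc, ← smul_sum]
    congr 1
    symm
    calc _ = ∑ p, ∑ q, ∑ σ, ∑ σ', r p * (star (s (α σ p)) *
          θ (s (α σ p) * Z p q * star (s (α σ' q))) * s (α σ' q)) * c q := by
          rw [← Fintype.sum_prod_type', sum_comm]
          refine sum_congr rfl fun p _ => ?_
          rw [sum_comm]
          exact sum_congr rfl fun q _ => Fintype.sum_prod_type _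
      _ = _ := by
          refine sum_congr rfl fun p _ => sum_congr rfl fun q _ => ?_
          simp only [mul_sum, sum_mul]
          refine Fintype.sum_equiv (Equiv.addLeft (Fin.castLE hl p)) _ _ fun σ => ?_
          exact Fintype.sum_equiv (Equiv.addLeft (Fin.castLE hl q)) _ _ fun σ' => rfl
  rw [e, norm_smul]
  have h1 := (norm_sum_le _ _).trans (sum_le_sum fun σ (_ : σ ∈ univ) => (norm_sum_le _ _).trans
    (sum_le_sum fun σ' (_ : σ' ∈ univ) => diag_bound hs hz θ (hα σ) (hα σ') hR hZ r c))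
  refine (mul_le_mul_of_nonneg_left h1 (norm_nonneg _)).trans (le_of_eq ?_)
  simp only [sum_const, card_univ, Fintype.card_fin, nsmul_eq_mul, norm_pow, norm_inv,
    Complex.norm_natCast]
  field_simp

end Crest.Agent.R121
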