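import Crest.Agent.R121.CB
import Crest.Agent.R121.Coh_A
import Crest.Agent.R121.Coh_B

/-!
# Row 121: the properly infinite case

PLAN.
* Homotopy.  For a normed space `E`, `L R : A →L[ℂ] E →L[ℂ] E` let
  `dE L R f a = L (a 0) (f tail) + ∑ ± f (merge) ± R (a last) (f init)`.  Let `π : A →L[ℂ] A` be
  multiplicative, `‖π‖ ≤ 1`, `‖v‖ ≤ 1`, `π a * v = v * a`.  Claim: if `dE L R f = 0` (`f` of degree `n+1`) there
  is `h` of degree `n`, `‖h‖ ≤ (n+1) ‖f‖`, with `dE (L ∘ π) R h a = R v (f (π ∘ a)) - L v (f a)`.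
  Induction on `n`, for all `E`: `f.curryRight` is a cocycle for `E' = A →L[ℂ] E`, `L' a T = L a ∘ T`,
  `R' a T x = T (a x) - R x (T a)` (see `Snoc.lean`); `h = (uncurried h') ± f (π ·, v)`, using the cocycle
  identity at `snoc (π ∘ a) v`.  For `n = 0` use the identities at `(π a, v)` and `(v, a)`.
* For `k ≥ 1`: `π a = ∑_{i<k} s i a s i⋆`, `v = s i`; `s i⋆ π a = a s i⋆`; so
  `φ_i a = s i⋆ f (π a) s i = z f a + d (s i⋆ h_i) a`.  `y a x = (-1)^(n+1) k⁻² ∑_{ij} s i⋆ f (π a, s i x s j⋆) s j - h a x`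
  (`h` = average of `s i⋆ h_i`) is in `Prim W id (z f)` (`hoch_snoc`) and is `CBk k` with constant
  `(n+2) ‖f‖ ∏ ‖a i‖`: for `θ₀ x = k⁻² ∑ s i⋆ θ (s i x s j⋆) s j`, `l ≤ k`, shifts `σ, σ' ∈ ZMod k` and signs,
  `X = ∑ ε_p ε'_q s (p+σ) Z p q s (q+σ')⋆` has norm `≤ R`; `signAvg` twice, then average over `σ, σ'`.
* `{y ∈ Prim | ∀ p, CBk k (y p) (C p)}` are nonempty closed decreasing subsets of the compact box
  (`CBk 1` gives the norm bound); the intersection `K` is convex and invariant under columns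
  (`Z' i (j,l) = Z i j m l⋆`); `FPcb`, `exists_co_of_mod`.
-/

set_option autoImplicit false

namespace Crest.Agent.R121

open Filter Topology
open scoped ComplexConjugate ComplexOrder

universe u v

variable {A : Type u} [CStarAlgebra A]

open Finset OpAlg

/-- the amplification -/
noncomputable def ampl {ι : Type*} [Fintype ι] [DecidableEq ι] {s : ι → A} {z : A}
    (hs : ∀ i j, star (s i) * s j = if i = j then z else 0) (hz : ∀ i a, s i * a * z = s i * a) :
    A →⋆ₙₐ[ℂ] A where
  toFun a := ∑ i, s i * a * star (s i)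
  map_smul' c a := by simp [smul_sum]
  map_zero' := by simp
  map_add' a b := by simp [mul_add, add_mul, sum_add_distrib]
  map_mul' a b := by
    rw [sum_mul]
    refine sum_congr rfl fun i _ => ?_
    have : ∀ j, s i * a * star (s i) * (s j * b * star (s j)) =
        s i * a * (star (s i) * s j) * b * star (s j) := fun j => by simp only [mul_assoc]
    simp only [mul_sum, this, hs, mul_ite, ite_mul, mul_zero, zero_mul, sum_ite_eq, mem_univ,
      if_true, hz]
    simp only [mul_assoc]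
  map_star' a := by simp [star_sum, mul_assoc]

/-- the differential as a linear map -/
noncomputable def pdL {n : ℕ} (a : Fin (n + 1) → A) (x : A) : ((Fin n → A) → A → A) →ₗ[ℂ] A where
  toFun Y := a 0 * Y (fun i => a i.succ) x +
    (∑ i : Fin n, ((-1 : ℤ) ^ (i.val + 1)) • Y (mergeArgs i a) x) +
    ((-1 : ℤ) ^ (n + 1)) • Y (fun i => a i.castSucc) (a (Fin.last n) * x)
  map_add' Y Y' := by simp only [Pi.add_apply, mul_add, smul_add, sum_add_distrib]; abel
  map_smul' c Y := by
    simp only [Pi.smul_apply, mul_smul_comm, smul_add, smul_sum, smul_comm c, RingHom.id_apply]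

theorem exists_cbk (W : WS A) {n : ℕ} (f : Co A (n + 1)) (hf : ∀ a, hochschildDiff f a = 0)
    {z : A} (hz : IsCP z) {k : ℕ} {s : Fin (k + 1) → A}
    (hs : ∀ i j, star (s i) * s j = if i = j then z else 0) :
    ∃ y ∈ Prim W id fun a => z * f a, ∀ p, CBk (k + 1) (y p) ((n + 2) * ‖f‖ * ∏ i, ‖p i‖) := by
  have hss : ∀ i, star (s i) * s i = z := fun i => by simpa using hs i i
  have hsz : ∀ i, s i * z = s i := fun i => by
    rw [← hss i, ← mul_assoc]; exact isPI_of_proj (hss i ▸ hz.1)
  have hsz' : ∀ i a, s i * a * z = s i * a := fun i a => by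
    rw [mul_assoc, ← hz.2, ← mul_assoc, hsz]
  have hzs : ∀ i, z * star (s i) = star (s i) := fun i => by
    simpa [hz.1.isSelfAdjoint.star_eq] using congrArg star (hsz i)
  have hsn : ∀ i, ‖s i‖ ≤ 1 := fun i => by
    have := hz.1.norm_le
    rw [← hss i, CStarRing.norm_star_mul_self] at this
    nlinarith [norm_nonneg (s i)]
  let π : A →L[ℂ] A := LinearMap.mkContinuous
    { toFun := ampl hs hsz', map_add' := map_add _, map_smul' := map_smul _ } 1 fun a => by
      rw [one_mul]; exact NonUnitalStarAlgHom.norm_apply_le (ampl hs hsz') a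
  have hπ : ∀ a, π a = ∑ i, s i * a * star (s i) := fun _ => rfl
  have hπm : ∀ a b, π (a * b) = π a * π b := map_mul (ampl hs hsz')
  have hπn : ‖π‖ ≤ 1 := LinearMap.mkContinuous_norm_le _ zero_le_one _
  have hπ1 : ∀ i a, π a * s i = s i * a := fun i a => by
    simp only [hπ, sum_mul, mul_assoc _ (star _), hs, mul_ite, mul_zero, sum_ite_eq', mem_univ,
      if_true, hsz']
  have hπ2 : ∀ i a, star (s i) * π a = a * star (s i) := fun i a => by
    simp only [hπ, mul_sum, ← mul_assoc, hs, ite_mul, zero_mul, sum_ite_eq, mem_univ, if_true]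
    rw [hz.2, mul_assoc, hzs]
  choose h hh1 hh2 using fun i => homotopy hπm hπn (hsn i) (hπ1 i) n A
    (ContinuousLinearMap.mul ℂ A) (ContinuousLinearMap.mul ℂ A) f hf
  let g := f.curryRight.compContinuousLinearMap fun _ : Fin n => π
  have hg : ∀ a x, g a x = f (Fin.snoc (fun i => π (a i)) x) := fun _ _ => rfl
  let c : ℂ := ((k + 1 : ℕ) : ℂ)⁻¹
  have hc : c * ((k + 1 : ℕ) : ℂ) = 1 := inv_mul_cancel₀ (by exact_mod_cast Nat.succ_ne_zero k)
  let θ : (A →L[ℂ] A) → A →L[ℂ] A := fun T => c ^ 2 • ∑ i, ∑ j,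
    (ContinuousLinearMap.mulLeftRight ℂ A (star (s i)) (s j)).comp
      (T.comp (ContinuousLinearMap.mulLeftRight ℂ A (s i) (star (s j))))
  have hθ : ∀ T x, θ T x = c ^ 2 • ∑ i, ∑ j, star (s i) * T (s i * x * star (s j)) * s j :=
    fun T x => by simp [θ, ContinuousLinearMap.sum_apply]
  let H : (Fin n → A) → A := fun a => c • ∑ i, star (s i) * h i a
  let y : Fam W (Fin n → A) := fun a =>
    ((-1 : ℂ) ^ (n + 1)) • θ (g a) - ContinuousLinearMap.mul ℂ A (H a)
  have hy : ∀ a x, y a x = ((-1 : ℂ) ^ (n + 1)) • θ (g a) x - H a * x := fun _ _ => rfl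
  refine ⟨y, ⟨fun a i t u v x => ?_, fun a x => ?_⟩, fun p => ?_⟩
  · simp only [hy, hθ, H, g.map_update_add, g.map_update_smul, (h _).map_update_add,
      (h _).map_update_smul, ContinuousLinearMap.add_apply, ContinuousLinearMap.smul_apply,
      mul_add, add_mul, mul_smul_comm, smul_mul_assoc, sum_add_distrib, ← smul_sum]
    module
  · have e1 : ∀ i j, a 0 * (star (s i) * g (fun l => a l.succ) (s i * x * star (s j)) * s j) +
        ∑ l : Fin n, ((-1 : ℤ) ^ (l.val + 1)) •
          (star (s i) * g (mergeArgs l a) (s i * x * star (s j)) * s j) +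
        ((-1 : ℤ) ^ (n + 1)) • (star (s i) * g (fun l => a l.castSucc)
          (s i * (a (Fin.last n) * x) * star (s j)) * s j) =
        ((-1 : ℤ) ^ (n + 1)) • (star (s i) * (f fun l => π (a l)) * s i * x) := by
      intro i j
      have h1 := hf (Fin.snoc (fun l => π (a l)) (s i * x * star (s j)))
      rw [hoch_snoc] at h1
      simp only [merge_map hπm, ← hg, ← mul_assoc (π _), hπ1] at h1
      have h2 := congrArg (fun t => star (s i) * t * s j) h1
      simp only [mul_add, add_mul, mul_sum, sum_mul, mul_smul_comm, smul_mul_assoc, mul_zero,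
        zero_mul, ← mul_assoc, hπ2] at h2
      rw [mul_assoc _ (star (s j)), hss, mul_assoc _ (s i), mul_assoc _ (s i * x), hsz',
        pow_succ _ (n + 1), mul_neg, mul_one, neg_smul, add_neg_eq_zero] at h2
      simpa only [mul_assoc] using h2
    have e2 : ∀ i, a 0 * (star (s i) * h i fun l => a l.succ) +
        ∑ l : Fin n, ((-1 : ℤ) ^ (l.val + 1)) • (star (s i) * h i (mergeArgs l a)) +
        ((-1 : ℤ) ^ (n + 1)) • (star (s i) * (h i fun l => a l.castSucc) * a (Fin.last n)) =
        star (s i) * (f fun l => π (a l)) * s i - z * f a := by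
      intro i
      have h2 := congrArg (fun t => star (s i) * t) (hh2 i a)
      simpa only [dE, ContinuousLinearMap.mul_apply', mul_add, mul_sub, mul_sum, mul_smul_comm,
        ← mul_assoc, hπ2, hss] using h2
    have e3 : PD id y a x = ((-1 : ℂ) ^ (n + 1) * c ^ 2) • ∑ i, ∑ j : Fin (k + 1),
        ((-1 : ℤ) ^ (n + 1)) • (star (s i) * (f fun l => π (a l)) * s i * x) -
        c • ∑ i, (star (s i) * (f fun l => π (a l)) * s i - z * f a) * x := by
      have e4 : (fun b x => y b x) = ((-1 : ℂ) ^ (n + 1) * c ^ 2) •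
          (∑ i, ∑ j, fun b x => star (s i) * g b (s i * x * star (s j)) * s j) -
          c • ∑ i, fun b x => star (s i) * h i b * x := by
        funext b x
        simp only [hy, hθ, H, Pi.sub_apply, Pi.smul_apply, Finset.sum_apply, mul_smul, sum_mul,
          smul_mul_assoc]
      change pdL a x (fun b x => y b x) = _
      rw [e4]
      simp only [map_sub, map_smul, map_sum]
      congr 2
      · exact sum_congr rfl fun i _ => sum_congr rfl fun j _ => e1 i j
      · refine sum_congr rfl fun i _ => ?_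
        rw [← e2]
        simp only [pdL, LinearMap.coe_mk, AddHom.coe_mk, add_mul, sum_mul, smul_mul_assoc,
          mul_assoc]
    rw [e3]
    simp only [sub_mul, sum_sub_distrib, sum_const, card_univ, Fintype.card_fin, ← smul_sum,
      ← Nat.cast_smul_eq_nsmul ℂ, ← Int.cast_smul_eq_zsmul ℂ, smul_smul, smul_sub, hc, one_smul]
    have : (-1 : ℂ) ^ (n + 1) * c ^ 2 * (((k + 1 : ℕ) : ℂ) * (((-1 : ℤ) ^ (n + 1) : ℤ) : ℂ)) = c := by
      push_cast at hc ⊢
      have h1 : (-1 : ℂ) ^ (n + 1) * (-1) ^ (n + 1) = 1 := by rw [← mul_pow]; simp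
      linear_combination c ^ 2 * (k + 1) * h1 + c * hc
    rw [this]
    abel
  · have hP : 0 ≤ ∏ i, ‖p i‖ := prod_nonneg fun _ _ => norm_nonneg _
    have h1 : ‖g p‖ ≤ ‖f‖ * ∏ i, ‖p i‖ :=
      ContinuousMultilinearMap.le_of_opNorm_le (norm_curry_comp_le f hπn) p
    have h2 : ‖H p‖ ≤ (n + 1) * ‖f‖ * ∏ i, ‖p i‖ := by
      have h3 : ∀ i, ‖star (s i) * h i p‖ ≤ (n + 1) * ‖f‖ * ∏ i, ‖p i‖ := fun i =>
        (norm_mul_le _ _).trans ((mul_le_of_le_one_left (norm_nonneg _)
          (by rw [norm_star]; exact hsn i)).trans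
          (ContinuousMultilinearMap.le_of_opNorm_le (hh1 i) p))
      have h4 := (norm_sum_le _ _).trans (sum_le_sum fun i (_ : i ∈ univ) => h3 i)
      rw [sum_const, card_univ, Fintype.card_fin, nsmul_eq_mul] at h4
      rw [norm_smul, norm_inv, Complex.norm_natCast, inv_mul_le_iff₀ (by positivity)]
      exact h4
    intro l hl Z R hR hZ
    have h3 := ((cbk_avg hs hsz (g p) (θ (g p)) (hθ _) l hl Z R hR hZ).smul
      ((-1 : ℂ) ^ (n + 1))).add ((hZ.mul_left hR (H p)).smul (-1))
    simp only [norm_pow, norm_neg, norm_one, one_pow, one_mul, neg_smul, one_smul,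
      ← sub_eq_add_neg, ← hy] at h3
    refine h3.mono ?_
    rw [← add_mul]
    exact mul_le_mul_of_nonneg_right (by linarith) hR

theorem isClosed_CBk {W : WS A} {P : Type v} (k : ℕ) (C : P → ℝ) :
    IsClosed {y : Fam W P | ∀ p, CBk k (y p) (C p)} := by
  simp only [CBk, Bd, Set.setOf_forall]
  refine isClosed_iInter fun p => isClosed_iInter fun l => isClosed_iInter fun _ =>
    isClosed_iInter fun Z => isClosed_iInter fun R => isClosed_iInter fun _ =>
    isClosed_iInter fun _ => isClosed_iInter fun r => isClosed_iInter fun c => ?_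
  exact (WC.sum _ fun i _ => WC.sum _ fun j _ =>
    ((WC.eval p _).mul_left _).mul_right _).isClosed_norm_le _

theorem WS.good_of_pinf (W : WS A) {n : ℕ} (f : Co A (n + 1))
    (hf : ∀ a, OpAlg.hochschildDiff f a = 0) {z : A} (hz : IsCP z) (hp : PInf z) : Good f z := by
  obtain ⟨s, hs⟩ := hp
  let C : (Fin n → A) → ℝ := fun p => (n + 2) * ‖f‖ * ∏ i, ‖p i‖
  have hC : ∀ p, 0 ≤ C p := fun p =>
    mul_nonneg (by positivity) (prod_nonneg fun _ _ => norm_nonneg _)
  let t : ℕ → Set (Fam W (Fin n → A)) := fun k =>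
    Prim W id (fun a => z * f a) ∩ {y | ∀ p, CBk (k + 1) (y p) (C p)}
  have hcl : ∀ k, IsClosed (t k) := fun k => (isClosed_Prim _ _).inter (isClosed_CBk _ _)
  obtain ⟨y₀, hy₀⟩ := IsCompact.nonempty_iInter_of_sequence_nonempty_isCompact_isClosed t
    (fun k y hy => ⟨hy.1, fun p l hl => hy.2 p l (by omega)⟩)
    (fun k => exists_cbk W f hf hz (s := fun i : Fin (k + 1) => s i) fun i j => by
      simp only [hs, Fin.ext_iff])
    ((isCompact_box C).of_isClosed_subset (hcl 0) fun y hy p => (hy.2 p).norm_le (hC p)) hcl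
  rw [Set.mem_iInter] at hy₀
  obtain ⟨y, ⟨hy1, hy2⟩, hy⟩ := FPcb W (C := C)
    (K := Prim W id (fun a => z * f a) ∩ {y | ∀ p, CB (y p) (C p)})
    ⟨⟨y₀, (hy₀ 0).1, fun p k l hl => (hy₀ k).2 p l (by omega)⟩, by
      refine (isClosed_Prim _ _).inter ?_
      have : {y : Fam W (Fin n → A) | ∀ p, CB (y p) (C p)} =
          ⋂ k, {y | ∀ p, CBk k (y p) (C p)} := by
        ext y
        simp only [Set.mem_iInter, Set.mem_setOf_eq, CB]
        exact forall_comm
      rw [this]
      exact isClosed_iInter fun k => isClosed_CBk k C, by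
      refine (convex_Prim _ _).inter fun y hy y' hy' a b ha hb hab p k l hl Z R hR hZ => ?_
      have h1 := ((hy p k l hl Z R hR hZ).smul a).add ((hy' p k l hl Z R hR hZ).smul b)
      rw [Complex.norm_real, Complex.norm_real, Real.norm_of_nonneg ha, Real.norm_of_nonneg hb,
        ← add_mul, hab, one_mul] at h1
      simpa using h1, fun y hy p => (hy.2 p 1).norm_le (hC p)⟩
    (by
      rintro _ ⟨J, m, hm, rfl⟩ y hy
      exact ⟨col_mem_Prim _ _ hm hy.1, fun p => (hy.2 p).col hm (col_apply m y p)⟩)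
    fun y hy => hy.2
  obtain ⟨g, hg1, hg2⟩ := exists_co_of_mod (ContinuousLinearMap.id ℂ A) (fun _ => le_rfl) hy1.1
    (c := (n + 2) * ‖f‖) (by positivity) fun p => (hy2 p 1).norm_le (hC p)
  refine ⟨g, hg1, fun a => ?_⟩
  have h1 := hy1.2 a 1
  have h2 := hy (fun i => a i.castSucc) 1 (a (Fin.last n))
  rw [one_mul] at h2
  simp only [PD, id, mul_one, h2] at h1
  simp only [hochschildDiff, hg2, ContinuousLinearMap.id_apply, h1, ← mul_assoc,
    hz.1.isIdempotentElem.eq]

end Crest.Agent.R121
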