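import Crest.Agent.R95.W
import Crest.Prelude.Def_Hochschild

/-!
# Row 121 (S0161): bounded Hochschild cohomology of von Neumann algebras.  Definitions.

OVERVIEW.  A von Neumann algebra is treated as a C⋆-algebra `A` with a space `Φ` of *normal*
functionals for which the unit ball is compact (`WS`).  A cocycle `f` of degree `n+1` gives the
family `a ↦ ± f (a, ·)` of maps `A → A` (a *primitive*); the set of primitives is invariant under
`θ ↦ θ (· u⋆) u`, and a right-modular primitive exhibits `f` as a coboundary.  So everything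
reduces to fixed point theorems (`FP`, `FPcb`) for compact convex sets of families of maps.
-/

set_option autoImplicit false

namespace Crest.Agent.R121

open Filter Topology
open scoped ComplexConjugate ComplexOrder

universe u v

variable {A : Type u} [CStarAlgebra A]

/-- positive functionals -/
def IsPos (ω : A →L[ℂ] ℂ) : Prop := ∀ x, 0 ≤ ω (star x * x)

/-- an abstract W⋆-structure: `Φ` is the space of normal functionals -/
structure WS (A : Type u) [CStarAlgebra A] where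
  Φ : Submodule ℂ (A →L[ℂ] ℂ)
  closed : IsClosed (Φ : Set (A →L[ℂ] ℂ))
  mul : ∀ φ ∈ Φ, ∀ a b : A, ∃ ψ ∈ Φ, ∀ x, ψ x = φ (a * x * b)
  star_mem : ∀ φ ∈ Φ, ∃ ψ ∈ Φ, ∀ x, ψ x = conj (φ (star x))
  pos : ∀ a : A, a ≠ 0 → ∃ ω ∈ Φ, IsPos ω ∧ ω (star a * a) ≠ 0
  cpt : ∀ 𝒰 : Ultrafilter A, (∀ᶠ x in (𝒰 : Filter A), ‖x‖ ≤ 1) →
    ∃ b, ‖b‖ ≤ 1 ∧ ∀ φ ∈ Φ, Tendsto φ 𝒰 (𝓝 (φ b))

/-- weak convergence -/
def WS.T (W : WS A) {ι : Type*} (l : Filter ι) (x : ι → A) (b : A) : Prop :=
  ∀ φ ∈ W.Φ, Tendsto (fun i => φ (x i)) l (𝓝 (φ b))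

theorem WS.sep (W : WS A) {a b : A} (h : ∀ φ ∈ W.Φ, φ a = φ b) : a = b := by
  by_contra hab
  obtain ⟨ω, hω, -, h0⟩ := W.pos (a - b) (sub_ne_zero.2 hab)
  obtain ⟨ψ, hψ, e⟩ := W.mul ω hω (star (a - b)) 1
  have := h ψ hψ
  rw [← sub_eq_zero, ← map_sub, e, mul_one] at this
  exact h0 this

theorem WS.exists_T (W : WS A) {ι : Type*} (𝒰 : Ultrafilter ι) (x : ι → A) {C : ℝ}
    (hx : ∀ᶠ i in (𝒰 : Filter ι), ‖x i‖ ≤ C) : ∃ b, ‖b‖ ≤ C ∧ W.T 𝒰 x b := by
  obtain ⟨i₀, hi₀⟩ := hx.exists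
  rcases ((norm_nonneg _).trans hi₀).eq_or_lt with rfl | hC
  · refine ⟨0, by simp, fun φ _ => tendsto_const_nhds.congr' ?_⟩
    filter_upwards [hx] with i hi
    rw [norm_le_zero_iff.1 hi]
  have hC' : (C : ℂ) ≠ 0 := by exact_mod_cast hC.ne'
  obtain ⟨b, hb, h⟩ := W.cpt (𝒰.map fun i => (C : ℂ)⁻¹ • x i) (by
    rw [Ultrafilter.coe_map, eventually_map]
    filter_upwards [hx] with i hi
    rw [norm_smul, norm_inv, Complex.norm_real, Real.norm_of_nonneg hC.le]
    exact inv_mul_le_one_of_le₀ hi hC.le)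
  refine ⟨(C : ℂ) • b, ?_, fun φ hφ => ?_⟩
  · rw [norm_smul, Complex.norm_real, Real.norm_of_nonneg hC.le]
    exact mul_le_of_le_one_right hC.le hb
  · have := (h φ hφ).const_mul (C : ℂ)
    rw [Ultrafilter.coe_map, tendsto_map'_iff] at this
    simpa [Function.comp_def, hC'] using this

theorem WS.T.unique {W : WS A} {ι : Type*} {l : Filter ι} [l.NeBot] {x : ι → A} {a b : A}
    (ha : W.T l x a) (hb : W.T l x b) : a = b :=
  W.sep fun φ hφ => tendsto_nhds_unique (ha φ hφ) (hb φ hφ)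

theorem WS.T.const (W : WS A) {ι : Type*} (l : Filter ι) (a : A) : W.T l (fun _ => a) a :=
  fun _ _ => tendsto_const_nhds

theorem WS.T.congr' {W : WS A} {ι : Type*} {l : Filter ι} {x y : ι → A} {a : A}
    (ha : W.T l x a) (h : x =ᶠ[l] y) : W.T l y a :=
  fun φ hφ => (ha φ hφ).congr' (h.mono fun _ hi => congrArg φ hi)

theorem WS.T.mono {W : WS A} {ι : Type*} {l l' : Filter ι} {x : ι → A} {a : A}
    (ha : W.T l x a) (h : l' ≤ l) : W.T l' x a := fun φ hφ => (ha φ hφ).mono_left h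

theorem WS.T.add {W : WS A} {ι : Type*} {l : Filter ι} {x y : ι → A} {a b : A}
    (ha : W.T l x a) (hb : W.T l y b) : W.T l (fun i => x i + y i) (a + b) :=
  fun φ hφ => by simpa using (ha φ hφ).add (hb φ hφ)

theorem WS.T.sub {W : WS A} {ι : Type*} {l : Filter ι} {x y : ι → A} {a b : A}
    (ha : W.T l x a) (hb : W.T l y b) : W.T l (fun i => x i - y i) (a - b) :=
  fun φ hφ => by simpa using (ha φ hφ).sub (hb φ hφ)

theorem WS.T.smul {W : WS A} {ι : Type*} {l : Filter ι} {x : ι → A} {a : A}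
    (ha : W.T l x a) (c : ℂ) : W.T l (fun i => c • x i) (c • a) :=
  fun φ hφ => by simpa using (ha φ hφ).const_mul c

theorem WS.T.mul_left {W : WS A} {ι : Type*} {l : Filter ι} {x : ι → A} {a : A}
    (ha : W.T l x a) (c : A) : W.T l (fun i => c * x i) (c * a) := fun φ hφ => by
  obtain ⟨ψ, hψ, e⟩ := W.mul φ hφ c 1
  simpa [e] using ha ψ hψ

theorem WS.T.mul_right {W : WS A} {ι : Type*} {l : Filter ι} {x : ι → A} {a : A}
    (ha : W.T l x a) (c : A) : W.T l (fun i => x i * c) (a * c) := fun φ hφ => by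
  obtain ⟨ψ, hψ, e⟩ := W.mul φ hφ 1 c
  simpa [e] using ha ψ hψ

theorem WS.T.star {W : WS A} {ι : Type*} {l : Filter ι} {x : ι → A} {a : A}
    (ha : W.T l x a) : W.T l (fun i => Star.star (x i)) (Star.star a) := fun φ hφ => by
  obtain ⟨ψ, hψ, e⟩ := W.star_mem φ hφ
  have := (Complex.continuous_conj.tendsto _).comp (ha ψ hψ)
  simpa [e, Function.comp_def] using this

theorem WS.T.of_tendsto (W : WS A) {ι : Type*} {l : Filter ι} {x : ι → A} {a : A}
    (h : Tendsto x l (𝓝 a)) : W.T l x a := fun φ _ => (φ.continuous.tendsto a).comp h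

theorem WS.T.norm_le {W : WS A} {ι : Type*} {l : Filter ι} [l.NeBot] {x : ι → A} {a : A} {C : ℝ}
    (ha : W.T l x a) (hx : ∀ᶠ i in l, ‖x i‖ ≤ C) : ‖a‖ ≤ C := by
  obtain ⟨b, hb, h⟩ := W.exists_T (Ultrafilter.of l) x (hx.filter_mono (Ultrafilter.of_le l))
  rwa [(ha.mono (Ultrafilter.of_le l)).unique h]

/-- central projections -/
def IsCP (z : A) : Prop := IsStarProjection z ∧ ∀ a, z * a = a * z

/-- partial isometries -/
def IsPI (v : A) : Prop := v * star v * v = v

/-- properly infinite central projections -/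
def PInf (z : A) : Prop := ∃ s : ℕ → A, ∀ i j, star (s i) * s j = if i = j then z else 0

/-- finite algebras -/
def IsFin (A : Type u) [CStarAlgebra A] : Prop := ∀ v : A, star v * v = 1 → v * star v = 1

/-- abelian projections -/
def IsAb (e : A) : Prop := IsStarProjection e ∧ ∀ x y, e * x * e * y * e = e * y * e * x * e

/-- unital matrix units -/
structure MU {ι : Type*} [Fintype ι] [DecidableEq ι] (e : ι → ι → A) : Prop where
  mul : ∀ i j k l, e i j * e k l = if j = k then e i l else 0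
  star : ∀ i j, star (e i j) = e j i
  sum : ∑ i, e i i = 1

/-- the commutant of a system of matrix units -/
def cmm {ι : Type*} (e : ι → ι → A) : StarSubalgebra ℂ A :=
  StarSubalgebra.centralizer ℂ (Set.range fun p : ι × ι => e p.1 p.2)

theorem MU.mem_cmm {ι : Type*} [Fintype ι] [DecidableEq ι] {e : ι → ι → A} (he : MU e) {x : A} :
    x ∈ cmm e ↔ ∀ i j, e i j * x = x * e i j := by
  simp only [cmm, StarSubalgebra.mem_centralizer_iff, Set.forall_mem_range, Prod.forall, he.star]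
  exact ⟨fun h i j => (h i j).1, fun h i j => ⟨h i j, h j i⟩⟩

/-- every projection of `N` can be halved in `N` -/
def Halv (N : StarSubalgebra ℂ A) : Prop :=
  ∀ p ∈ N, IsStarProjection p → ∃ w ∈ N, IsPI w ∧ w * w = 0 ∧ star w * w + w * star w = p

/-- families of bounded maps, with the topology of pointwise weak convergence -/
def Fam (_W : WS A) (P : Type v) : Type (max u v) := P → A →L[ℂ] A

section Fam

variable {W : WS A} {P : Type v}

noncomputable instance : AddCommGroup (Fam W P) := inferInstanceAs (AddCommGroup (P → A →L[ℂ] A))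
noncomputable instance : Module ℂ (Fam W P) := inferInstanceAs (Module ℂ (P → A →L[ℂ] A))
noncomputable instance : Module ℝ (Fam W P) := inferInstanceAs (Module ℝ (P → A →L[ℂ] A))
instance : IsScalarTower ℝ ℂ (Fam W P) := inferInstanceAs (IsScalarTower ℝ ℂ (P → A →L[ℂ] A))

noncomputable instance : TopologicalSpace (Fam W P) :=
  TopologicalSpace.induced (fun (y : Fam W P) (t : P × A × W.Φ) => t.2.2.1 (y t.1 t.2.1))
    inferInstance

@[ext] theorem Fam.ext {y y' : Fam W P} (h : ∀ p x, y p x = y' p x) : y = y' :=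
  funext fun p => ContinuousLinearMap.ext (h p)

@[simp] theorem Fam.add_apply (y y' : Fam W P) (p : P) (x : A) : (y + y') p x = y p x + y' p x := rfl
@[simp] theorem Fam.sub_apply (y y' : Fam W P) (p : P) (x : A) : (y - y') p x = y p x - y' p x := rfl
@[simp] theorem Fam.zero_apply (p : P) (x : A) : (0 : Fam W P) p x = 0 := rfl
@[simp] theorem Fam.smul_apply (c : ℂ) (y : Fam W P) (p : P) (x : A) :
    (c • y) p x = c • y p x := rfl
@[simp] theorem Fam.rsmul_apply (c : ℝ) (y : Fam W P) (p : P) (x : A) :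
    (c • y) p x = c • y p x := rfl
@[simp] theorem Fam.sum_apply {ι : Type*} (s : Finset ι) (y : ι → Fam W P) (p : P) (x : A) :
    (∑ i ∈ s, y i) p x = ∑ i ∈ s, y i p x := by
  classical
  induction s using Finset.induction_on with
  | empty => rfl
  | insert i s hi ih => rw [Finset.sum_insert hi, Finset.sum_insert hi, Fam.add_apply, ih]

theorem Fam.continuous_eval {φ : A →L[ℂ] ℂ} (hφ : φ ∈ W.Φ) (p : P) (x : A) :
    Continuous fun y : Fam W P => φ (y p x) :=
  (continuous_apply (p, x, (⟨φ, hφ⟩ : W.Φ))).comp (continuous_induced_dom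
    (f := fun (y : Fam W P) (t : P × A × W.Φ) => t.2.2.1 (y t.1 t.2.1)))

theorem Fam.continuous_eval' {φ : A →L[ℂ] ℂ} (hφ : φ ∈ W.Φ) (a b : A) (p : P) (x : A) :
    Continuous fun y : Fam W P => φ (a * y p x * b) := by
  obtain ⟨ψ, hψ, e⟩ := W.mul φ hφ a b
  simpa only [e] using Fam.continuous_eval hψ p x

theorem Fam.tendsto_iff {ι : Type*} {l : Filter ι} {y : ι → Fam W P} {y' : Fam W P} :
    Tendsto y l (𝓝 y') ↔ ∀ p x, W.T l (fun i => y i p x) (y' p x) := by
  rw [nhds_induced, tendsto_comap_iff, tendsto_pi_nhds]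
  exact ⟨fun h p x φ hφ => h (p, x, ⟨φ, hφ⟩), fun h t => h t.1 t.2.1 _ t.2.2.2⟩

theorem Fam.continuous_iff {X : Type*} [TopologicalSpace X] {F : X → Fam W P} :
    Continuous F ↔ ∀ p x, ∀ φ ∈ W.Φ, Continuous fun t => φ (F t p x) := by
  rw [continuous_induced_rng, continuous_pi_iff]
  exact ⟨fun h p x φ hφ => h (p, x, ⟨φ, hφ⟩), fun h t => h t.1 t.2.1 _ t.2.2.2⟩

/-- a weakly continuous `A`-valued function of a family -/
def WC (F : Fam W P → A) : Prop := ∀ φ ∈ W.Φ, Continuous fun y => φ (F y)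

theorem WC.eval (p : P) (x : A) : WC fun y : Fam W P => y p x :=
  fun _ hφ => Fam.continuous_eval hφ p x

theorem WC.const (a : A) : WC fun _ : Fam W P => a := fun _ _ => continuous_const

theorem WC.add {F G : Fam W P → A} (hF : WC F) (hG : WC G) : WC fun y => F y + G y :=
  fun φ hφ => by simp only [map_add]; exact (hF φ hφ).add (hG φ hφ)

theorem WC.sub {F G : Fam W P → A} (hF : WC F) (hG : WC G) : WC fun y => F y - G y :=
  fun φ hφ => by simp only [map_sub]; exact (hF φ hφ).sub (hG φ hφ)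

theorem WC.smul {F : Fam W P → A} (hF : WC F) (c : ℂ) : WC fun y => c • F y :=
  fun φ hφ => by simp only [map_smul]; exact (hF φ hφ).const_smul c

theorem WC.zsmul {F : Fam W P → A} (hF : WC F) (c : ℤ) : WC fun y => c • F y :=
  fun φ hφ => by simp only [map_zsmul]; exact (hF φ hφ).const_smul c

theorem WC.mul_left {F : Fam W P → A} (hF : WC F) (a : A) : WC fun y => a * F y := fun φ hφ => by
  obtain ⟨ψ, hψ, e⟩ := W.mul φ hφ a 1
  simpa only [e, mul_one] using hF ψ hψ

theorem WC.mul_right {F : Fam W P → A} (hF : WC F) (a : A) : WC fun y => F y * a := fun φ hφ => by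
  obtain ⟨ψ, hψ, e⟩ := W.mul φ hφ 1 a
  simpa only [e, one_mul] using hF ψ hψ

theorem WC.sum {ι : Type*} (s : Finset ι) {F : ι → Fam W P → A} (hF : ∀ i ∈ s, WC (F i)) :
    WC fun y => ∑ i ∈ s, F i y :=
  fun φ hφ => by simpa only [map_sum] using continuous_finsetSum s fun i hi => hF i hi φ hφ

theorem WC.isClosed_eq {F G : Fam W P → A} (hF : WC F) (hG : WC G) :
    IsClosed {y | F y = G y} := by
  have : {y | F y = G y} = ⋂ φ ∈ W.Φ, {y | φ (F y) = φ (G y)} := by
    ext y
    simp only [Set.mem_iInter, Set.mem_ofPred_eq]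
    exact ⟨fun h φ _ => by rw [h], W.sep⟩
  rw [this]
  exact isClosed_biInter fun φ hφ => _root_.isClosed_eq (hF φ hφ) (hG φ hφ)

theorem WC.isClosed_norm_le {F : Fam W P → A} (hF : WC F) (R : ℝ) :
    IsClosed {y | ‖F y‖ ≤ R} := by
  refine isClosed_iff_clusterPt.2 fun y hy => ?_
  have : (𝓝 y ⊓ 𝓟 {y | ‖F y‖ ≤ R}).NeBot := hy
  exact WS.T.norm_le (W := W) (l := 𝓝 y ⊓ 𝓟 {y | ‖F y‖ ≤ R}) (x := F)
    (fun φ hφ => ((hF φ hφ).tendsto y).mono_left inf_le_left)
    (mem_inf_of_right (mem_principal_self _))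

instance : ContinuousAdd (Fam W P) := ⟨Fam.continuous_iff.2 fun p x φ hφ => by
  simp only [Fam.add_apply, map_add]
  exact ((Fam.continuous_eval hφ p x).comp continuous_fst).add
    ((Fam.continuous_eval hφ p x).comp continuous_snd)⟩

instance : ContinuousConstSMul ℂ (Fam W P) := ⟨fun c => Fam.continuous_iff.2 fun p x φ hφ => by
  simp only [Fam.smul_apply, map_smul]
  exact (Fam.continuous_eval hφ p x).const_smul c⟩

instance : ContinuousConstSMul ℝ (Fam W P) := ⟨fun c => Fam.continuous_iff.2 fun p x φ hφ => by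
  simp only [Fam.rsmul_apply, ContinuousLinearMap.map_smul_of_tower]
  exact (Fam.continuous_eval hφ p x).const_smul c⟩

instance : T2Space (Fam W P) := by
  refine Topology.IsEmbedding.t2Space (f := fun (y : Fam W P) (t : P × A × W.Φ) =>
    t.2.2.1 (y t.1 t.2.1)) ⟨⟨rfl⟩, fun y y' h => Fam.ext fun p x => W.sep fun φ hφ => ?_⟩
  exact congrFun h (p, x, ⟨φ, hφ⟩)

/-- the right action `θ ↦ θ (· u⋆) u` -/
noncomputable def act (u : A) : Fam W P →ₗ[ℂ] Fam W P where
  toFun y p := ((ContinuousLinearMap.mul ℂ A).flip u).comp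
    ((y p).comp ((ContinuousLinearMap.mul ℂ A).flip (star u)))
  map_add' y y' := Fam.ext fun p x => by simp
  map_smul' c y := Fam.ext fun p x => by simp

@[simp] theorem act_apply (u : A) (y : Fam W P) (p : P) (x : A) :
    act u y p x = y p (x * star u) * u := rfl

theorem continuous_act (u : A) : Continuous (act u : Fam W P → Fam W P) :=
  Fam.continuous_iff.2 fun p x => (WC.eval p (x * star u)).mul_right u

theorem act_mul (u v : A) (y : Fam W P) : act (u * v) y = act v (act u y) :=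
  Fam.ext fun p x => by simp [mul_assoc]

theorem act_one (y : Fam W P) : act 1 y = y := Fam.ext fun p x => by simp

/-- the action of a column -/
noncomputable def col {ι : Type*} [Fintype ι] (m : ι → A) : Fam W P →ₗ[ℂ] Fam W P := ∑ i, act (m i)

@[simp] theorem col_apply {ι : Type*} [Fintype ι] (m : ι → A) (y : Fam W P) (p : P) (x : A) :
    col m y p x = ∑ i, y p (x * star (m i)) * m i := by
  simp [col]

variable (W P) in
/-- the maps given by the unitaries of `N` -/
def US (N : StarSubalgebra ℂ A) : Set (Fam W P →ₗ[ℂ] Fam W P) :=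
  {s | ∃ u ∈ N, u ∈ unitary A ∧ s = act u}

variable (W P) in
/-- the maps given by isometric columns -/
def CS : Set (Fam W P →ₗ[ℂ] Fam W P) :=
  {s | ∃ (J : ℕ) (m : Fin J → A), ∑ i, star (m i) * m i = 1 ∧ s = col m}

/-- nonempty closed convex bounded sets -/
structure Adm (C : P → ℝ) (K : Set (Fam W P)) : Prop where
  ne : K.Nonempty
  closed : IsClosed K
  convex : Convex ℝ K
  bdd : ∀ y ∈ K, ∀ p, ‖y p‖ ≤ C p

/-- invariance -/
def Inv (S : Set (Fam W P →ₗ[ℂ] Fam W P)) (K : Set (Fam W P)) : Prop :=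
  ∀ s ∈ S, ∀ y ∈ K, s y ∈ K

/-- minimal invariant sets -/
structure IsMinS (C : P → ℝ) (S : Set (Fam W P →ₗ[ℂ] Fam W P)) (K : Set (Fam W P)) : Prop where
  adm : Adm C K
  inv : Inv S K
  min : ∀ K' ⊆ K, K'.Nonempty → IsClosed K' → Convex ℝ K' → Inv S K' → K' = K

/-- right modularity -/
def Mod (y : Fam W P) : Prop := ∀ p x a, y p (x * a) = y p x * a

/-- right modularity for a system of matrix units -/
def MM {ι : Type*} (e : ι → ι → A) (y : Fam W P) : Prop :=
  ∀ p x i j, y p (x * e i j) = y p x * e i j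

end Fam

/-- the fixed point property for the unitary group -/
def FP (W : WS A) : Prop :=
  ∀ (P : Type u) (C : P → ℝ) (K : Set (Fam W P)), Adm C K → Inv (US W P ⊤) K → ∃ y ∈ K, Mod y

/-- the matrix `Z` has norm at most `R` -/
def Bd {ι κ : Type*} [Fintype ι] [Fintype κ] (Z : ι → κ → A) (R : ℝ) : Prop :=
  ∀ (r : ι → A) (c : κ → A),
    ‖∑ i, ∑ j, r i * Z i j * c j‖ ≤ R * √‖∑ i, r i * star (r i)‖ * √‖∑ j, star (c j) * c j‖

/-- boundedness on matrices of size at most `k` -/
def CBk (k : ℕ) (θ : A →L[ℂ] A) (C : ℝ) : Prop :=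
  ∀ l ≤ k, ∀ (Z : Fin l → Fin l → A) (R : ℝ), 0 ≤ R → Bd Z R → Bd (fun i j => θ (Z i j)) (C * R)

/-- complete boundedness -/
def CB (θ : A →L[ℂ] A) (C : ℝ) : Prop := ∀ k, CBk k θ C

/-- test coefficients: `∑ β m (ζ^m - ζ^{-m})` is bounded by `8` on the circle -/
structure Coef (N : ℕ) (β : ℕ → ℝ) : Prop where
  nonneg : ∀ m, 0 ≤ β m
  zero : β 0 = 0
  supp : ∀ m, N < m → β m = 0
  bound : ∀ ζ : ℂ, ‖ζ‖ = 1 → ‖∑ m ∈ Finset.range (N + 1), (β m : ℂ) * (ζ ^ m - conj ζ ^ m)‖ ≤ 8

/-- the skew Toeplitz matrix -/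
def tp (β : ℕ → ℝ) (i j : ℕ) : ℝ := β (j - i) - β (i - j)

/-- successive averaging over symmetries -/
noncomputable def Eav (L : List A) (a : A) : A :=
  L.foldr (fun s b => (2⁻¹ : ℂ) • (b + s * b * s)) a

/-- lists of symmetries of `N` which commute up to sign -/
def Pauli (N : StarSubalgebra ℂ A) (L : List A) : Prop :=
  (∀ s ∈ L, s ∈ N ∧ star s = s ∧ s * s = 1) ∧
    L.Pairwise fun s t => s * t = t * s ∨ s * t = -(t * s)

/-- the differential of a family of maps `B → B` with parameters in `A` -/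
noncomputable def PD {B : Type u} [CStarAlgebra B] {n : ℕ} (j : A → B)
    (y : (Fin n → A) → B →L[ℂ] B) (a : Fin (n + 1) → A) (x : B) : B :=
  j (a 0) * y (fun i => a i.succ) x +
    (∑ i : Fin n, ((-1 : ℤ) ^ (i.val + 1)) • y (OpAlg.mergeArgs i a) x) +
    ((-1 : ℤ) ^ (n + 1)) • y (fun i => a i.castSucc) (j (a (Fin.last n)) * x)

/-- multilinearity in the parameters -/
def ML {B : Type u} [CStarAlgebra B] {n : ℕ} (y : (Fin n → A) → B →L[ℂ] B) : Prop :=
  ∀ (a : Fin n → A) (i : Fin n) (c : ℂ) (s t : A) (x : B),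
    y (Function.update a i (c • s + t)) x =
      c • y (Function.update a i s) x + y (Function.update a i t) x

/-- bounded cochains -/
abbrev Co (A : Type u) [CStarAlgebra A] (n : ℕ) := ContinuousMultilinearMap ℂ (fun _ : Fin n => A) A

/-- `z f` is the coboundary of a cochain of controlled norm -/
def Good {n : ℕ} (f : Co A (n + 1)) (z : A) : Prop :=
  ∃ g : Co A n, ‖g‖ ≤ (n + 2) * ‖f‖ ∧ ∀ a, z * OpAlg.hochschildDiff g a = z * f a

end Crest.Agent.R121
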