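import Crest.Agent.R121.Chain

/-!
# Row 121: properly infinite summands, halving

PLANS.
* `pinf_of_not_fin`: `v⋆v = 1`, `e = 1 - v v⋆ ≠ 0`.  `t₁ = lim ∑_{n<L} v^{2n} e v⋆^n` (`chain`),
  `t₂ = v t₁`, `Q = t₁⋆t₁ ≠ 0`: `tᵢ⋆tⱼ = δ Q`, `Q tᵢ = tᵢ`.  By Zorn (with `chain` applied to both
  components along one ultrafilter) take a maximal such pair above this one.  Compare `r = 1 - Q`
  with `Q`: `z r ≾ Q`, `(1-z) Q ≾ r`; by maximality `(1 - z) Q = 0` (transport the pair along the
  partial isometry and add).  Then `y = t₁ + t₂ w` (`w⋆w = z r`, `Q w = w`) has `y⋆y = z`, `Q y = y`,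
  `s₁ = t₁ y`, `s₂ = t₂ y` are isometries on `z` with orthogonal ranges; `s i = s₂^i s₁`.
* `halv`: maximal `w = p w p`, `w² = 0` (`exists_max_pi` with the condition `‖w⋆w + w w⋆‖ ≤ 1`, which passes
  to weak limits by `WS.T.norm_le` and, for projections `E, F`, `‖E + F‖ ≤ 1` gives `E F = 0`);
  `r = p - w⋆w - w w⋆`; if `r ≠ 0` it is
  not abelian, so some projection `g ≤ r` has `(r - g) A g ≠ 0` (otherwise all such `g` commute with
  `rAr`; then for self-adjoint `a ∈ rAr`, `‖a‖ ≤ c`, `a' = a - c/2 (g - (r - g))` with `g` the spectral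
  projection has norm `≤ c/2` and the same commutators); extend by `exists_pi`.
-/

set_option autoImplicit false

namespace Crest.Agent.R121

open Filter Topology
open scoped ComplexConjugate ComplexOrder

universe u v

variable {A : Type u} [CStarAlgebra A]

namespace PInfAux

open R95.ProjAux Finset

theorem st {x y z : A} (h : x * y = z) : star y * star x = star z := by rw [← h, star_mul]

theorem seq {a b z e : A} (h1 : star a * a = e) (h2 : star b * b = z) (h3 : star a * b = 0)
    (h4 : z * a = a) (h5 : z * b = b) (i j : ℕ) :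
    star (b ^ i * a) * (b ^ j * a) = if i = j then e else 0 := by
  have hz : ∀ n, z * (b ^ n * a) = b ^ n * a := fun n => by
    cases n with
    | zero => simpa using h4
    | succ n => rw [pow_succ', mul_assoc, ← mul_assoc, h5]
  have h3' : star b * a = 0 := by simpa using st h3
  induction i generalizing j with
  | zero =>
    cases j with
    | zero => simpa using h1
    | succ j => simp [pow_succ', ← mul_assoc, h3]
  | succ i ih =>
    cases j with
    | zero => simp [pow_succ', mul_assoc, h3']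
    | succ j =>
      have : star (b ^ (i + 1) * a) * (b ^ (j + 1) * a) =
          star (b ^ i * a) * (star b * b * (b ^ j * a)) := by
        simp only [pow_succ', star_mul, mul_assoc]
      rw [this, h2, hz, ih]
      simp

/-- pairs of isometries of a corner with orthogonal ranges -/
structure Pair (A : Type u) [CStarAlgebra A] where
  a : A
  b : A
  pa : IsPI a
  hb : star b * b = star a * a
  hab : star a * b = 0
  qa : star a * a * a = a
  qb : star a * a * b = b

theorem Pair.pb (t : Pair A) : IsPI t.b := isPI_of_proj (t.hb ▸ t.pa.proj_left)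

instance : Preorder (Pair A) where
  le s t := t.a * (star s.a * s.a) = s.a ∧ t.b * (star s.b * s.b) = s.b
  le_refl s := ⟨by rw [← mul_assoc, s.pa], by rw [← mul_assoc, s.pb]⟩
  le_trans s t r h h' := ⟨Le.trans s.pa t.pa h.1 h'.1, Le.trans s.pb t.pb h.2 h'.2⟩

theorem pair_lim (W : WS A) {ι : Type*} [Preorder ι] [IsDirectedOrder ι] [Nonempty ι]
    (a b : ι → A) (pa : ∀ i, IsPI (a i)) (hb : ∀ i, star (b i) * b i = star (a i) * a i)
    (hab : ∀ i, star (a i) * b i = 0)
    (ma : ∀ i j, i ≤ j → a j * (star (a i) * a i) = a i)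
    (mb : ∀ i j, i ≤ j → b j * (star (b i) * b i) = b i)
    (hq : ∀ i, ∃ j, star (a j) * a j * a i = a i ∧ star (a j) * a j * b i = b i) :
    ∃ t : Pair A, ∀ i, t.a * (star (a i) * a i) = a i ∧ t.b * (star (b i) * b i) = b i := by
  have pb : ∀ i, IsPI (b i) := fun i => isPI_of_proj (hb i ▸ (pa i).proj_left)
  let 𝒰 : Ultrafilter ι := Ultrafilter.of atTop
  have h𝒰 : (𝒰 : Filter ι) ≤ atTop := Ultrafilter.of_le _
  obtain ⟨S, pS, s1, s2, s3, -⟩ := W.chain 𝒰 h𝒰 a pa ma
  obtain ⟨T, pT, t1, t2, t3, -⟩ := W.chain 𝒰 h𝒰 b pb mb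
  have hq' : ∀ i, star S * S * a i = a i ∧ star S * S * b i = b i := fun i => by
    obtain ⟨j, h1, h2⟩ := hq i
    have := Le.proj (pa j) pS (s1 j)
    exact ⟨by rw [← h1, ← mul_assoc, this], by rw [← h2, ← mul_assoc, this]⟩
  have h0 : ∀ i, star (a i) * T = 0 := fun i => by
    refine (t2.mul_left (star (a i))).unique ((WS.T.const W _ 0).congr' ?_)
    filter_upwards [h𝒰 (eventually_ge_atTop i)] with j hj
    rw [← ma i j hj, star_mul, mul_assoc, hab, mul_zero]
  refine ⟨⟨S, T, pS, ?_, ?_, ?_, ?_⟩, fun i => ⟨s1 i, t1 i⟩⟩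
  · exact t3.unique (by simpa only [hb] using s3)
  · exact (s2.star.mul_right T).unique (by simpa only [h0] using WS.T.const W _ 0)
  · exact (s2.mul_left _).unique (by simpa only [fun i => (hq' i).1] using s2)
  · exact (t2.mul_left _).unique (by simpa only [fun i => (hq' i).2] using t2)

/-- partial shifts -/
def sh (u : ℕ → A) (f g : ℕ → ℕ) (L : ℕ) : A := ∑ n ∈ range L, u (f n) * star (u (g n))

theorem star_sh (u : ℕ → A) (f g : ℕ → ℕ) (L : ℕ) : star (sh u f g L) = sh u g f L := by
  simp [sh, star_sum]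

theorem sh_mul {u : ℕ → A} {e : A} (h : ∀ i j, star (u i) * u j = if i = j then e else 0)
    (he : ∀ i, u i * e = u i) (f : ℕ → ℕ) {g : ℕ → ℕ} (hg : g.Injective) {L k : ℕ} (hk : k < L) :
    sh u f g L * u (g k) = u (f k) := by
  simp only [sh, sum_mul, mul_assoc, h, hg.eq_iff, mul_ite, he, mul_zero, sum_ite_eq', mem_range,
    hk, if_true]

theorem sh_sh {u : ℕ → A} {e : A} (h : ∀ i j, star (u i) * u j = if i = j then e else 0)
    (he : ∀ i, u i * e = u i) (f k : ℕ → ℕ) {g : ℕ → ℕ} (hg : g.Injective) {L L' : ℕ}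
    (hL : L ≤ L') : sh u f g L' * sh u g k L = sh u f k L := by
  rw [sh.eq_def u g, mul_sum]
  refine sum_congr rfl fun n hn => ?_
  rw [← mul_assoc, sh_mul h he f hg ((mem_range.1 hn).trans_le hL)]

theorem exists_pair (W : WS A) (h : ¬ IsFin A) : ∃ t : Pair A, t.a ≠ 0 := by
  obtain ⟨v, h1, h2⟩ : ∃ v : A, star v * v = 1 ∧ v * star v ≠ 1 := by
    by_contra! hc
    exact h hc
  have pv : IsStarProjection (1 - v * star v) :=
    (isPI_of_proj (h1 ▸ .one A)).proj_right.one_sub
  set e := 1 - v * star v with he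
  have e1 : star e * e = e := by rw [pv.isSelfAdjoint.star_eq, pv.isIdempotentElem.eq]
  have hu := seq e1 h1 (by rw [pv.isSelfAdjoint.star_eq, he, sub_mul, mul_assoc, h1]; simp)
    (one_mul _) (one_mul _)
  have hu' : ∀ i, v ^ i * e * e = v ^ i * e := fun i => by
    rw [mul_assoc, pv.isIdempotentElem.eq]
  set u : ℕ → A := fun i => v ^ i * e
  have i0 : (fun n : ℕ => 2 * n).Injective := fun a b h => by simpa using h
  have i1 : (fun n : ℕ => 2 * n + 1).Injective := fun a b h => by simpa using h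
  have q : ∀ f : ℕ → ℕ, f.Injective → ∀ L, star (sh u f id L) * sh u f id L = sh u id id L :=
    fun f hf L => by rw [star_sh, sh_sh hu hu' _ _ hf le_rfl]
  have m : ∀ f : ℕ → ℕ, f.Injective → ∀ i j, i ≤ j →
      sh u f id j * (star (sh u f id i) * sh u f id i) = sh u f id i :=
    fun f hf i j hij => by rw [q f hf, sh_sh hu hu' _ _ Function.injective_id hij]
  have r : ∀ (f : ℕ → ℕ) (i j : ℕ), (∀ n < i, f n < j) → sh u id id j * sh u f id i = sh u f id i :=
    fun f i j hij => by
      rw [sh.eq_def u f, mul_sum]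
      refine sum_congr rfl fun n hn => ?_
      rw [← mul_assoc]
      exact congrArg (· * _) (sh_mul hu hu' id Function.injective_id (hij n (mem_range.1 hn)))
  obtain ⟨t, ht⟩ := pair_lim W (fun L => sh u (fun n => 2 * n) id L)
    (fun L => sh u (fun n => 2 * n + 1) id L)
    (fun L => by have := m _ i0 L L le_rfl; rwa [← mul_assoc] at this)
    (fun L => by rw [q _ i0, q _ i1])
    (fun L => by
      rw [star_sh, sh, sh, sum_mul_sum]
      refine sum_eq_zero fun i _ => sum_eq_zero fun j _ => ?_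
      rw [mul_assoc, ← mul_assoc (star _), hu, if_neg (by omega), zero_mul, mul_zero])
    (m _ i0) (m _ i1)
    (fun L => ⟨2 * L, by rw [q _ i0]; exact ⟨r _ _ _ fun n hn => by omega,
      r _ _ _ fun n hn => by omega⟩⟩)
  refine ⟨t, fun h0 => h2 ?_⟩
  have := (ht 1).1
  rw [h0, zero_mul] at this
  simp only [sh, u, range_one, sum_singleton, mul_zero, pow_zero, one_mul, id,
    pv.isSelfAdjoint.star_eq, pv.isIdempotentElem.eq] at this
  exact (sub_eq_zero.1 this.symm).symm

theorem proj_orth {E F : A} (hE : IsStarProjection E) (hF : IsStarProjection F)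
    (h : ‖E + F‖ ≤ 1) : E * F = 0 := by
  letI := CStarAlgebra.spectralOrder A
  haveI := CStarAlgebra.spectralOrderedRing A
  rw [CStarAlgebra.norm_le_one_iff_of_nonneg _ (add_nonneg hE.nonneg hF.nonneg)] at h
  have := (hE.one_sub.mul_right_and_mul_left_of_nonneg_of_le hF.nonneg
    (le_sub_iff_add_le'.2 h)).2
  rwa [sub_mul, one_mul, sub_eq_self] at this

theorem norm_half {b : A} (hb : ∃ g h : A, b = star g * g + star h * h) :
    ‖b - ((‖b‖ / 2 : ℝ) : ℂ) • 1‖ ≤ ‖b‖ / 2 := by
  letI := CStarAlgebra.spectralOrder A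
  haveI := CStarAlgebra.spectralOrderedRing A
  have h0 : 0 ≤ b := by
    obtain ⟨g, h, rfl⟩ := hb
    exact add_nonneg (star_mul_self_nonneg _) (star_mul_self_nonneg _)
  rcases subsingleton_or_nontrivial A with _ | _
  · rw [Subsingleton.elim (b - _) 0, norm_zero]; positivity
  have : b - ((‖b‖ / 2 : ℝ) : ℂ) • 1 = cfc (fun t : ℝ => t - ‖b‖ / 2) b := by
    rw [cfc_sub .., cfc_id' ℝ b, cfc_const .., Algebra.algebraMap_eq_smul_one, Complex.coe_smul]
  rw [this]
  refine norm_cfc_le (by positivity) fun t ht => ?_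
  have h1 := spectrum_nonneg_of_nonneg h0 ht
  have h2 := spectrum.norm_le_norm_of_mem ht
  rw [Real.norm_of_nonneg h1] at h2
  rw [Real.norm_eq_abs, abs_le]
  constructor <;> linarith

theorem comm_sa (W : WS A) {r y : A} (pr : IsStarProjection r) (hr : r * y = y * r)
    (hy : ∀ g, IsStarProjection g → r * g = g → g * y = y * g) {a : A} (sa : IsSelfAdjoint a)
    (ha : r * a = a) : a * y = y * a := by
  have key : ∀ n : ℕ, ∀ a : A, IsSelfAdjoint a → r * a = a →
      ‖a * y - y * a‖ ≤ 2 * ‖y‖ * ‖a‖ * (1 / 2) ^ n := by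
    intro n
    induction n with
    | zero =>
      intro a _ _
      have := norm_sub_le (a * y) (y * a)
      have := norm_mul_le a y
      have := norm_mul_le y a
      nlinarith
    | succ n ih =>
      intro a sa ha
      have ha' : a * r = a := by
        simpa only [sa.star_eq, pr.isSelfAdjoint.star_eq] using st ha
      obtain ⟨e, pe, c, ⟨g, hg⟩, ⟨h, hh⟩, -⟩ := W.sp sa 0
      simp only [Complex.ofReal_zero, zero_smul, sub_zero, zero_sub] at hg hh
      have c1 : r * e = e * r := c r (by rw [ha, ha'])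
      have hu := pe.two_mul_sub_one_mem_unitary
      have hb : (2 * e - 1) * a = star g * g + star h * h := by rw [hg, hh]; noncomm_ring
      have nb : ‖(2 * e - 1) * a‖ = ‖a‖ := CStarRing.norm_mem_unitary_mul _ hu
      have h1 := norm_half ⟨g, h, hb⟩
      rw [nb] at h1
      have uu : (2 * e - 1) * (2 * e - 1) = 1 := by
        have := pe.isIdempotentElem.eq
        simp only [two_mul, mul_sub, sub_mul, mul_add, add_mul, this, mul_one, one_mul]
        abel
      set a' := a - ((‖a‖ / 2 : ℝ) : ℂ) • (2 * (r * e) - r) with ha'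
      have e1 : a' = r * ((2 * e - 1) * ((2 * e - 1) * a - ((‖a‖ / 2 : ℝ) : ℂ) • 1)) := by
        rw [mul_sub, ← mul_assoc, uu, one_mul, mul_sub, ha, mul_smul_comm, mul_smul_comm, mul_one,
          mul_sub, mul_one, two_mul e, mul_add, ← two_mul]
      have n1 : ‖a'‖ ≤ ‖a‖ / 2 := by
        rw [e1]
        refine (norm_mul_le _ _).trans ((mul_le_of_le_one_left (norm_nonneg _) pr.norm_le).trans ?_)
        rwa [CStarRing.norm_mem_unitary_mul _ hu]
      have pg := pr.mul pe c1
      have c2 := hy _ pg (by rw [← mul_assoc, pr.isIdempotentElem.eq])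
      have := ih a' (by
        rw [IsSelfAdjoint, ha', star_sub, star_smul, sa.star_eq, two_mul, star_sub, star_add,
          pg.isSelfAdjoint.star_eq, pr.isSelfAdjoint.star_eq]
        simp) (by rw [e1, ← mul_assoc, pr.isIdempotentElem.eq])
      have e2 : a' * y - y * a' = a * y - y * a := by
        simp only [ha', two_mul, sub_mul, mul_sub, add_mul, mul_add, smul_mul_assoc, mul_smul_comm,
          c2, hr]
        abel
      rw [e2] at this
      refine this.trans ?_
      rw [pow_succ', ← mul_assoc]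
      refine mul_le_mul_of_nonneg_right ?_ (by positivity)
      nlinarith [norm_nonneg y]
  have := (tendsto_pow_atTop_nhds_zero_of_lt_one (r := (1 / 2 : ℝ)) (by norm_num)
    (by norm_num)).const_mul (2 * ‖y‖ * ‖a‖)
  rw [mul_zero] at this
  exact sub_eq_zero.1 (norm_le_zero_iff.1 (ge_of_tendsto' this fun n => key n a sa ha))

theorem isAb_of (W : WS A) {r : A} (pr : IsStarProjection r)
    (h : ∀ g, IsStarProjection g → r * g = g → ∀ a, (r - g) * a * g = 0) : IsAb r := by
  have rr := pr.isIdempotentElem.eq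
  have rs := pr.isSelfAdjoint.star_eq
  refine ⟨pr, fun x y => ?_⟩
  have key : ∀ a : A, IsSelfAdjoint a → r * a = a → a * (r * y * r) = r * y * r * a := fun a sa ha =>
    comm_sa W pr (by rw [← mul_assoc, ← mul_assoc, rr, mul_assoc _ r, rr]) (fun g pg hg => by
      have h1 := h g pg hg y
      have h2 := congrArg star (h g pg hg (star y))
      have h3 := st hg
      simp only [star_mul, star_sub, star_star, pg.isSelfAdjoint.star_eq, rs, star_zero] at h2 h3
      rw [sub_mul, sub_mul, sub_eq_zero] at h1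
      rw [mul_sub, mul_sub, sub_eq_zero] at h2
      rw [← mul_assoc, ← mul_assoc, h3, mul_assoc _ r, hg, h1, mul_assoc, h2, mul_assoc]) sa ha
  have h1 := key (r * x * r + star (r * x * r)) (.add_star_self _) (by
    simp only [star_mul, rs, mul_add, ← mul_assoc, rr])
  have h2 := key (Complex.I • (r * x * r - star (r * x * r))) (by
    rw [IsSelfAdjoint, star_smul, star_sub, star_star, ← neg_sub (r * x * r), smul_neg, ← neg_smul]
    simp) (by simp only [star_mul, rs, mul_sub, mul_smul_comm, ← mul_assoc, rr])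
  rw [smul_mul_assoc, mul_smul_comm, smul_right_inj Complex.I_ne_zero, sub_mul, mul_sub] at h2
  rw [add_mul, mul_add] at h1
  have h3 : (2 : ℂ) • (r * x * r * (r * y * r)) = (2 : ℂ) • (r * y * r * (r * x * r)) := by
    rw [two_smul, two_smul]
    linear_combination (norm := abel1) h1 + h2
  rw [smul_right_inj two_ne_zero] at h3
  simpa only [← mul_assoc, mul_assoc _ r r, rr] using h3

end PInfAux

open PInfAux in
theorem WS.pinf_of_not_fin (W : WS A) (h : ¬ IsFin A) : ∃ z : A, IsCP z ∧ z ≠ 0 ∧ PInf z := by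
  obtain ⟨t₀, h₀⟩ := exists_pair W h
  obtain ⟨t, ht, hmax⟩ := zorn_le_nonempty₀ (Set.univ : Set (Pair A)) (fun c _ hc y hy => by
    haveI : Nonempty c := ⟨⟨y, hy⟩⟩
    haveI : IsDirectedOrder c := hc.directedOn.isDirectedOrder
    obtain ⟨t, ht⟩ := pair_lim W (fun i : c => i.1.a) (fun i : c => i.1.b) (fun i => i.1.pa)
      (fun i => i.1.hb) (fun i => i.1.hab) (fun i j h => (show i.1 ≤ j.1 from h).1)
      (fun i j h => (show i.1 ≤ j.1 from h).2)
      (fun i => ⟨i, i.1.qa, i.1.qb⟩)
    exact ⟨t, trivial, fun z hz => ht ⟨z, hz⟩⟩) t₀ trivial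
  obtain ⟨a, b, pa, hb, hab, qa, qb⟩ := t
  have a0 : a ≠ 0 := fun h0 => h₀ (by rw [← ht.1]; simp [h0])
  have pQ := pa.proj_left
  obtain ⟨Q, hQ⟩ : ∃ Q, star a * a = Q := ⟨_, rfl⟩
  have aQ : a * Q = a := by rw [← hQ, ← mul_assoc, pa]
  have bQ : b * Q = b := by rw [← hQ, ← hb, ← mul_assoc, isPI_of_proj (hb ▸ pQ)]
  rw [hQ] at pQ
  obtain ⟨z, pz, ⟨w, w1, w2⟩, x, x1, x2⟩ := W.comparison pQ.one_sub pQ
  have Qs := pQ.isSelfAdjoint.star_eq
  have hba : star b * a = 0 := by simpa using st hab
  have px : IsPI x := isPI_of_proj (x1 ▸ pz.1.one_sub.mul pQ (by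
    rw [Commute, SemiconjBy, sub_mul, mul_sub, pz.2, one_mul, mul_one]))
  have Qx : Q * x = 0 := by rw [← x2, ← mul_assoc, pQ.mul_one_sub_self, zero_mul]
  have xQ : star x * Q = 0 := by simpa only [Qs, star_zero] using st Qx
  have k1 : ∀ c, Q * c = c → star c * x = 0 := fun c hc => by
    rw [← hc, star_mul, Qs, mul_assoc, Qx, mul_zero]
  have k2 : ∀ c, Q * c = c → star x * c = 0 := fun c hc => by
    rw [← hc, ← mul_assoc, xQ, zero_mul]
  have k3 : ∀ c d, Q * c = c → Q * d = d → star (c + x * c * star x) * (d + x * d * star x) =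
      star c * d + x * ((1 - z) * (star c * d)) * star x := fun c d hc hd => by
    have e1 : star (x * c * star x) * (x * d * star x) = x * (star c * (star x * x * d)) * star x := by
      simp only [star_mul, star_star, mul_assoc]
    have e2 : star (x * c * star x) * d = x * star c * (star x * d) := by
      simp only [star_mul, star_star, mul_assoc]
    have e3 : star c * ((1 - z) * d) = (1 - z) * (star c * d) := by
      rw [sub_mul, sub_mul, one_mul, one_mul, mul_sub, ← mul_assoc, ← pz.2, mul_assoc]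
    rw [star_add, add_mul, mul_add, mul_add, e1, e2, k2 d hd, x1, mul_assoc _ Q, hd, e3,
      ← mul_assoc (star c), ← mul_assoc (star c), k1 c hc]
    simp
  have xx : x * (star x * x) * star x = x * star x := by rw [← mul_assoc, px]
  rw [hQ] at qa qb
  have k4 : star (a + x * a * star x) * (a + x * a * star x) = Q + x * star x := by
    rw [k3 a a qa qa, hQ, ← x1, xx]
  have k5 : ∀ c, Q * c = c → (Q + x * star x) * (c + x * c * star x) = c + x * c * star x :=
    fun c hc => by
      rw [add_mul, mul_add, mul_add, hc, mul_assoc x _ c, k2 c hc, ← mul_assoc, ← mul_assoc, Qx,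
        ← mul_assoc, ← mul_assoc, px]
      simp
  have hle := hmax.2 (y := ⟨a + x * a * star x, b + x * b * star x,
      isPI_of_proj (k4 ▸ pQ.add px.proj_right (by rw [← mul_assoc, Qx, zero_mul])),
      by rw [k4, k3 b b qb qb, hb, hQ, ← x1, xx], by rw [k3 a b qa qb, hab]; simp,
      by rw [k4, k5 a qa], by rw [k4, k5 b qb]⟩) trivial
    ⟨by change (a + x * a * star x) * (star a * a) = a
        rw [hQ, add_mul, aQ, mul_assoc, xQ, mul_zero, add_zero],
     by change (b + x * b * star x) * (star b * b) = b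
        rw [hb, hQ, add_mul, bQ, mul_assoc, xQ, mul_zero, add_zero]⟩
  have h1 : a * (star (a + x * a * star x) * (a + x * a * star x)) = a + x * a * star x := hle.1
  have h2 : a * (Q + x * star x) = a := by
    rw [mul_add, aQ, ← mul_assoc, ← aQ, mul_assoc a Q, Qx]; simp
  rw [k4, h2] at h1
  rw [← h1, hQ, left_eq_add] at k4
  have x0 : x = 0 := by rw [← px, k4, zero_mul]
  have zQ : z * Q = Q := by
    rw [x0, mul_zero, sub_mul, one_mul, eq_comm, sub_eq_zero] at x1
    exact x1.symm
  have y1 : star (a + b * w) * (a + b * w) = z := by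
    have e1 : star (b * w) * (b * w) = star w * (star b * b * w) := by
      simp only [star_mul, mul_assoc]
    rw [star_add, add_mul, mul_add, mul_add, e1, hb, hQ, w2, w1, star_mul, mul_assoc, hba,
      ← mul_assoc, hab, mul_sub, zQ]
    simp
  have y2 : Q * (a + b * w) = a + b * w := by rw [mul_add, ← mul_assoc, qa, qb]
  have y3 : ∀ c d, star (c * (a + b * w)) * (d * (a + b * w)) =
      star (a + b * w) * (star c * d * (a + b * w)) := fun c d => by
    simp only [star_mul c, mul_assoc]
  refine ⟨z, pz, fun h0 => a0 (by rw [← aQ, ← zQ, h0]; simp),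
    fun i => (b * (a + b * w)) ^ i * (a * (a + b * w)), seq (z := z) ?_ ?_ ?_ ?_ ?_⟩
  · rw [y3, hQ, y2, y1]
  · rw [y3, hb, hQ, y2, y1]
  · rw [y3, hab]; simp
  · rw [← mul_assoc, ← qa, ← mul_assoc z, zQ]
  · rw [← mul_assoc, ← qb, ← mul_assoc z, zQ]

open PInfAux in
theorem WS.halv (W : WS A) (h : ∀ e : A, IsAb e → e = 0) : Halv (⊤ : StarSubalgebra ℂ A) := by
  intro p _ pp
  obtain ⟨w, ⟨pw, w1, w2, w3⟩, hmax⟩ := W.exists_max_pi
    (fun w => IsPI w ∧ p * w = w ∧ w * p = w ∧ ‖star w * w + w * star w‖ ≤ 1)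
    ⟨by simp [IsPI], by simp, by simp, by simp⟩ (fun v h => h.1)
    (fun 𝒰 T h pT t1 t2 t3 => ⟨pT,
      (t1.mul_left p).unique (t1.congr' (h.mono fun v hv => hv.2.1.symm)),
      (t1.mul_right p).unique (t1.congr' (h.mono fun v hv => hv.2.2.1.symm)),
      (t2.add t3).norm_le (h.mono fun v hv => hv.2.2.2)⟩)
  have ps := pp.isSelfAdjoint.star_eq
  have EF := proj_orth pw.proj_left pw.proj_right w3
  have wE : w * (star w * w) = w := by rw [← mul_assoc, pw]
  have ww : w * w = 0 := by
    calc w * w = w * (star w * w * (w * star w)) * w := by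
          rw [← mul_assoc w, wE, mul_assoc w, pw]
      _ = 0 := by rw [EF]; simp
  refine ⟨w, trivial, pw, ww, ?_⟩
  have pS := pw.proj_left.add pw.proj_right EF
  have w4 : p * star w = star w := by simpa only [ps] using st w2
  have pr := pS.sub_of_mul_eq_right pp (by rw [mul_add, ← mul_assoc, ← mul_assoc, w1, w4])
  obtain ⟨r, hr⟩ : ∃ r, p - (star w * w + w * star w) = r := ⟨_, rfl⟩
  rw [hr] at pr
  by_contra hne
  have r0 : r ≠ 0 := fun h0 => hne (by rw [h0, sub_eq_zero] at hr; exact hr.symm)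
  obtain ⟨g, pg, rg, a, ha⟩ : ∃ g, IsStarProjection g ∧ r * g = g ∧ ∃ a, (r - g) * a * g ≠ 0 := by
    by_contra! hc
    exact r0 (h r (isAb_of W pr hc))
  have rs := pr.isSelfAdjoint.star_eq
  have gr : g * r = g := by simpa only [rs, pg.isSelfAdjoint.star_eq] using st rg
  obtain ⟨u, u0, pu, u1, u2⟩ := W.exists_pi ha
  have u3 := u1 (r - g) (by
    rw [← mul_assoc, ← mul_assoc, (pg.sub_of_mul_eq_right pr rg).isIdempotentElem.eq])
  have u4 := u2 g (by rw [mul_assoc _ g, pg.isIdempotentElem.eq])
  have ru : r * u = u := by rw [← u3, ← mul_assoc, mul_sub, pr.isIdempotentElem.eq, rg]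
  have ur : u * r = u := by rw [← u4, mul_assoc, gr]
  have uu : u * u = 0 := by
    calc u * u = u * (g * (r - g)) * u := by rw [← mul_assoc, u4, mul_assoc, u3]
      _ = 0 := by rw [mul_sub, gr, pg.isIdempotentElem.eq]; simp
  have wr : w * r = 0 := by rw [← hr, mul_sub, mul_add, w2, wE, ← mul_assoc, ww]; simp
  have rw' : r * w = 0 := by rw [← hr, sub_mul, add_mul, w1, pw, mul_assoc, ww]; simp
  have sr : star w * r = 0 := by simpa only [rs, star_zero] using st rw'
  have rs' : r * star w = 0 := by simpa only [rs, star_zero] using st wr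
  have su : r * star u = star u := by simpa only [rs] using st ur
  have pr' : p * r = r := by
    rw [← hr, mul_sub, mul_add, ← mul_assoc, ← mul_assoc, w1, w4, pp.isIdempotentElem.eq]
  have rp : r * p = r := by simpa only [rs, ps] using st pr'
  have a1 : star w * u = 0 := by rw [← ru, ← mul_assoc, sr, zero_mul]
  have a2 : star u * w = 0 := by simpa using st a1
  have a3 : star (w + u) * (w + u) = star w * w + star u * u := by
    rw [star_add, add_mul, mul_add, mul_add, a1, a2]; simp
  have pw' : IsPI (w + u) := isPI_of_proj (a3 ▸ pw.proj_left.add pu.proj_left (by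
    rw [← su, ← mul_assoc, ← mul_assoc, mul_assoc _ w, wr]; simp))
  have a4 : (w + u) * (w + u) = 0 := by
    rw [add_mul, mul_add, mul_add, ww, uu, ← ru, ← mul_assoc, wr, ru, ← ur, mul_assoc u, rw']
    simp
  have := hmax (w + u) ⟨pw', by rw [mul_add, w1, ← ru, ← mul_assoc, pr'],
    by rw [add_mul, w2, ← ur, mul_assoc, rp],
    (pw'.proj_left.add pw'.proj_right (by
      rw [mul_assoc, ← mul_assoc (w + u), a4]; simp)).norm_le⟩
    (by rw [add_mul, wE, ← ur, mul_assoc, ← mul_assoc r, rs']; simp)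
  exact u0 (add_eq_left.1 this)

end Crest.Agent.R121
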