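import Crest.Agent.R121.Basic

/-!
# Row 121: from an approximate trace to a trace
-/

set_option autoImplicit false

namespace Crest.Agent.R121

open Filter Topology
open scoped ComplexConjugate ComplexOrder InnerProductSpace

universe u v

/-- a uniformly bounded group of operators on a space with a parallelogram inequality has a fixed
point in every nonempty closed convex invariant set -/
theorem exists_fixed {X G : Type*} [SeminormedAddCommGroup X] [NormedSpace ℂ X] [CompleteSpace X]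
    (par : ∀ a b : X, ‖a + b‖ ^ 2 + ‖a - b‖ ^ 2 ≤ 2 * ‖a‖ ^ 2 + 2 * ‖b‖ ^ 2)
    (π : G → X →L[ℂ] X) {C : ℝ} (hC : 0 < C) (hπ : ∀ g x, ‖π g x‖ ≤ C * ‖x‖)
    (hπ' : ∀ g x, ‖x‖ ≤ C * ‖π g x‖) (hmul : ∀ g h, ∃ k, ∀ x, π g (π h x) = π k x) {S : Set X}
    (hne : S.Nonempty) (hcl : IsClosed S) (hmid : ∀ a ∈ S, ∀ b ∈ S, (2⁻¹ : ℂ) • (a + b) ∈ S)
    (hinv : ∀ g, ∀ x ∈ S, π g x ∈ S) : ∃ x ∈ S, ∀ g, ‖π g x - x‖ = 0 := by
  let B : X → ℝ → Prop := fun x r => 0 ≤ r ∧ ∀ g, ‖π g x‖ ^ 2 ≤ r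
  let D : Set ℝ := {r | ∃ x ∈ S, B x r}
  have hDne : D.Nonempty := by
    obtain ⟨x, hx⟩ := hne
    exact ⟨(C * ‖x‖) ^ 2, x, hx, by positivity,
      fun g => pow_le_pow_left₀ (norm_nonneg _) (hπ g x) 2⟩
  have hDbd : BddBelow D := ⟨0, by rintro r ⟨x, -, h, -⟩; exact h⟩
  rcases isEmpty_or_nonempty G with hG | ⟨⟨g₀⟩⟩
  · exact hne.imp fun x hx => ⟨hx, fun g => hG.elim g⟩
  set d := sInf D with hd
  have key : ∀ a ∈ S, ∀ b ∈ S, ∀ r r', B a r → B b r' →
      ‖a - b‖ ^ 2 ≤ C ^ 2 * (2 * r + 2 * r' - 4 * d) := by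
    intro a ha b hb r r' h h'
    have h1 : ∀ g, ‖π g ((2⁻¹ : ℂ) • (a + b))‖ ^ 2 ≤ (r + r') / 2 - ‖a - b‖ ^ 2 / C ^ 2 / 4 := by
      intro g
      have h2 := par (π g a) (π g b)
      have h3 := pow_le_pow_left₀ (norm_nonneg _) (hπ' g (a - b)) 2
      rw [mul_pow, ← div_le_iff₀' (by positivity), map_sub] at h3
      rw [map_smul, norm_smul, map_add, mul_pow]
      have h4 : ‖(2⁻¹ : ℂ)‖ ^ 2 = 1 / 4 := by norm_num
      rw [h4]
      linarith [h.2 g, h'.2 g]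
    have h5 : d ≤ (r + r') / 2 - ‖a - b‖ ^ 2 / C ^ 2 / 4 :=
      csInf_le hDbd ⟨_, hmid a ha b hb, (sq_nonneg _).trans (h1 g₀), h1⟩
    rw [← div_le_iff₀' (by positivity)]
    linarith
  have hseq : ∀ n : ℕ, ∃ x ∈ S, B x (d + 1 / ((n : ℝ) + 1)) := by
    intro n
    obtain ⟨r, ⟨x, hx, h0, h⟩, hr⟩ := exists_lt_of_csInf_lt hDne
      (show d < d + 1 / ((n : ℝ) + 1) from lt_add_of_pos_right _ (by positivity))
    exact ⟨x, hx, h0.trans hr.le, fun g => (h g).trans hr.le⟩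
  choose x hxS hxB using hseq
  have hcau : CauchySeq x := by
    refine cauchySeq_of_le_tendsto_0 (fun n : ℕ => √(C ^ 2 * (4 * (1 / ((n : ℝ) + 1))))) ?_ ?_
    · intro n m N hn hm
      rw [dist_eq_norm]
      refine Real.le_sqrt_of_sq_le ((key _ (hxS n) _ (hxS m) _ _ (hxB n) (hxB m)).trans ?_)
      have h1 : 1 / ((n : ℝ) + 1) ≤ 1 / ((N : ℝ) + 1) := Nat.one_div_le_one_div hn
      have h2 : 1 / ((m : ℝ) + 1) ≤ 1 / ((N : ℝ) + 1) := Nat.one_div_le_one_div hm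
      exact mul_le_mul_of_nonneg_left (by linarith) (sq_nonneg _)
    · have := ((tendsto_one_div_add_atTop_nhds_zero_nat (𝕜 := ℝ)).const_mul 4).const_mul (C ^ 2)
      simpa using this.sqrt
  obtain ⟨y, hy⟩ := cauchySeq_tendsto_of_complete hcau
  have hyS : y ∈ S := hcl.mem_of_tendsto hy (Eventually.of_forall hxS)
  have hyB : B y d := by
    refine ⟨le_csInf hDne (by rintro r ⟨x, -, h, -⟩; exact h), fun g => ?_⟩
    have h1 := (((π g).continuous.tendsto y).comp hy).norm.pow 2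
    have h2 := (tendsto_one_div_add_atTop_nhds_zero_nat (𝕜 := ℝ)).const_add d
    rw [add_zero] at h2
    exact le_of_tendsto_of_tendsto' h1 h2 fun n => (hxB n).2 g
  refine ⟨y, hyS, fun g => ?_⟩
  have h1 := key _ (hinv g y hyS) _ hyS d d ⟨hyB.1, fun h => by
    obtain ⟨k, hk⟩ := hmul h g
    rw [hk]; exact hyB.2 k⟩ hyB
  rw [show 2 * d + 2 * d - 4 * d = 0 by ring, mul_zero] at h1
  exact pow_eq_zero_iff two_ne_zero |>.1 (le_antisymm h1 (sq_nonneg _))

theorem opNorm_le_of_ball' {E : Type*} [SeminormedAddCommGroup E] [NormedSpace ℂ E]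
    (f : E →L[ℂ] ℂ) {c : ℝ} (hc : 0 ≤ c) (h : ∀ x, ‖x‖ ≤ 1 → ‖f x‖ ≤ c) : ‖f‖ ≤ c := by
  refine f.opNorm_le_bound' hc fun x hx => ?_
  have h0 : 0 < ‖x‖ := lt_of_le_of_ne (norm_nonneg _) (Ne.symm hx)
  have := h ((‖x‖⁻¹ : ℝ) • x) (by
    rw [norm_smul, norm_inv, norm_norm, inv_mul_cancel₀ hx])
  rwa [f.map_smul_of_tower, norm_smul, norm_inv, norm_norm, inv_mul_le_iff₀ h0, mul_comm] at this

/-- the parallelogram inequality in the dual of a pre-Hilbert space -/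
theorem dual_par {E : Type*} [SeminormedAddCommGroup E] [InnerProductSpace ℂ E]
    (φ ψ : E →L[ℂ] ℂ) : ‖φ + ψ‖ ^ 2 + ‖φ - ψ‖ ^ 2 ≤ 2 * ‖φ‖ ^ 2 + 2 * ‖ψ‖ ^ 2 := by
  set M := 2 * ‖φ‖ ^ 2 + 2 * ‖ψ‖ ^ 2 with hM
  have h1 : ∀ x y : E, ‖x‖ ≤ 1 → ‖y‖ ≤ 1 → ‖(φ + ψ) x‖ ^ 2 + ‖(φ - ψ) y‖ ^ 2 ≤ M := by
    intro x y hx hy
    set α := (φ + ψ) x with hα
    set β := (φ - ψ) y with hβ
    have e : ((‖α‖ ^ 2 + ‖β‖ ^ 2 : ℝ) : ℂ) =
        φ (conj α • x + conj β • y) + ψ (conj α • x - conj β • y) := by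
      push_cast
      rw [← Complex.conj_mul', ← Complex.conj_mul']
      simp only [map_add, map_sub, map_smul, smul_eq_mul]
      have e1 : α = φ x + ψ x := rfl
      have e2 : β = φ y - ψ y := rfl
      linear_combination conj α * e1 + conj β * e2
    have h2 : ‖α‖ ^ 2 + ‖β‖ ^ 2 ≤
        ‖φ‖ * ‖conj α • x + conj β • y‖ + ‖ψ‖ * ‖conj α • x - conj β • y‖ := by
      rw [← Real.norm_of_nonneg (r := ‖α‖ ^ 2 + ‖β‖ ^ 2) (by positivity), ← Complex.norm_real, e]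
      exact (norm_add_le _ _).trans (add_le_add (φ.le_opNorm _) (ψ.le_opNorm _))
    have h3 := parallelogram_law_with_norm ℂ (conj α • x) (conj β • y)
    have h4 : ‖conj α • x‖ ≤ ‖α‖ := by
      rw [norm_smul, RCLike.norm_conj]; exact mul_le_of_le_one_right (norm_nonneg _) hx
    have h5 : ‖conj β • y‖ ≤ ‖β‖ := by
      rw [norm_smul, RCLike.norm_conj]; exact mul_le_of_le_one_right (norm_nonneg _) hy
    have h6 := pow_le_pow_left₀ (norm_nonneg _) h4 2
    have h7 := pow_le_pow_left₀ (norm_nonneg _) h5 2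
    set s := ‖conj α • x + conj β • y‖
    set t := ‖conj α • x - conj β • y‖
    nlinarith [sq_nonneg (2 * ‖φ‖ - s), sq_nonneg (2 * ‖ψ‖ - t)]
  have h2 : ∀ y : E, ‖y‖ ≤ 1 → ‖φ + ψ‖ ^ 2 + ‖(φ - ψ) y‖ ^ 2 ≤ M := by
    intro y hy
    have h3 := h1 0 y (by simp) hy
    have h4 : ‖φ + ψ‖ ≤ √(M - ‖(φ - ψ) y‖ ^ 2) := opNorm_le_of_ball' _ (Real.sqrt_nonneg _)
      fun x hx => Real.le_sqrt_of_sq_le (by linarith [h1 x y hx hy])
    have h5 := pow_le_pow_left₀ (norm_nonneg _) h4 2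
    rw [Real.sq_sqrt (by nlinarith [sq_nonneg ‖(φ + ψ) 0‖])] at h5
    linarith
  have h3 := h2 0 (by simp)
  have h4 : ‖φ - ψ‖ ≤ √(M - ‖φ + ψ‖ ^ 2) := opNorm_le_of_ball' _ (Real.sqrt_nonneg _)
    fun x hx => Real.le_sqrt_of_sq_le (by linarith [h2 x hx])
  have h5 := pow_le_pow_left₀ (norm_nonneg _) h4 2
  rw [Real.sq_sqrt (by nlinarith [sq_nonneg ‖(φ - ψ) 0‖])] at h5
  linarith

theorem dual_fixed {E G : Type*} [SeminormedAddCommGroup E] [InnerProductSpace ℂ E] [Group G]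
    (c : G → E →L[ℂ] E) {C : ℝ} (hC : 0 < C) (hc : ∀ g, ‖c g‖ ≤ C)
    (hmul : ∀ g h x, c (g * h) x = c h (c g x)) (hone : ∀ x, c 1 x = x) {S : Set (E →L[ℂ] ℂ)}
    (hne : S.Nonempty) (hcl : IsClosed S) (hmid : ∀ a ∈ S, ∀ b ∈ S, (2⁻¹ : ℂ) • (a + b) ∈ S)
    (hinv : ∀ g, ∀ φ ∈ S, φ.comp (c g) ∈ S) : ∃ φ ∈ S, ∀ g x, φ (c g x) = φ x := by
  let π : G → (E →L[ℂ] ℂ) →L[ℂ] (E →L[ℂ] ℂ) := fun u =>
    (ContinuousLinearMap.compL ℂ E E ℂ).flip (c u)
  have hπ : ∀ u φ, π u φ = φ.comp (c u) := fun _ _ => rfl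
  have hπ1 : ∀ u φ, ‖π u φ‖ ≤ C * ‖φ‖ := fun u φ => by
    rw [hπ, mul_comm]
    exact (φ.opNorm_comp_le _).trans (mul_le_mul_of_nonneg_left (hc u) (norm_nonneg _))
  have hm : ∀ u v φ, π u (π v φ) = π (u * v) φ := fun u v φ => by
    ext x
    simp only [hπ, ContinuousLinearMap.comp_apply, hmul]
  have h1 : ∀ φ, π 1 φ = φ := fun φ => by
    ext x
    simp only [hπ, ContinuousLinearMap.comp_apply, hone]
  obtain ⟨φ, hφ, h⟩ := exists_fixed dual_par π hC hπ1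
    (fun u φ => by
      have := hπ1 u⁻¹ (π u φ)
      rwa [hm, inv_mul_cancel, h1] at this)
    (fun u v => ⟨u * v, hm u v⟩) hne hcl hmid hinv
  refine ⟨φ, hφ, fun g x => ?_⟩
  have h2 := (π g φ - φ).le_opNorm x
  rw [h g, zero_mul, norm_le_zero_iff] at h2
  exact sub_eq_zero.1 h2

theorem continuous_precomp {E F : Type*} [SeminormedAddCommGroup E] [NormedSpace ℂ E]
    [SeminormedAddCommGroup F] [NormedSpace ℂ F] (J : E →L[ℂ] F) :
    Continuous fun φ : F →L[ℂ] ℂ => φ.comp J :=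
  ((ContinuousLinearMap.compL ℂ E F ℂ).flip J).continuous

variable {A : Type u} [CStarAlgebra A]

/-- `A` with the inner product given by a positive functional -/
def PL2 {ρ : A →L[ℂ] ℂ} (_h : IsPos ρ) : Type u := A

namespace PL2

variable {ρ : A →L[ℂ] ℂ} (h : IsPos ρ)

instance : AddCommGroup (PL2 h) := inferInstanceAs (AddCommGroup A)
instance : Module ℂ (PL2 h) := inferInstanceAs (Module ℂ A)

/-- the identity map -/
noncomputable def J : A ≃ₗ[ℂ] PL2 h := LinearEquiv.refl ℂ A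

/-- the pre-inner product -/
@[reducible] noncomputable def core : PreInnerProductSpace.Core ℂ (PL2 h) where
  inner x y := ρ (star ((J h).symm x) * (J h).symm y)
  conj_inner_symm x y := by
    change conj (ρ _) = ρ _
    rw [← h.star_apply, star_mul, star_star]
  re_inner_nonneg x := (Complex.le_def.1 (h _)).1
  add_left x y z := by
    change ρ _ = ρ _ + ρ _
    rw [map_add, star_add, add_mul, map_add]
  smul_left x y r := by
    change ρ _ = _ * ρ _
    rw [map_smul, star_smul, smul_mul_assoc, map_smul]; rfl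

noncomputable instance : SeminormedAddCommGroup (PL2 h) :=
  InnerProductSpace.Core.toSeminormedAddCommGroup (𝕜 := ℂ) (c := core h)

noncomputable instance : InnerProductSpace ℂ (PL2 h) := InnerProductSpace.ofCore (core h)

theorem norm_J (x : A) : ‖J h x‖ = √(ρ (star x * x)).re := rfl

theorem inner_J (x y : A) : ⟪J h x, J h y⟫_ℂ = ρ (star x * y) := rfl

end PL2

theorem IsPos.re_nonneg {ρ : A →L[ℂ] ℂ} (h : IsPos ρ) (x : A) : 0 ≤ (ρ (star x * x)).re :=
  (Complex.le_def.1 (h x)).1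

theorem IsPos.re_nonneg' {ρ : A →L[ℂ] ℂ} (h : IsPos ρ) (x : A) : 0 ≤ (ρ (x * star x)).re := by
  simpa using h.re_nonneg (star x)

theorem IsPos.eq_re {ρ : A →L[ℂ] ℂ} (h : IsPos ρ) (x : A) :
    ρ (star x * x) = ((ρ (star x * x)).re : ℂ) :=
  Complex.ext rfl (by simpa using (Complex.le_def.1 (h x)).2.symm)

open PL2 in
/-- an approximate trace dominates a trace -/
theorem WS.trace_of_approx (W : WS A) {ρ : A →L[ℂ] ℂ} (hρ : ρ ∈ W.Φ) (h : IsPos ρ)
    (h4 : ∀ x, (ρ (x * star x)).re ≤ 4 * (ρ (star x * x)).re) :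
    ∃ τ ∈ W.Φ, (∀ x, ρ (x * star x) ≤ 4 * τ (star x * x)) ∧ ∀ x y, τ (x * y) = τ (y * x) := by
  let Jc : A →L[ℂ] PL2 h := (J h).toLinearMap.mkContinuous √‖ρ‖ fun x => by
    change ‖J h x‖ ≤ _
    rw [norm_J, ← Real.sqrt_sq (norm_nonneg x), ← Real.sqrt_mul (norm_nonneg _)]
    refine Real.sqrt_le_sqrt ((Complex.re_le_norm _).trans ((ρ.le_opNorm _).trans ?_))
    rw [CStarRing.norm_star_mul_self, sq]
  have hb : ∀ (u : unitary A) (x : A), ‖J h (star (u : A) * x * u)‖ ≤ 4 * ‖J h x‖ := by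
    intro u x
    rw [norm_J, norm_J, show (4 : ℝ) = √16 by rw [show (16 : ℝ) = 4 ^ 2 by norm_num]; simp,
      ← Real.sqrt_mul (by norm_num)]
    refine Real.sqrt_le_sqrt ?_
    have e1 : star (star (u : A) * x * u) * (star (u : A) * x * u) =
        star (x * u) * star (star (x * u)) := by
      simp only [star_mul, star_star, mul_assoc]
      rw [← mul_assoc (u : A), Unitary.mul_star_self_of_mem u.2, one_mul]
    have e2 : star (star (x * u)) * star (x * u) = x * star x := by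
      simp only [star_mul, star_star, mul_assoc]
      rw [← mul_assoc (u : A), Unitary.mul_star_self_of_mem u.2, one_mul]
    have h1 := h4 (star (x * u))
    rw [e2] at h1
    rw [e1]
    linarith [h4 x]
  let c : unitary A → PL2 h →L[ℂ] PL2 h := fun u => LinearMap.mkContinuous
    ((J h).toLinearMap ∘ₗ (LinearMap.mulRight ℂ (u : A) ∘ₗ LinearMap.mulLeft ℂ (star (u : A))) ∘ₗ
      (J h).symm.toLinearMap) 4 fun x => hb u ((J h).symm x)
  have hc : ∀ (u : unitary A) (x : A), c u (J h x) = J h (star (u : A) * x * u) := fun _ _ => rfl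
  have hcn : ∀ u, ‖c u‖ ≤ 4 := fun u => LinearMap.mkContinuous_norm_le _ (by norm_num) _
  let S : Set (PL2 h →L[ℂ] ℂ) :=
    {φ | φ.comp Jc ∈ W.Φ ∧ ∀ x, ρ (x * star x) ≤ 4 * φ (J h (star x * x))}
  have s1 : innerSL ℂ (J h 1) ∈ S := by
    refine ⟨?_, fun x => ?_⟩
    · have : (innerSL ℂ (J h 1)).comp Jc = ρ := by
        ext x
        change ⟪J h 1, J h x⟫_ℂ = _
        rw [inner_J, star_one, one_mul]
      rwa [this]
    · rw [innerSL_apply_apply, inner_J, star_one, one_mul, h.eq_re]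
      have := h.eq_re (star x)
      rw [star_star] at this
      rw [this]
      exact_mod_cast h4 x
  have s2 : IsClosed S := by
    refine IsClosed.and (W.closed.preimage (continuous_precomp Jc)) ?_
    rw [Set.setOf_forall]
    exact isClosed_iInter fun x => isClosed_le continuous_const
      (continuous_const.mul (ContinuousLinearMap.apply ℂ ℂ (J h (star x * x))).continuous)
  have s3 : ∀ a ∈ S, ∀ b ∈ S, (2⁻¹ : ℂ) • (a + b) ∈ S := by
    refine fun a ha b hb => ⟨?_, fun x => ?_⟩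
    · rw [ContinuousLinearMap.smul_comp, ContinuousLinearMap.add_comp]
      exact W.Φ.smul_mem _ (W.Φ.add_mem ha.1 hb.1)
    · have h1 := add_le_add (ha.2 x) (hb.2 x)
      have h2 := mul_le_mul_of_nonneg_left h1 (show (0 : ℂ) ≤ 2⁻¹ by positivity)
      simp only [ContinuousLinearMap.smul_apply, ContinuousLinearMap.add_apply, smul_eq_mul]
      convert h2 using 1 <;> ring
  have s4 : ∀ u, ∀ φ ∈ S, φ.comp (c u) ∈ S := by
    refine fun u φ hφ => ⟨?_, fun x => ?_⟩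
    · obtain ⟨ψ, hψ, e⟩ := W.mul _ hφ.1 (star (u : A)) u
      have : (φ.comp (c u)).comp Jc = ψ := by
        ext x
        rw [e]; rfl
      rwa [this]
    · have h1 := hφ.2 (x * u)
      have e2 : x * u * star (x * u) = x * star x := by
        simp only [star_mul, mul_assoc]
        rw [← mul_assoc (u : A), Unitary.mul_star_self_of_mem u.2, one_mul]
      rw [e2] at h1
      rw [ContinuousLinearMap.comp_apply, hc]
      simpa only [star_mul, mul_assoc] using h1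
  obtain ⟨φ, ⟨hφ1, hφ2⟩, hφ⟩ := dual_fixed c (C := 4) (by norm_num) hcn
    (fun u v x => by
      obtain ⟨x, rfl⟩ := (J h).surjective x
      simp only [hc, Submonoid.coe_mul, star_mul, mul_assoc])
    (fun x => by
      obtain ⟨x, rfl⟩ := (J h).surjective x
      simp [hc]) ⟨_, s1⟩ s2 s3 s4
  refine ⟨φ.comp Jc, hφ1, hφ2, fun x y => ?_⟩
  have hu : ∀ (u : unitary A) (y : A), φ.comp Jc (u * y) = φ.comp Jc (y * u) := by
    intro u y
    have h1 := hφ u (J h (u * y))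
    rw [hc, ← mul_assoc, Unitary.star_mul_self_of_mem u.2, one_mul] at h1
    exact h1.symm
  obtain ⟨u, a, rfl, -⟩ := CStarAlgebra.exists_sum_four_unitary x
  simp only [Finset.sum_mul, Finset.mul_sum, smul_mul_assoc, mul_smul_comm, map_sum, map_smul, hu]

end Crest.Agent.R121
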