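import Crest.Agent.R121.Struct
import Crest.Agent.R121.Trace_A

/-!
# Row 121: finite algebras have normal traces

PLAN.
1. Take a nonzero positive `ω ∈ Φ`, `p₀ = 1 - s` (`supp`); `ω` is faithful on `A p₀`.
   Step 1: maximal partial isometry `v = p₀ v p₀` with `ω (v⋆v) ≥ 2 ω (v v⋆)`; `e₀ = p₀ - v⋆v`,
   `f₀ = p₀ - v v⋆` are equivalent (`compl_equiv`) and nonzero.  For nonzero `w = f₀ w e₀`:
   `ω (w⋆w) < 2 ω (w w⋆)`.  `μ` = sup of the ratios, `w₁` with ratio `> μ/2`, `e₁ = w₁⋆w₁`, `f₁ = w₁w₁⋆`.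
   Step 2: maximal `v = f₁ v e₁` with `ω (v⋆v) ≤ μ/2 ω (v v⋆)`; `p = e₁ - v⋆v`, `f₂ = f₁ - v v⋆` are
   equivalent and nonzero.  For nonzero `w = f₂ w p`: `μ/2 ω (w w⋆) < ω (w⋆w) ≤ μ ω (w w⋆)`.  Hence
   `ω (r r⋆) ≤ 2 ω (r⋆ r)` for every partial isometry `r = p r p`.
2. `ω (y y⋆) ≤ 4 ω (y⋆ y)` for `y = p y p`: `D y = ω (y y⋆) - 4 ω (y⋆ y)`; with `pol` for `t = ‖y‖²/2`,
   `y' = y (1 - e)`: `D y ≤ D y'`, `‖y'‖² ≤ ‖y‖²/2`; iterate.
3. `copies`: `ρ x = ∑ ω (vᵢ⋆ x vᵢ) + ω (w⋆ x w)` satisfies `ρ (x x⋆) ≤ 4 ρ (x⋆ x)` for all `x`, and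
   `ρ (x⋆x) = 0 ↔ x z = 0`.
4. `K` = Hilbert space completion of `A` for `⟪x, y⟫ = ρ (x⋆ y)`, `J : A → K`.  For unitary `u` the map
   `J x ↦ J (u⋆ x u)` has norm `≤ 4` (`LinearMap.extendOfNorm`); let `π u` be its adjoint.  General
   lemma: a uniformly bounded group of operators on a Hilbert space has a fixed point in every nonempty
   closed convex invariant set (minimise `N η = sup_u ‖π u η‖`, parallelogram law).  Apply it to
   `{η | ∀ x, ⟪η, J (x⋆x)⟫ is real and ≥ every lower bound of u ↦ ρ (u⋆x⋆x u)}` `∋ J 1`.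
   `τ = ⟪η, J ·⟫` is in `Φ` (norm limit of `ρ (y⋆ ·)`), is invariant under unitary conjugation, hence a
   trace (`CStarAlgebra.exists_sum_four_unitary`), and `τ (x⋆x) ≥ ρ (x⋆x)/16`.  Normalise.
-/

set_option autoImplicit false

namespace Crest.Agent.R121

open Filter Topology
open scoped ComplexConjugate ComplexOrder

universe u v

variable {A : Type u} [CStarAlgebra A]

theorem star_eq_of' {x y z : A} (h : x * y = z) : star y * star x = star z := by
  rw [← h, star_mul]

theorem IsPI.star' {v : A} (h : IsPI v) : star v * v * star v = star v := by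
  simpa [mul_assoc] using congrArg star h

theorem IsPI.mul_left' {v : A} (h : IsPI v) : v * (star v * v) = v := by
  rw [← mul_assoc]; exact h

theorem IsPI.add_orth {v w : A} (hv : IsPI v) (hw : IsPI w) (h1 : star v * w = 0)
    (h2 : w * (star v * v) = 0) :
    IsPI (v + w) ∧ star (v + w) * (v + w) = star v * v + star w * w ∧
      (v + w) * star (v + w) = v * star v + w * star w ∧ (v + w) * (star v * v) = v := by
  have h3 : star w * v = 0 := by simpa using star_eq_of' h1
  have h4 : w * star v = 0 := by rw [← hv.star', ← mul_assoc, h2, zero_mul]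
  have h5 : v * star w = 0 := by simpa using star_eq_of' h4
  have e1 : star (v + w) * (v + w) = star v * v + star w * w := by
    rw [star_add, add_mul, mul_add, mul_add, h1, h3]; simp
  have e2 : (v + w) * star (v + w) = v * star v + w * star w := by
    rw [star_add, add_mul, mul_add, mul_add, h4, h5]; simp
  refine ⟨?_, e1, e2, by rw [add_mul, h2, add_zero, hv.mul_left']⟩
  rw [IsPI, e2, add_mul, mul_add, mul_add, hv, hw, mul_assoc, h1, mul_assoc, h3]; simp

/-- one exhaustion step -/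
theorem WS.step (W : WS A) (h : IsFin A) {ω : A →L[ℂ] ℂ} (hω : ω ∈ W.Φ) (a b : ℝ) {u : A}
    (hu : IsPI u) (hL : a * (ω (star u * u)).re + b * (ω (u * star u)).re < 0) :
    ∃ u', IsPI u' ∧ u' ≠ 0 ∧ u' * (star u * u) = u' ∧ (u * star u) * u' = u' ∧
      ∀ w, IsPI w → w ≠ 0 → w * (star u' * u') = w → (u' * star u') * w = w →
        a * (ω (star w * w)).re + b * (ω (w * star w)).re < 0 := by
  have pe := hu.proj_left
  have pf := hu.proj_right
  set e := star u * u with he
  set f := u * star u with hf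
  obtain ⟨v, ⟨pv, hve, hfv, hv⟩, hmax⟩ := W.exists_max_pi
    (fun v => IsPI v ∧ v * e = v ∧ f * v = v ∧
      0 ≤ a * (ω (star v * v)).re + b * (ω (v * star v)).re)
    ⟨by simp [IsPI], by simp, by simp, by simp⟩ (fun v hv => hv.1) (by
      intro 𝒰 T hQ pT h1 h2 h3
      refine ⟨pT, ?_, ?_, ?_⟩
      · exact ((h1.mul_right e).congr' (hQ.mono fun v hv => hv.2.1)).unique h1
      · exact ((h1.mul_left f).congr' (hQ.mono fun v hv => hv.2.2.1)).unique h1
      · have t1 := (Complex.continuous_re.tendsto _).comp (h2 ω hω)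
        have t2 := (Complex.continuous_re.tendsto _).comp (h3 ω hω)
        exact ge_of_tendsto ((t1.const_mul a).add (t2.const_mul b)) (hQ.mono fun v hv => hv.2.2.2))
  obtain ⟨u', h1, h2⟩ := W.compl_equiv h pe he.symm hf.symm pv hve hfv
  have g1 : star v * v * e = star v * v := by rw [mul_assoc, hve]
  have g2 : f * (v * star v) = v * star v := by rw [← mul_assoc, hfv]
  have g3 : e * (star v * v) = star v * v := by
    simpa [pe.isSelfAdjoint.star_eq] using star_eq_of' g1
  have g4 : star v * f = star v := by simpa [pf.isSelfAdjoint.star_eq] using star_eq_of' hfv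
  have pu : IsPI u' := isPI_of_proj (h1 ▸ pv.proj_left.sub_of_mul_eq_left pe g1)
  refine ⟨u', pu, fun h0 => ?_, ?_, ?_, fun w pw w0 hw1 hw2 => ?_⟩
  · rw [h0, mul_zero, eq_comm, sub_eq_zero] at h1
    rw [h0, zero_mul, eq_comm, sub_eq_zero] at h2
    rw [← h1, ← h2] at hv
    linarith
  · conv_lhs => rw [← pu.mul_left', h1, mul_assoc, sub_mul, pe.isIdempotentElem.eq, g1, ← h1]
    exact pu.mul_left'
  · conv_lhs => rw [← pu, h2, ← mul_assoc, mul_sub, pf.isIdempotentElem.eq, g2, ← h2]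
    exact pu
  · rw [h1] at hw1
    rw [h2] at hw2
    have k1 : star v * w = 0 := by
      rw [← hw2, ← mul_assoc, mul_sub, g4, ← mul_assoc, pv.star', sub_self, zero_mul]
    have k2 : w * (star v * v) = 0 := by
      rw [← hw1, mul_assoc, sub_mul, g3, pv.proj_left.isIdempotentElem.eq, sub_self, mul_zero]
    have k3 : w * e = w := by
      conv_lhs => rw [← hw1, mul_assoc, sub_mul, pe.isIdempotentElem.eq, g1]
      exact hw1
    have k4 : f * w = w := by
      conv_lhs => rw [← hw2, ← mul_assoc, mul_sub, pf.isIdempotentElem.eq, g2]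
      exact hw2
    obtain ⟨a1, a2, a3, a4⟩ := pv.add_orth pw k1 k2
    by_contra! hcon
    have := hmax (v + w) ⟨a1, by rw [add_mul, hve, k3], by rw [mul_add, hfv, k4], by
      rw [a2, a3, map_add, map_add, Complex.add_re, Complex.add_re]; linarith⟩ a4
    exact w0 (by simpa using this)

/-- approximate trace property on the partial isometries of a corner -/
theorem WS.approx_pi (W : WS A) [Nontrivial A] (h : IsFin A) :
    ∃ ω ∈ W.Φ, IsPos ω ∧ ∃ p, IsStarProjection p ∧ p ≠ 0 ∧
      (∀ y, y * p = y → ω (star y * y) = 0 → y = 0) ∧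
      ∀ r, IsPI r → r * p = r → p * r = r →
        (ω (r * star r)).re ≤ 2 * (ω (star r * r)).re := by
  obtain ⟨ω, hω, pω, h1⟩ := W.pos 1 one_ne_zero
  obtain ⟨s, ps, hs⟩ := W.supp hω pω
  have pp := ps.one_sub
  set p₀ := 1 - s with hp₀
  have faith : ∀ y, y * p₀ = y → ω (star y * y) = 0 → y = 0 := fun y hy h0 => by
    rw [← hy, hp₀, mul_sub, mul_one, (hs y).1 h0, sub_self]
  have fpos : ∀ y, y * p₀ = y → y ≠ 0 → 0 < (ω (star y * y)).re := fun y hy h0 =>
    lt_of_le_of_ne (pω.re_nonneg y) fun h2 => h0 (faith y hy (by rw [pω.eq_re, ← h2]; simp))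
  have p0 : p₀ ≠ 0 := fun h0 => h1 ((hs 1).2 (by rw [one_mul]; exact (sub_eq_zero.1 h0).symm))
  have e0 : star p₀ * p₀ = p₀ := by rw [pp.isSelfAdjoint.star_eq, pp.isIdempotentElem.eq]
  have e0' : p₀ * star p₀ = p₀ := by rw [pp.isSelfAdjoint.star_eq, pp.isIdempotentElem.eq]
  obtain ⟨u₀, pu₀, u0, a1, a2, H0⟩ := W.step h hω 1 (-2) (isPI_of_proj (e0.symm ▸ pp)) (by
    have := fpos p₀ pp.isIdempotentElem.eq p0
    rw [e0] at this
    rw [e0, e0']; linarith)
  rw [e0] at a1
  rw [e0'] at a2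
  let Cn : A → Prop := fun w => IsPI w ∧ w ≠ 0 ∧ w * (star u₀ * u₀) = w ∧ (u₀ * star u₀) * w = w
  have c1 : ∀ w, Cn w → w * p₀ = w := fun w hw => by
    conv_lhs => rw [← hw.2.2.1, mul_assoc, mul_assoc, a1]
    exact hw.2.2.1
  have c2 : ∀ w, Cn w → 0 < (ω (w * star w)).re := fun w hw => by
    have h2 : p₀ * w = w := by
      conv_lhs => rw [← hw.2.2.2, ← mul_assoc, ← mul_assoc, a2]
      exact hw.2.2.2
    simpa using fpos (star w) (by simpa [pp.isSelfAdjoint.star_eq] using star_eq_of' h2)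
      (star_ne_zero.2 hw.2.1)
  let R : Set ℝ := {t | ∃ w, Cn w ∧ t = (ω (star w * w)).re / (ω (w * star w)).re}
  have cu : Cn u₀ := ⟨pu₀, u0, pu₀.mul_left', pu₀⟩
  have hRb : BddAbove R := ⟨2, by
    rintro _ ⟨w, hw, rfl⟩
    rw [div_le_iff₀ (c2 w hw)]
    linarith [H0 w hw.1 hw.2.1 hw.2.2.1 hw.2.2.2]⟩
  set μ := sSup R with hμ
  have hμ0 : 0 < μ := lt_of_lt_of_le (div_pos (fpos u₀ a1 u0) (c2 u₀ cu)) (le_csSup hRb ⟨u₀, cu, rfl⟩)
  have hle : ∀ w, Cn w → (ω (star w * w)).re ≤ μ * (ω (w * star w)).re := fun w hw => by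
    rw [← div_le_iff₀ (c2 w hw)]; exact le_csSup hRb ⟨w, hw, rfl⟩
  obtain ⟨_, ⟨w₁, hw₁, rfl⟩, hlt⟩ := exists_lt_of_lt_csSup (s := R) ⟨_, u₀, cu, rfl⟩
    (show μ / 2 < μ by linarith)
  rw [lt_div_iff₀ (c2 w₁ hw₁)] at hlt
  obtain ⟨u, pu, u0', b1, b2, H1⟩ := W.step h hω (-1) (μ / 2) hw₁.1 (by linarith)
  have d1 : u * (star u₀ * u₀) = u := by
    conv_lhs => rw [← b1, mul_assoc, mul_assoc, hw₁.2.2.1]
    exact b1
  have d2 : (u₀ * star u₀) * u = u := by
    conv_lhs => rw [← b2, ← mul_assoc, ← mul_assoc, hw₁.2.2.2]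
    exact b2
  have key : ∀ w, IsPI w → w ≠ 0 → w * (star u * u) = w → (u * star u) * w = w → Cn w := by
    refine fun w pw w0 h2 h3 => ⟨pw, w0, ?_, ?_⟩
    · conv_lhs => rw [← h2, mul_assoc, mul_assoc, d1]
      exact h2
    · conv_lhs => rw [← h3, ← mul_assoc, ← mul_assoc, d2]
      exact h3
  refine ⟨ω, hω, pω, star u * u, pu.proj_left,
    fun h0 => u0' ((CStarRing.star_mul_self_eq_zero_iff _).1 h0), fun y hy => faith y ?_,
    fun r pr r1 r2 => ?_⟩
  · conv_lhs => rw [← hy, mul_assoc, mul_assoc, c1 u (key u pu u0' pu.mul_left' pu)]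
    exact hy
  rcases eq_or_ne r 0 with rfl | r0
  · simp
  have r3 : star r * (star u * u) = star r := by
    simpa [pu.proj_left.isSelfAdjoint.star_eq] using star_eq_of' r2
  have f1 : star (u * r) * (u * r) = star r * r := by
    rw [star_mul, mul_assoc, ← mul_assoc (star u), r2]
  have f2 : star (u * (r * star r)) * (u * (r * star r)) = r * star r := by
    rw [star_mul, pr.proj_right.isSelfAdjoint.star_eq, mul_assoc, ← mul_assoc (star u),
      ← mul_assoc (star u * u), r2, pr.proj_right.isIdempotentElem.eq]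
  have f3 : u * (r * star r) * star (u * (r * star r)) = u * r * star (u * r) := by
    rw [star_mul, pr.proj_right.isSelfAdjoint.star_eq, mul_assoc, ← mul_assoc (r * star r),
      pr.proj_right.isIdempotentElem.eq, star_mul]
    simp only [mul_assoc]
  have n1 : star r * r ≠ 0 := fun h0 => r0 ((CStarRing.star_mul_self_eq_zero_iff _).1 h0)
  have n2 : r * star r ≠ 0 := fun h0 => r0 ((CStarRing.mul_star_self_eq_zero_iff _).1 h0)
  have k1 := H1 (u * r) (isPI_of_proj (f1 ▸ pr.proj_left)) (fun h0 => n1 (by rw [← f1, h0, mul_zero]))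
    (by rw [mul_assoc, r1]) (by rw [← mul_assoc, pu])
  have k2 := hle _ (key (u * (r * star r)) (isPI_of_proj (f2.symm ▸ pr.proj_right))
    (fun h0 => n2 (by rw [← f2, h0, mul_zero])) (by rw [mul_assoc, mul_assoc, r3])
    (by rw [← mul_assoc, pu]))
  rw [f1] at k1
  rw [f2, f3] at k2
  linarith

/-- approximate trace property on a corner -/
theorem WS.approx_corner (W : WS A) {ω : A →L[ℂ] ℂ} (pω : IsPos ω) {p : A}
    (pp : IsStarProjection p) (H : ∀ r, IsPI r → r * p = r → p * r = r →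
      (ω (r * star r)).re ≤ 2 * (ω (star r * r)).re) {y : A} (h1 : y * p = y) (h2 : p * y = y) :
    (ω (y * star y)).re ≤ 4 * (ω (star y * y)).re := by
  have key : ∀ (n : ℕ) (y : A), y * p = y → p * y = y →
      (ω (y * star y)).re - 4 * (ω (star y * y)).re ≤ ‖ω‖ * ‖y‖ ^ 2 * (1 / 2) ^ n := by
    intro n
    induction n with
    | zero =>
      intro y _ _
      have h3 := (Complex.re_le_norm _).trans (ω.le_opNorm (y * star y))
      rw [CStarRing.norm_self_mul_star, ← sq] at h3
      linarith [pω.re_nonneg y]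
    | succ n ih =>
      intro y h1 h2
      rcases eq_or_ne y 0 with rfl | y0
      · simp
      have ht : 0 < ‖y‖ ^ 2 / 2 := by have := norm_pos_iff.2 y0; positivity
      obtain ⟨e, g, pe, a1, a2, a3, a4, a5, ⟨d, a6⟩, a7⟩ := W.pol y ht
      have se := pe.isSelfAdjoint.star_eq
      have ee := pe.isIdempotentElem.eq
      have b0 : p * star y = star y := by simpa [pp.isSelfAdjoint.star_eq] using star_eq_of' h1
      have b1 : p * e = e := by
        have := a2 (1 - p) (by rw [sub_mul, one_mul, ← mul_assoc, b0, sub_self])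
        rw [sub_mul, one_mul, sub_eq_zero] at this
        exact this.symm
      have b2 : e * p = e := by simpa [pp.isSelfAdjoint.star_eq, se] using star_eq_of' b1
      have b3 : star y * y * e = e * (star y * y) := a1 _ rfl
      have pr : IsPI (y * g) := isPI_of_proj (a4 ▸ pe)
      have c1 := H (y * g) pr (by rw [mul_assoc, ← a3, mul_assoc, b2]) (by rw [← mul_assoc, h2])
      rw [a4] at c1
      have sr := pr.proj_right.isSelfAdjoint.star_eq
      have c2 := pω.mul_le (star (y * e)) (y * g * star (y * g))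
      have e1 : star (y * e) * (y * g * star (y * g)) = star (y * e) := by
        rw [← sr, ← star_mul, a5]
      rw [e1, star_star, sr, pr.proj_right.isIdempotentElem.eq, norm_star] at c2
      have c3 : ‖y * e‖ ^ 2 ≤ ‖y‖ ^ 2 := pow_le_pow_left₀ (norm_nonneg _)
        ((norm_mul_le _ _).trans (mul_le_of_le_one_right (norm_nonneg _) pe.norm_le)) 2
      have c4 := pω.re_nonneg d
      rw [a6, mul_sub, mul_smul_comm, mul_one, map_sub, map_smul, Complex.sub_re, smul_eq_mul,
        Complex.re_ofReal_mul] at c4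
      have c5 := ih (y * (1 - e)) (by rw [mul_assoc, sub_mul, one_mul, b2, mul_sub, mul_sub, h1, mul_one])
        (by rw [← mul_assoc, h2])
      have e2 : y * star y = y * e * star (y * e) + y * (1 - e) * star (y * (1 - e)) := by
        rw [star_mul, star_mul, se, pe.one_sub.isSelfAdjoint.star_eq, mul_assoc y e,
          ← mul_assoc e, ee, mul_assoc y (1 - e), ← mul_assoc (1 - e),
          pe.one_sub.isIdempotentElem.eq]
        noncomm_ring
      have e3 : star y * y = e * (star y * y) + star (y * (1 - e)) * (y * (1 - e)) := by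
        rw [star_mul, pe.one_sub.isSelfAdjoint.star_eq]
        calc star y * y = e * (star y * y) + (star y * y - e * (star y * y) -
              star y * y * e + e * (e * (star y * y))) := by rw [← mul_assoc e e, ee, b3]; abel
          _ = e * (star y * y) + (star y * y - e * (star y * y) -
              star y * y * e + e * (star y * y * e)) := by rw [b3]
          _ = _ := by noncomm_ring
      have c6 : ‖ω‖ * ‖y * (1 - e)‖ ^ 2 * (1 / 2) ^ n ≤ ‖ω‖ * (‖y‖ ^ 2 / 2) * (1 / 2) ^ n := by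
        gcongr
      have c7 := pω.re_nonneg' (y * g)
      have c8 : ‖y * e‖ ^ 2 * (ω (y * g * star (y * g))).re ≤ ‖y‖ ^ 2 * (2 * (ω e).re) :=
        mul_le_mul c3 c1 c7 (sq_nonneg _)
      have c9 := congrArg (fun z => (ω z).re) e2
      have c10 := congrArg (fun z => (ω z).re) e3
      simp only [map_add, Complex.add_re] at c9 c10
      rw [pow_succ (1 / 2 : ℝ)]
      linarith
  have := (tendsto_pow_atTop_nhds_zero_of_lt_one (r := (1 / 2 : ℝ)) (by norm_num)
    (by norm_num)).const_mul (‖ω‖ * ‖y‖ ^ 2)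
  rw [mul_zero] at this
  linarith [ge_of_tendsto' this fun n => key n y h1 h2]

theorem WS.exists_trace (W : WS A) [Nontrivial A] (h : IsFin A) :
    ∃ z : A, IsCP z ∧ z ≠ 0 ∧ ∃ τ ∈ W.Φ, IsPos τ ∧ τ z = 1 ∧ (∀ x y, τ (x * y) = τ (y * x)) ∧
      ∀ x, τ (star x * x) = 0 → x * z = 0 := by
  obtain ⟨ω, hω, pω, p, pp, p0, faith, H⟩ := W.approx_pi h
  obtain ⟨z, cz, z0, n, v, w, hv, pw, hw, hsum⟩ := W.copies h pp p0
  have zz := cz.1.isIdempotentElem.eq
  have pzp : IsStarProjection (z * p) := cz.1.mul pp (cz.2 p)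
  let u : Option (Fin (n + 1)) → A := fun i => i.elim w v
  have hu : ∀ i, u i * (z * p) = u i := by
    rintro (_ | i)
    · exact hw
    · have h1 : star (v i) * v i = z * p := by simpa using hv i i
      rw [← h1]; exact (isPI_of_proj (h1 ▸ pzp)).mul_left'
  have hup : ∀ i, u i * p = u i := fun i => by
    conv_lhs => rw [← hu i, mul_assoc, mul_assoc, pp.isIdempotentElem.eq]
    exact hu i
  have huz : ∀ i, z * u i = u i := fun i => by
    conv_lhs => rw [← hu i, ← mul_assoc, cz.2, mul_assoc, ← mul_assoc z, zz]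
    exact hu i
  have hpu : ∀ i, p * star (u i) = star (u i) := fun i => by
    simpa [pp.isSelfAdjoint.star_eq] using star_eq_of' (hup i)
  have hs : ∑ i, u i * star (u i) = z := by
    rw [Fintype.sum_option, add_comm]; exact hsum
  choose ψ hψ eψ using fun i => W.mul ω hω (star (u i)) (u i)
  set ρ := ∑ i, ψ i with hρ
  have eρ : ∀ x, ρ x = ∑ i, ω (star (u i) * x * u i) := fun x => by
    simp only [hρ, ContinuousLinearMap.sum_apply, eψ]
  have eρ' : ∀ x, ρ (star x * x) = ∑ i, ω (star (x * u i) * (x * u i)) := fun x => by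
    simp only [eρ, star_mul, mul_assoc]
  have pρ : IsPos ρ := fun x => by rw [eρ']; exact Finset.sum_nonneg fun i _ => pω _
  have e1 : ∀ x, ρ (star x * x) =
      ∑ j, ∑ i, ω (star (star (u i) * x * u j) * (star (u i) * x * u j)) := by
    intro x
    rw [eρ']
    refine Finset.sum_congr rfl fun j _ => ?_
    rw [← map_sum]
    congr 1
    have : x * u j = z * (x * u j) := by rw [← mul_assoc, cz.2, mul_assoc, huz]
    conv_lhs => rw [this, ← hs, star_mul, hs, mul_assoc, ← mul_assoc (star z),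
      cz.1.isSelfAdjoint.star_eq, zz, ← hs]
    simp only [Finset.sum_mul, Finset.mul_sum, star_mul, star_star, mul_assoc]
  have h4 : ∀ x, (ρ (x * star x)).re ≤ 4 * (ρ (star x * x)).re := by
    intro x
    have := e1 (star x)
    rw [star_star] at this
    rw [this, e1, Finset.sum_comm, Complex.re_sum, Complex.re_sum, Finset.mul_sum]
    refine Finset.sum_le_sum fun j _ => ?_
    rw [Complex.re_sum, Complex.re_sum, Finset.mul_sum]
    refine Finset.sum_le_sum fun i _ => ?_
    have h5 := W.approx_corner pω pp H (y := star (u i) * x * u j) (by rw [mul_assoc, hup])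
      (by rw [← mul_assoc, ← mul_assoc, hpu])
    simpa only [star_mul, star_star, mul_assoc] using h5
  have fρ : ∀ x, ρ (star x * x) = 0 → x * z = 0 := by
    intro x hx
    rw [eρ', Finset.sum_eq_zero_iff_of_nonneg fun i _ => pω _] at hx
    rw [← hs, Finset.mul_sum]
    refine Finset.sum_eq_zero fun i _ => ?_
    rw [← mul_assoc, faith _ (by rw [mul_assoc, hup]) (hx i (Finset.mem_univ i)), zero_mul]
  obtain ⟨τ, hτ, h5, tr⟩ := W.trace_of_approx (W.Φ.sum_mem fun i _ => hψ i) pρ h4
  have pρ' : ∀ x, 0 ≤ ρ (x * star x) := fun x => by simpa using pρ (star x)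
  have pτ : IsPos τ := fun x =>
    le_of_mul_le_mul_left (a := 4) (by rw [mul_zero]; exact (pρ' x).trans (h5 x)) (by norm_num)
  have fτ : ∀ x, τ (star x * x) = 0 → x * z = 0 := by
    intro x hx
    have h6 := h5 x
    rw [hx, mul_zero] at h6
    have h7 := fρ (star x) (by rw [star_star]; exact le_antisymm h6 (pρ' x))
    rw [← cz.2]
    simpa [cz.1.isSelfAdjoint.star_eq] using star_eq_of' h7
  have z0' : z ≠ 0 := left_ne_zero_of_mul z0
  have ez : star z * z = z := by rw [cz.1.isSelfAdjoint.star_eq, zz]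
  have t0 : τ z ≠ 0 := fun h0 => z0' (by rw [← zz]; exact fτ z (by rwa [ez]))
  have t1 : 0 ≤ τ z := ez ▸ pτ z
  refine ⟨z, cz, z0', (τ z)⁻¹ • τ, W.Φ.smul_mem _ hτ, fun x => ?_, ?_, fun x y => ?_, fun x hx => ?_⟩
  · exact mul_nonneg (inv_nonneg.2 t1) (pτ x)
  · exact inv_mul_cancel₀ t0
  · simp only [ContinuousLinearMap.smul_apply, tr x y]
  · exact fτ x ((mul_eq_zero.1 hx).resolve_left (inv_ne_zero t0))

end Crest.Agent.R121
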