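import Crest.Agent.R121.S2
import Crest.Agent.R121.Coh
import Crest.Agent.R121.Trace
import Crest.Agent.R121.PInf

/-!
# Row 121: assembly
-/

set_option autoImplicit false

namespace Crest.Agent.R121

open Filter Topology OpAlg
open scoped ComplexConjugate ComplexOrder

universe u v

variable {A : Type u} [CStarAlgebra A]

/-- `ι` identifies `B` with the corner given by `z` -/
structure Cor {B : Type u} [CStarAlgebra B] (ι : B →⋆ₙₐ[ℂ] A) (z : A) : Prop where
  one : ι 1 = z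
  norm : ∀ b, ‖ι b‖ = ‖b‖
  surj : ∀ x, z * x * z = x → ∃ b, ι b = x

section Cor

variable {B : Type u} [CStarAlgebra B] {ι : B →⋆ₙₐ[ℂ] A} {z : A}

theorem Cor.inj (h : Cor ι z) {a b : B} (hab : ι a = ι b) : a = b := by
  rw [← sub_eq_zero, ← norm_eq_zero, ← h.norm, map_sub, hab, sub_self, norm_zero]

theorem Cor.left (h : Cor ι z) (b : B) : z * ι b = ι b := by rw [← h.one, ← map_mul, one_mul]

theorem Cor.right (h : Cor ι z) (b : B) : ι b * z = ι b := by rw [← h.one, ← map_mul, mul_one]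

theorem Cor.surj' (h : Cor ι z) (hz : IsCP z) {x : A} (hx : z * x = x) : ∃ b, ι b = x :=
  h.surj x (by rw [hx, ← hz.2, hx])

theorem Cor.exists_j (h : Cor ι z) (hz : IsCP z) :
    ∃ j : A →L[ℂ] B, (∀ a, ι (j a) = z * a) ∧ ∀ a, ‖j a‖ ≤ ‖a‖ := by
  choose j hj using fun a : A => h.surj' hz (x := z * a) (by
    rw [← mul_assoc, hz.1.isIdempotentElem.eq])
  have hn : ∀ a, ‖j a‖ ≤ ‖a‖ := fun a => by
    rw [← h.norm, hj]
    exact (norm_mul_le _ _).trans (mul_le_of_le_one_left (norm_nonneg _) hz.1.norm_le)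
  let j₀ : A →ₗ[ℂ] B :=
    { toFun := j
      map_add' := fun a b => h.inj (by simp [hj, mul_add])
      map_smul' := fun c a => h.inj (by simp [hj]) }
  exact ⟨j₀.mkContinuous 1 fun a => by rw [one_mul]; exact hn a, hj, hn⟩

theorem Cor.isCP (h : Cor ι z) (hz : IsCP z) {w : B} (hw : IsCP w) : IsCP (ι w) := by
  refine ⟨⟨by rw [IsIdempotentElem, ← map_mul, hw.1.isIdempotentElem.eq],
    by rw [IsSelfAdjoint, ← map_star, hw.1.isSelfAdjoint.star_eq]⟩, fun a => ?_⟩
  obtain ⟨j, hj, -⟩ := h.exists_j hz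
  rw [← h.right w, mul_assoc, ← hj, ← map_mul, hw.2, map_mul, hj, hz.2, mul_assoc, h.left, h.right]

theorem Cor.comp {B' : Type u} [CStarAlgebra B'] {ι' : B' →⋆ₙₐ[ℂ] B} {w : B} (h : Cor ι z)
    (h' : Cor ι' w) : Cor (ι.comp ι') (ι w) := by
  refine ⟨by simp [h'.one], fun b => by simp [h.norm, h'.norm], fun x hx => ?_⟩
  obtain ⟨b, rfl⟩ := h.surj x (by
    rw [← hx, ← mul_assoc, ← mul_assoc, h.left, mul_assoc _ _ z, h.right])
  obtain ⟨b', rfl⟩ := h'.surj b (h.inj (by simpa using hx))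
  exact ⟨b', rfl⟩

theorem Cor.good (h : Cor ι z) (hz : IsCP z) (W' : WS B) (hFP : FP W') {n : ℕ} (f : Co A (n + 1))
    (hf : ∀ a, hochschildDiff f a = 0) : Good f z := by
  obtain ⟨j, hj, hjn⟩ := h.exists_j hz
  let ιL : B →L[ℂ] A := LinearMap.mkContinuous
    { toFun := ι, map_add' := map_add ι, map_smul' := map_smul ι } 1 fun b => by simp [h.norm]
  have hι : ∀ b, ιL b = ι b := fun _ => rfl
  let y₀ : Fam W' (Fin n → A) := fun a => ((-1 : ℤ) ^ (n + 1)) •
    (j.comp ((f.toContinuousLinearMap (Fin.snoc a 0) (Fin.last n)).comp ιL))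
  have hy₀ : ∀ a x, y₀ a x = ((-1 : ℤ) ^ (n + 1)) • j (f (Fin.snoc a (ι x))) := fun a x => by
    change ((-1 : ℤ) ^ (n + 1)) • j (f (Function.update (Fin.snoc a 0) (Fin.last n) (ι x))) = _
    rw [Fin.update_snoc_last]
  have hsq : ((-1 : ℤ) ^ (n + 1)) * (-1) ^ (n + 1) = 1 := by rw [← mul_pow]; simp
  have hP : y₀ ∈ Prim W' j fun a => j (f a) := by
    refine ⟨fun a i c s t x => ?_, fun a x => h.inj ?_⟩
    · simp only [hy₀, Fin.snoc_update, f.map_update_add, f.map_update_smul, map_add, map_smul,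
        smul_add, smul_comm c]
    · have e := hoch_snoc f a (ι x)
      rw [hf, eq_comm, add_eq_zero_iff_eq_neg, pow_succ _ (n + 1), mul_neg_one, neg_smul,
        neg_neg] at e
      have e' := congrArg (fun t => ((-1 : ℤ) ^ (n + 1)) • (z * t)) e
      simp only [mul_smul_comm, smul_smul, hsq, one_smul, mul_add, smul_add, Finset.mul_sum,
        Finset.smul_sum] at e'
      have h1 : z * a (Fin.last n) * ι x = a (Fin.last n) * ι x := by
        rw [hz.2, mul_assoc, h.left]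
      have h2 : ∀ t, z * a 0 * (z * t) = z * (a 0 * t) := fun t => by
        rw [hz.2 t, ← mul_assoc, ← hz.2, ← mul_assoc, ← mul_assoc, hz.1.isIdempotentElem.eq,
          mul_assoc]
      simp only [PD, hy₀, map_add, map_mul, map_sum, map_zsmul, hj, h1, mul_smul_comm, h2,
        smul_smul, hsq, one_smul, mul_comm ((-1 : ℤ) ^ (_ + 1)) ((-1) ^ (n + 1))]
      rw [mul_assoc, ← e']
  have hb : ∀ a, ‖y₀ a‖ ≤ ‖f‖ * ∏ i, ‖a i‖ := fun a => by
    refine ContinuousLinearMap.opNorm_le_bound _ (by positivity) fun x => ?_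
    rw [hy₀, norm_zsmul ℂ]
    simp only [Int.cast_pow, Int.cast_neg, Int.cast_one, norm_pow, norm_neg, norm_one, one_pow,
      one_mul]
    exact (hjn _).trans ((f.norm_map_snoc_le a _).trans (by rw [h.norm]))
  obtain ⟨y, ⟨hy, hyb⟩, hm⟩ := hFP (Fin n → A) (fun a => ‖f‖ * ∏ i, ‖a i‖)
    (Prim W' j (fun a => j (f a)) ∩ {y | ∀ a, ‖y a‖ ≤ ‖f‖ * ∏ i, ‖a i‖})
    ⟨⟨y₀, hP, hb⟩, (isClosed_Prim _ _).inter (isClosed_box _),
      (convex_Prim _ _).inter (convex_box _), fun y hy => hy.2⟩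
    (by
      rintro _ ⟨u, -, hu, rfl⟩ y ⟨h1, h2⟩
      exact ⟨act_mem_Prim _ _ hu h1, fun a => (norm_act_le hu y a).trans (h2 a)⟩)
  obtain ⟨g, hg, hg'⟩ := exists_co_of_mod ιL (fun b => (h.norm b).le) hy.1 (norm_nonneg f) hyb
  refine ⟨g, hg.trans (le_mul_of_one_le_left (norm_nonneg _) (by
    linarith [(Nat.cast_nonneg n : (0 : ℝ) ≤ n)])), fun a => ?_⟩
  have e := congrArg ι (hy.2 a 1)
  have h3 := hm (fun i => a i.castSucc) 1 (j (a (Fin.last n)))
  rw [one_mul] at h3
  simp only [PD, mul_one, h3, map_add, map_mul, map_sum, map_zsmul, hj] at e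
  rw [← e, hochschildDiff]
  simp only [hg', hι, mul_add, Finset.mul_sum, mul_smul_comm, ← mul_assoc, h.left, h.right]

end Cor

theorem WS.cor (W : WS A) {e : A} (he : IsStarProjection e) :
    ∃ (B : Type u) (_ : CStarAlgebra B) (W' : WS B) (ι : B →⋆ₙₐ[ℂ] A), Cor ι e ∧
      ∀ φ ∈ W.Φ, ∃ ψ ∈ W'.Φ, ∀ b, ψ b = φ (ι b) :=
  let ⟨B, i, W', ι, h1, h2, h3, h4⟩ := W.corner he
  ⟨B, i, W', ι, ⟨h1, h2, h3⟩, h4⟩

theorem WS.exists_FP_I (W : WS A) (h : IsFin A) {e : A} (he : IsAb e) (h0 : e ≠ 0) :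
    ∃ z : A, IsCP z ∧ z ≠ 0 ∧ ∃ (B : Type u) (_ : CStarAlgebra B) (W' : WS B) (ι : B →⋆ₙₐ[ℂ] A),
      Cor ι z ∧ FP W' := by
  obtain ⟨z, hz, hz0, k, v, hv, hs⟩ := W.typeI h he h0
  obtain ⟨B, _, W', ι, hι, -⟩ := W.cor hz.1
  refine ⟨z, hz, hz0, B, inferInstance, W', ι, hι, ?_⟩
  have hze : IsStarProjection (z * e) := hz.1.mul he.1 (hz.2 e)
  have hv1 : ∀ i, v i * (z * e) = v i := fun i => by
    have := isPI_of_proj (v := v i) (by rw [hv, if_pos rfl]; exact hze)
    rwa [IsPI, mul_assoc, hv, if_pos rfl] at this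
  have hv2 : ∀ i, v i * e = v i := fun i => by
    rw [← hv1 i, mul_assoc, mul_assoc, he.1.isIdempotentElem.eq]
  have hv3 : ∀ i, z * v i = v i := fun i => by
    rw [hz.2, ← hv1 i, mul_assoc, ← hz.2, ← mul_assoc z, hz.1.isIdempotentElem.eq]
  choose E hE using fun i j => hι.surj' hz (x := v i * star (v j)) (by rw [← mul_assoc, hv3])
  have hMU : MU E := by
    refine ⟨fun i j k l => hι.inj ?_, fun i j => hι.inj ?_, hι.inj ?_⟩
    · rw [map_mul, hE, hE, mul_assoc, ← mul_assoc (star _), hv]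
      split_ifs
      · rw [← mul_assoc, hv1, hE]
      · simp
    · rw [map_star, hE, hE, star_mul, star_star]
    · simp only [map_sum, hE, hs, hι.one]
  have hcut : ∀ x ∈ cmm E, ∀ y ∈ cmm E, star (v 0) * (ι x * ι y) * v 0 =
      e * (star (v 0) * ι x * v 0) * e * (star (v 0) * ι y * v 0) * e := by
    intro x _ y hy
    have h1 := congrArg ι (hMU.mem_cmm.1 hy 0 0)
    rw [map_mul, map_mul, hE] at h1
    have h2 : e * star (v 0) = star (v 0) := by
      simpa [he.1.isSelfAdjoint.star_eq] using congrArg star (hv2 0)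
    have h3 : v 0 * (star (v 0) * (ι y * v 0)) = ι y * v 0 := by
      rw [← mul_assoc, ← mul_assoc, h1, mul_assoc, mul_assoc, hv, if_pos rfl, hv1]
    simp only [← mul_assoc, h2]
    simp only [mul_assoc, hv2, h3]
  have hrec : ∀ x ∈ cmm E, ι x = ∑ i, v i * (star (v 0) * ι x * v 0) * star (v i) := by
    intro x hx
    have h1 : x = ∑ i, E i 0 * x * E 0 i := by
      simp only [hMU.mem_cmm.1 hx, mul_assoc, hMU.mul, if_true, ← Finset.mul_sum, hMU.sum, mul_one]
    conv_lhs => rw [h1]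
    simp only [map_sum, map_mul, hE, mul_assoc]
  refine FP_I W' hMU fun x hx y hy => hι.inj ?_
  rw [hrec _ (mul_mem hx hy), hrec _ (mul_mem hy hx), map_mul, map_mul, hcut x hx y hy,
    hcut y hy x hx, he.2]

theorem WS.exists_FP_II (W : WS A) [Nontrivial A] (h : IsFin A) (hab : ∀ e : A, IsAb e → e = 0) :
    ∃ z : A, IsCP z ∧ z ≠ 0 ∧ ∃ (B : Type u) (_ : CStarAlgebra B) (W' : WS B) (ι : B →⋆ₙₐ[ℂ] A),
      Cor ι z ∧ FP W' := by
  obtain ⟨z, hz, hz0, τ, hτ, hpos, h1, hc, hfa⟩ := W.exists_trace h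
  obtain ⟨B, _, W', ι, hι, hΦ⟩ := W.cor hz.1
  obtain ⟨ψ, hψ, e⟩ := hΦ τ hτ
  let σ : R95.Tr B :=
    { φ := ψ
      one := by rw [e, hι.one, h1]
      comm := fun x y => by rw [e, e, map_mul ι, map_mul ι, hc]
      star := fun x => by rw [e, e, map_star, hpos.star_apply]
      pos := fun x => by
        rw [e, map_mul, map_star]; exact (Complex.nonneg_iff.1 (hpos _)).1 }
  refine ⟨z, hz, hz0, B, inferInstance, W', ι, hι, FP_II W' σ hψ (fun x hx => ?_) ?_⟩
  · have h2 := σ.phi_star_mul_self x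
    rw [hx] at h2
    have h3 : τ (star (ι x) * ι x) = 0 := by
      rw [← map_star, ← map_mul, ← e]; simpa using h2
    exact hι.inj (by rw [← hι.right x, hfa _ h3, map_zero])
  · intro p _ hp
    obtain ⟨w, -, hw, hw2, hw3⟩ := W.halv hab (ι p) trivial
      ⟨by rw [IsIdempotentElem, ← map_mul, hp.isIdempotentElem.eq],
        by rw [IsSelfAdjoint, ← map_star, hp.isSelfAdjoint.star_eq]⟩
    have h4 : w * ι p = w := by
      rw [← hw3, mul_add, ← mul_assoc, ← mul_assoc, hw2, zero_mul, add_zero, hw]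
    obtain ⟨w', rfl⟩ := hι.surj' hz (x := w) (by rw [hz.2, ← h4, mul_assoc, hι.right])
    exact ⟨w', trivial, hι.inj (by simpa [map_star, IsPI] using hw), hι.inj (by simpa using hw2),
      hι.inj (by simpa [map_star] using hw3)⟩

theorem WS.exists_good (W : WS A) {n : ℕ} (f : Co A (n + 1)) (hf : ∀ a, hochschildDiff f a = 0)
    {z₀ : A} (hz₀ : IsCP z₀) (h0 : z₀ ≠ 0) : ∃ z, IsCP z ∧ z ≠ 0 ∧ z * z₀ = z ∧ Good f z := by
  obtain ⟨B, _, W', ι, hι, -⟩ := W.cor hz₀.1
  have hne : ∀ {w : B}, w ≠ 0 → ι w ≠ 0 := fun hw h => hw (hι.inj (by rw [h, map_zero]))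
  by_cases hfin : IsFin B
  · have : Nontrivial B := ⟨1, 0, fun h => h0 (by rw [← hι.one, h, map_zero])⟩
    obtain ⟨w, hw, hw0, B', _, W'', ι', hι', hFP⟩ : ∃ z : B, IsCP z ∧ z ≠ 0 ∧
        ∃ (B' : Type u) (_ : CStarAlgebra B') (W'' : WS B') (ι : B' →⋆ₙₐ[ℂ] B),
        Cor ι z ∧ FP W'' := by
      by_cases hab : ∀ e : B, IsAb e → e = 0
      · exact W'.exists_FP_II hfin hab
      · push Not at hab
        obtain ⟨e, he, he0⟩ := hab
        exact W'.exists_FP_I hfin he he0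
    exact ⟨ι w, hι.isCP hz₀ hw, hne hw0, hι.right w,
      (hι.comp hι').good (hι.isCP hz₀ hw) W'' hFP f hf⟩
  · obtain ⟨w, hw, hw0, s, hs⟩ := W'.pinf_of_not_fin hfin
    refine ⟨ι w, hι.isCP hz₀ hw, hne hw0, hι.right w,
      W.good_of_pinf f hf (hι.isCP hz₀ hw) ⟨fun i => ι (s i), fun i j => ?_⟩⟩
    rw [← map_star, ← map_mul, hs]
    split_ifs <;> simp

theorem IsCP.norm_mix {z a b : A} (hz : IsCP z) {R : ℝ} (ha : ‖a‖ ≤ R) (hb : ‖b‖ ≤ R) :
    ‖z * a + (1 - z) * b‖ ≤ R := by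
  let _ := CStarAlgebra.spectralOrder A
  have := CStarAlgebra.spectralOrderedRing A
  have hR : 0 ≤ R := (norm_nonneg _).trans ha
  have key : ∀ c : A, ‖c‖ ≤ R → star c * c ≤ algebraMap ℝ A (R ^ 2) := fun c hc =>
    (CStarAlgebra.norm_le_iff_le_algebraMap _ (by positivity) (star_mul_self_nonneg c)).1 (by
      rw [CStarRing.norm_star_mul_self, sq]; gcongr)
  have h1 := star_left_conjugate_le_conjugate (key a ha) z
  have h2 := star_left_conjugate_le_conjugate (key b hb) (1 - z)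
  have hzz := hz.1.isIdempotentElem.eq
  have hs := hz.1.isSelfAdjoint.star_eq
  have e1 : star (z * a + (1 - z) * b) * (z * a + (1 - z) * b) =
      star z * (star a * a) * z + star (1 - z) * (star b * b) * (1 - z) := by
    have hc : ∀ x y : A, x * (z * y) = z * (x * y) := fun x y => by
      rw [← mul_assoc, ← hz.2, mul_assoc]
    have hzz' : ∀ y : A, z * (z * y) = z * y := fun y => by rw [← mul_assoc, hzz]
    simp only [star_add, star_mul, star_sub, star_one, hs, mul_add, add_mul, mul_sub, sub_mul,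
      mul_one, one_mul, mul_assoc, ← hz.2, hzz', hc (star a), hc (star b)]
    abel
  have e2 : star z * algebraMap ℝ A (R ^ 2) * z + star (1 - z) * algebraMap ℝ A (R ^ 2) * (1 - z) =
      algebraMap ℝ A (R ^ 2) := by
    simp only [star_sub, star_one, hs, Algebra.algebraMap_eq_smul_one, mul_smul_comm,
      smul_mul_assoc, mul_one, mul_sub, sub_mul, one_mul, hzz, smul_sub]
    abel
  have h3 := (CStarAlgebra.norm_le_iff_le_algebraMap _ (sq_nonneg R)
    (star_mul_self_nonneg (z * a + (1 - z) * b))).2 (by rw [e1, ← e2]; exact add_le_add h1 h2)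
  rw [CStarRing.norm_star_mul_self, ← sq] at h3
  exact le_of_sq_le_sq h3 hR

theorem WS.coh (W : WS A) {n : ℕ} (f : Co A (n + 1)) (hf : ∀ a, hochschildDiff f a = 0) :
    ∃ g : Co A n, ∀ a, hochschildDiff g a = f a := by
  obtain ⟨c, hc⟩ : ∃ c : ℝ, c = (n + 2) * ‖f‖ := ⟨_, rfl⟩
  have hc0 : 0 ≤ c := by rw [hc]; positivity
  let s : Set (Fam W (Fin n → A)) := {y | ∀ a, ‖y a‖ ≤ c * ∏ i, ‖a i‖} ∩ ({y | ML y} ∩ {y | Mod y})
  let t : {z // IsCP z ∧ Good f z} → Set (Fam W (Fin n → A)) := fun z =>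
    {y | ∀ a, z.1 * PD id y a 1 = z.1 * f a}
  have hmod : IsClosed {y : Fam W (Fin n → A) | Mod y} := by
    simp only [Mod, Set.ofPred_forall]
    exact isClosed_iInter fun p => isClosed_iInter fun x => isClosed_iInter fun a =>
      (WC.eval p _).isClosed_eq ((WC.eval p x).mul_right a)
  have hpd : ∀ (y : Fam W (Fin n → A)) (g : Co A n), Mod y → (∀ a, g a = y a 1) →
      ∀ a, hochschildDiff g a = PD id y a 1 := fun y g hy hg a => by
    have := hy (fun i => a i.castSucc) 1 (a (Fin.last n))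
    rw [one_mul] at this
    simp only [hochschildDiff, PD, hg, id, mul_one, this]
  obtain ⟨y, ⟨hyb, hy1, hy2⟩, hy3⟩ : (s ∩ ⋂ z, t z).Nonempty := by
    refine ((isCompact_box _).inter_right (isClosed_ML.inter hmod)).inter_iInter_nonempty t
      (fun z => ?_) fun u => ?_
    · simp only [t, Set.ofPred_forall]
      exact isClosed_iInter fun a => ((WC.pd id a 1).mul_left _).isClosed_eq (WC.const _)
    · classical
      induction u using Finset.induction_on with
      | empty =>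
        exact ⟨0, ⟨fun a => by
          change ‖(0 : A →L[ℂ] A)‖ ≤ _
          rw [norm_zero]; positivity, fun _ _ _ _ _ _ => by simp, fun _ _ _ => by simp⟩, by simp⟩
      | insert z u _ ih =>
        obtain ⟨y, ⟨hyb, hy1, hy2⟩, hy3⟩ := ih
        obtain ⟨z, hz, g, hg, hg'⟩ := z
        rw [← hc] at hg
        let y' : Fam W (Fin n → A) := fun a =>
          ContinuousLinearMap.mul ℂ A (z * g a + (1 - z) * y a 1)
        have hy' : ∀ a x, y' a x = (z * g a + (1 - z) * y a 1) * x := fun _ _ => rfl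
        have hcz : ∀ x y : A, x * (z * y) = z * (x * y) := fun x y => by
          rw [← mul_assoc, ← hz.2, mul_assoc]
        have hP : ∀ a, PD id y' a 1 = z * hochschildDiff g a + (1 - z) * PD id y a 1 := fun a => by
          have := hy2 (fun i => a i.castSucc) 1 (a (Fin.last n))
          rw [one_mul] at this
          simp only [hochschildDiff, PD, hy', id, mul_one, this, mul_add, add_mul, sub_mul, one_mul,
            mul_sub, hcz (a 0), smul_add, smul_sub, Finset.sum_add_distrib, Finset.sum_sub_distrib,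
            Finset.mul_sum, mul_smul_comm, mul_assoc]
          abel
        refine ⟨y', ⟨fun a => ?_, fun a i c s t x => ?_, fun a x b => ?_⟩, ?_⟩
        · refine (ContinuousLinearMap.opNorm_mul_apply_le ..).trans (hz.norm_mix ?_ ?_)
          · exact g.le_of_opNorm_le hg a
          · have h1 : ‖(1 : A)‖ ≤ 1 := (IsStarProjection.one A).norm_le
            exact ((y a).le_opNorm 1).trans
              ((mul_le_of_le_one_right (norm_nonneg _) h1).trans (hyb a))
        · simp only [hy', hy1 a i c s t 1, g.map_update_add, g.map_update_smul, mul_add, add_mul,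
            mul_smul_comm, smul_mul_assoc, smul_add]
          abel
        · simp only [hy', mul_assoc]
        · simp only [Set.mem_iInter, Finset.mem_insert] at hy3 ⊢
          rintro w (rfl | hw) a
          · rw [hP, hg', mul_add, ← mul_assoc, ← mul_assoc, mul_sub, hz.1.isIdempotentElem.eq]
            simp
          · have h1 := hy3 w hw a
            rw [hP, hg', mul_add, sub_mul, one_mul, mul_sub, hcz, hcz, h1]
            abel
  obtain ⟨g, -, hg⟩ := exists_co_of_mod (ContinuousLinearMap.id ℂ A) (fun _ => le_rfl) hy1 hc0 hyb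
  refine ⟨g, fun a => ?_⟩
  rw [hpd y g hy2 hg, ← sub_eq_zero]
  obtain ⟨z₁, hz₁, h⟩ := W.central {PD id y a 1 - f a}
  simp only [Set.mem_singleton_iff, forall_eq] at h
  by_cases h1 : 1 - z₁ = 0
  · simpa using (h 1).2 (by rw [one_mul, ← sub_eq_zero.1 h1]) 1
  obtain ⟨z, hz, hz0, hz1, hgood⟩ := W.exists_good f hf (z₀ := 1 - z₁)
    ⟨hz₁.1.one_sub, fun a => by rw [sub_mul, mul_sub, hz₁.2, one_mul, mul_one]⟩ h1
  have h2 := (h z).1 fun x => by
    rw [hz.2, mul_assoc, mul_sub, Set.mem_iInter.1 hy3 ⟨z, hz, hgood⟩ a, sub_self, mul_zero]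
  rw [mul_sub, h2, mul_one, sub_self] at hz1
  exact absurd hz1.symm hz0

end Crest.Agent.R121
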