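import Crest.Agent.R121.Basic

/-!
# Row 121: matrix units and averaging over Pauli groups

PLANS.
* `isW_top`: ultralimit `y` of the Cauchy sequence; `‖x m - y‖₂² = lim τ ((x m - y)⋆ (x m - x n))`.
* `Halv.cmm`: halve `p e 0 0` in `N` and amplify `ŵ = ∑ e i 0 w e 0 i`.
* `exists_MU`: induction, tensoring with `M₂ ⊆ N ⊓ cmm e` (halve `1`), `finProdFinEquiv`.
* One step: let `a ∈ N` be orthogonal to the centre of `N`, `κ = ‖a‖₂/6`.  Claim: there are
  anticommuting symmetries `s, t ∈ N` with `‖s a - a s‖₂ ≥ κ`.  Otherwise halve `1 = w⋆w + w w⋆`,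
  `e = w⋆w`, `N₁` = commutant of the matrix units; the pairs `(2e - 1, w + w⋆)`, `(w u + u⋆w⋆, 2e - 1)`
  (`u ∈ U(N₁)`) give `‖a - â₁ e - â₂ (1-e)‖₂ ≤ κ/2`, `‖u â₁ u⋆ - â₂‖₂ ≤ √2 κ` for the amplified corners
  `â₁, â₂ ∈ N₁`; the element `z` of minimal `‖·‖₂` of `{y ∈ N₁ | ‖y‖ ≤ ‖a‖, ∀ u, ‖u y u⋆ - â₂‖₂ ≤ √2 κ}`
  (`IsW`, `R95.Corner.par`) is central in `N₁`, hence in `N`, and `‖a - z‖₂ ≤ 5κ`; but
  `‖a‖₂² = Re τ (a⋆ (a - z))`... (orthogonality).  Then `‖Eav [t, s] a‖₂² ≤ ‖a‖₂² - κ²/4`.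
* `pauli`: iterate in `N' = N ⊓ {s,t}'` (which is weakly closed, halvable, and whose centre is central
  in `N` since `N = N' + N's + N't + N'st`), each time treating the largest `‖a c‖₂`.
-/

set_option autoImplicit false

namespace Crest.Agent.R121

open Filter Topology
open scoped ComplexConjugate ComplexOrder

universe u v

variable {A : Type u} [CStarAlgebra A]

variable {τ : R95.Tr A} {N : StarSubalgebra ℂ A}

theorem isW_top (W : WS A) (hτ : τ.φ ∈ W.Φ) : R95.IsW τ ⊤ := by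
  intro x C _ hC hc
  obtain ⟨y, hy, hT⟩ := W.exists_T (hyperfilter ℕ) x (C := C) (.of_forall hC)
  refine ⟨y, trivial, hy, tendsto_order.2 ⟨fun ε hε => .of_forall fun n =>
    hε.trans_le (τ.n2_nonneg _), fun ε hε => ?_⟩⟩
  obtain ⟨n₀, hn₀⟩ := hc (ε / 2) (half_pos hε)
  filter_upwards [eventually_ge_atTop n₀] with m hm
  have h1 := (((WS.T.const W _ (x m)).sub hT).mul_left (star (x m - y)) _ hτ).norm
  have h2 : ‖τ.φ (star (x m - y) * (x m - y))‖ ≤ τ.n2 (x m - y) * (ε / 2) := by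
    refine le_of_tendsto h1 ?_
    filter_upwards [(Nat.cofinite_eq_atTop ▸ hyperfilter_le_cofinite : (hyperfilter ℕ : Filter ℕ) ≤ atTop)
      (eventually_ge_atTop n₀)] with n hn
    exact (τ.cs _ _).trans (mul_le_mul_of_nonneg_left (hn₀ m hm n hn).le (τ.n2_nonneg _))
  rw [τ.phi_star_mul_self, Complex.norm_real, Real.norm_of_nonneg (sq_nonneg _)] at h2
  by_contra hlt
  have := τ.n2_nonneg (x m - y)
  nlinarith

theorem isW_inf_centralizer (hτ : τ.Faithful) (h : R95.IsW τ N) (S : Set A) :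
    R95.IsW τ (N ⊓ StarSubalgebra.centralizer ℂ S) := by
  intro x C hx hC hc
  obtain ⟨y, hyN, hy, hl⟩ := h x C (fun n => (hx n).1) hC hc
  have key : ∀ g : A, (∀ n, g * x n = x n * g) → g * y = y * g := fun g hg => by
    have c0 : Tendsto (fun _ : ℕ => τ.n2 (g - g)) atTop (𝓝 0) := by simp [τ.n2_zero]
    refine hτ.eq_of_tendsto (R95.tendsto_n2_mul (C := ‖g‖) (fun _ => le_rfl) c0 hl) ?_
    simp only [hg]
    exact R95.tendsto_n2_mul hC hl c0
  refine ⟨y, ⟨hyN, (StarSubalgebra.mem_centralizer_iff _).2 fun g hg => ?_⟩, hy, hl⟩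
  exact ⟨key _ fun n => ((StarSubalgebra.mem_centralizer_iff _).1 (hx n).2 g hg).1,
    key _ fun n => ((StarSubalgebra.mem_centralizer_iff _).1 (hx n).2 g hg).2⟩

namespace Pau

open Finset

section am

variable {ι : Type*} [Fintype ι] [DecidableEq ι] {e : ι → ι → A}

/-- amplified matrix entries -/
def am (e : ι → ι → A) (i j : ι) (x : A) : A := ∑ k, e k i * x * e j k

theorem am_mem (heN : ∀ i j, e i j ∈ N) (i j : ι) {x : A} (hx : x ∈ N) : am e i j x ∈ N :=
  sum_mem fun _ _ => mul_mem (mul_mem (heN _ _) hx) (heN _ _)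

theorem mul_am (he : MU e) (i j k l : ι) (x : A) : e k l * am e i j x = e k i * x * e j l := by
  simp [am, mul_sum, ← mul_assoc, he.mul]

theorem am_mul (he : MU e) (i j k l : ι) (x : A) : am e i j x * e k l = e k i * x * e j l := by
  simp [am, sum_mul, mul_assoc, he.mul]

theorem am_cmm (he : MU e) (i j : ι) (x : A) : am e i j x ∈ cmm e :=
  he.mem_cmm.2 fun k l => by rw [mul_am he, am_mul he]

theorem am_mul_am (he : MU e) (i j k l : ι) (x y : A) :
    am e i j x * am e k l y = am e i l (x * e j k * y) := by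
  conv_lhs => rw [am, sum_mul]
  refine sum_congr rfl fun m _ => ?_
  rw [mul_assoc, mul_am he]
  simp only [mul_assoc]

theorem star_am (he : MU e) (i j : ι) (x : A) : star (am e i j x) = am e j i (star x) := by
  simp [am, he.star, mul_assoc]

theorem am_add (i j : ι) (x y : A) : am e i j (x + y) = am e i j x + am e i j y := by
  simp [am, mul_add, add_mul, sum_add_distrib]

theorem sum_am (he : MU e) (x : A) : ∑ i, ∑ j, am e i j x * e i j = x := by
  simp only [am_mul he, ← mul_sum, ← sum_mul, he.sum, one_mul, mul_one]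

theorem central (he : MU e) (heN : ∀ i j, e i j ∈ N) {z : A} (hz : z ∈ cmm e)
    (h : ∀ y ∈ N ⊓ cmm e, z * y = y * z) {x : A} (hx : x ∈ N) : z * x = x * z := by
  rw [← sum_am he x]
  simp only [mul_sum, sum_mul]
  refine sum_congr rfl fun i _ => sum_congr rfl fun j _ => ?_
  rw [← mul_assoc, h _ ⟨am_mem heN i j hx, am_cmm he i j x⟩, mul_assoc, mul_assoc,
    he.mem_cmm.1 hz]

theorem proj (he : MU e) (i : ι) : IsStarProjection (e i i) :=
  ⟨by rw [IsIdempotentElem, he.mul, if_pos rfl], he.star i i⟩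

theorem norm_le (he : MU e) (i j : ι) : ‖e i j‖ ≤ 1 := by
  have h := CStarRing.norm_star_mul_self (x := e i j)
  rw [he.star, he.mul, if_pos rfl] at h
  nlinarith [(proj he j).norm_le, norm_nonneg (e i j)]

theorem twist (he : MU e) {v : ι → A} (hu : ∀ i, v i ∈ unitary A) (hv : ∀ i, v i ∈ cmm e) :
    MU fun i j => v i * star (v j) * e i j := by
  have hc : ∀ i j k l, e k l * (v i * star (v j)) = v i * star (v j) * e k l := fun i j =>
    he.mem_cmm.1 (mul_mem (hv i) (star_mem (hv j)))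
  refine ⟨fun i j k l => ?_, fun i j => ?_, ?_⟩
  · rw [mul_assoc, ← mul_assoc (e i j), hc, mul_assoc _ (e i j), he.mul]
    split_ifs with h
    · rw [h, ← mul_assoc, mul_assoc (v i), ← mul_assoc (star (v k)),
        Unitary.star_mul_self_of_mem (hu k), one_mul]
    · rw [mul_zero, mul_zero]
  · rw [star_mul, star_mul, star_star, he.star, hc]
  · simp only [Unitary.mul_star_self_of_mem (hu _), one_mul, he.sum]

theorem tensor {κ : Type*} [Fintype κ] [DecidableEq κ] {f : κ → κ → A} (he : MU e) (hf : MU f)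
    (h : ∀ a b, f a b ∈ cmm e) : MU fun p q : ι × κ => e p.1 q.1 * f p.2 q.2 := by
  have hc : ∀ a b i j, e i j * f a b = f a b * e i j := fun a b => he.mem_cmm.1 (h a b)
  refine ⟨fun p q r s => ?_, fun p q => ?_, ?_⟩
  · rw [mul_assoc, ← mul_assoc (f _ _), ← hc, mul_assoc, hf.mul, ← mul_assoc, he.mul]
    by_cases h1 : q.1 = r.1 <;> by_cases h2 : q.2 = r.2 <;> simp [h1, h2, Prod.ext_iff]
  · rw [star_mul, he.star, hf.star, hc]
  · simp only [Fintype.sum_prod_type, ← mul_sum, hf.sum, mul_one, he.sum]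

theorem reindex {κ : Type*} [Fintype κ] [DecidableEq κ] (he : MU e) (σ : κ ≃ ι) :
    MU fun a b => e (σ a) (σ b) :=
  ⟨fun a b c d => by simp [he.mul], fun a b => he.star _ _,
    (σ.sum_comp fun i => e i i).trans he.sum⟩

end am

theorem exists_two (h : Halv N) : ∃ f : Fin 2 → Fin 2 → A, MU f ∧ ∀ i j, f i j ∈ N := by
  obtain ⟨w, hw, h1, h2, h3⟩ := h 1 (one_mem N) (.one A)
  have a1 : w * (star w * w) = w := by rw [← mul_assoc]; exact h1
  have a2 : star w * (w * star w) = star w := by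
    simpa only [star_mul, star_star, mul_assoc] using congrArg star a1
  have a3 : star w * star w = 0 := by rw [← star_mul, h2, star_zero]
  have a1' : ∀ x, w * (star w * (w * x)) = w * x := fun x => by
    rw [← mul_assoc (star w), ← mul_assoc, a1]
  have a2' : ∀ x, star w * (w * (star w * x)) = star w * x := fun x => by
    rw [← mul_assoc w, ← mul_assoc, a2]
  have h2' : ∀ x, w * (w * x) = 0 := fun x => by rw [← mul_assoc, h2, zero_mul]
  have a3' : ∀ x, star w * (star w * x) = 0 := fun x => by rw [← mul_assoc, a3, zero_mul]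
  refine ⟨![![star w * w, star w], ![w, w * star w]], ⟨fun i j k l => ?_, fun i j => ?_, ?_⟩,
    fun i j => ?_⟩
  · fin_cases i <;> fin_cases j <;> fin_cases k <;> fin_cases l <;>
      simp [mul_assoc, a1, a2, a3, h2, a1', a2', h2', a3']
  · fin_cases i <;> fin_cases j <;> simp
  · simpa using h3
  · fin_cases i <;> fin_cases j
    exacts [mul_mem (star_mem hw) hw, star_mem hw, hw, mul_mem hw (star_mem hw)]

end Pau

open Pau

theorem Halv.cmm {ι : Type*} [Fintype ι] [DecidableEq ι] {e : ι → ι → A} (he : MU e)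
    (heN : ∀ i j, e i j ∈ N) (h : Halv N) : Halv (N ⊓ cmm e) := by
  intro p hp pp
  rcases isEmpty_or_nonempty ι with h0 | ⟨⟨o⟩⟩
  · have : (0 : A) = 1 := by rw [← he.sum]; simp
    haveI := subsingleton_of_zero_eq_one this
    exact ⟨0, zero_mem _, Subsingleton.elim _ _, Subsingleton.elim _ _, Subsingleton.elim _ _⟩
  have hc := he.mem_cmm.1 hp.2
  obtain ⟨w, hw, h1, h2, h3⟩ := h (p * e o o) (mul_mem hp.1 (heN o o))
    (pp.mul (proj he o) (hc o o).symm)
  have a1 : w * (p * e o o) = w := by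
    rw [← h3, mul_add, ← mul_assoc, ← mul_assoc, h1, h2, zero_mul, add_zero]
  have a2 : p * e o o * w = w := by
    rw [← h3, add_mul, mul_assoc, h2, h1, mul_zero, zero_add]
  have b1 : w * e o o = w := by
    rw [← a1, mul_assoc, mul_assoc, (proj he o).isIdempotentElem.eq]
  have b2 : e o o * w = w := by
    rw [← a2, ← hc, ← mul_assoc, ← mul_assoc, (proj he o).isIdempotentElem.eq]
  have b3 : star w * e o o = star w := by
    simpa only [star_mul, he.star] using congrArg star b2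
  refine ⟨am e o o w, ⟨am_mem heN o o hw, am_cmm he o o w⟩, ?_, ?_, ?_⟩
  · rw [IsPI, star_am he, am_mul_am he, am_mul_am he, b1, mul_assoc w, b3, h1]
  · rw [am_mul_am he, b1, h2]
    simp [am]
  · rw [star_am he, am_mul_am he, am_mul_am he, b1, b3, ← am_add, h3]
    simp only [am, ← mul_assoc, hc]
    simp [mul_assoc, he.mul, ← Finset.mul_sum, he.sum]

theorem exists_MU (h : Halv (⊤ : StarSubalgebra ℂ A)) (k₀ : ℕ) :
    ∃ k ≥ k₀, ∃ e : Fin (k + 1) → Fin (k + 1) → A, MU e := by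
  induction k₀ with
  | zero => exact ⟨0, le_rfl, fun _ _ => 1, fun i j k l => by simp [Subsingleton.elim (α := Fin 1) j k],
      fun _ _ => star_one A, by simp⟩
  | succ n ih =>
    obtain ⟨k, hk, e, he⟩ := ih
    obtain ⟨f, hf, hfN⟩ := exists_two (h.cmm he fun _ _ => StarSubalgebra.mem_top)
    exact ⟨2 * k + 1, by omega, _, reindex (tensor he hf fun a b => (hfN a b).2)
      ((finCongr (by ring)).trans finProdFinEquiv.symm)⟩

theorem Pau.Eav_cons (s : A) (L : List A) (a : A) :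
    Eav (s :: L) a = (2⁻¹ : ℂ) • (Eav L a + s * Eav L a * s) := rfl

theorem Pau.tail {s : A} {L : List A} (hL : Pauli N (s :: L)) : Pauli N L :=
  ⟨fun t ht => hL.1 t (List.mem_cons_of_mem s ht), (List.pairwise_cons.1 hL.2).2⟩

theorem Eav_comm {L : List A} (hL : Pauli N L) (a : A) : ∀ s ∈ L, s * Eav L a = Eav L a * s := by
  induction L with
  | nil => simp
  | cons s L ih =>
    intro t ht
    have ss := (hL.1 s List.mem_cons_self).2.2
    rw [Eav_cons, mul_smul_comm, smul_mul_assoc, mul_add, add_mul]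
    congr 1
    rcases List.mem_cons.1 ht with rfl | ht
    · rw [← mul_assoc, ← mul_assoc, ss, one_mul, mul_assoc _ t t, ss, mul_one, add_comm]
    · have h1 := ih (tail hL) t ht
      generalize Eav L a = b at h1
      rw [h1]
      congr 1
      rcases (List.pairwise_cons.1 hL.2).1 t ht with h | h
      · rw [← mul_assoc, ← mul_assoc, ← h, mul_assoc s, h1, mul_assoc s, mul_assoc b, ← h]
        simp only [mul_assoc]
      · have h' : t * s = -(s * t) := by rw [h, neg_neg]
        rw [← mul_assoc, ← mul_assoc, h', neg_mul, mul_assoc s, h1, neg_mul, mul_assoc s, mul_assoc b,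
          h']
        simp only [mul_assoc, mul_neg, neg_neg]

namespace Pau

open Finset

theorem Eav_mem {L : List A} (hL : Pauli N L) {a : A} (ha : a ∈ N) : Eav L a ∈ N := by
  induction L with
  | nil => exact ha
  | cons s L ih =>
    have hs := (hL.1 s List.mem_cons_self).1
    exact N.smul_mem (add_mem (ih (tail hL)) (mul_mem (mul_mem hs (ih (tail hL))) hs)) _

theorem phi_Eav {L : List A} (hL : Pauli N L) (a : A) {z : A} (hz : ∀ s ∈ L, s * z = z * s) :
    τ.φ (z * Eav L a) = τ.φ (z * a) := by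
  induction L with
  | nil => rfl
  | cons s L ih =>
    have h1 := ih (tail hL) fun t ht => hz t (List.mem_cons_of_mem s ht)
    have h2 : τ.φ (z * (s * Eav L a * s)) = τ.φ (z * Eav L a) := by
      rw [← mul_assoc, τ.comm, ← mul_assoc, ← mul_assoc, hz s List.mem_cons_self, mul_assoc z,
        (hL.1 s List.mem_cons_self).2.2, mul_one]
    rw [Eav_cons, mul_smul_comm, mul_add, map_smul, map_add, h2, h1, smul_eq_mul]
    ring

theorem n2_Eav {L : List A} (hL : Pauli N L) (a : A) :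
    τ.n2 (Eav L a) ^ 2 = τ.n2 a ^ 2 - τ.n2 (Eav L a - a) ^ 2 := by
  rw [τ.n2_sub_sq, ← phi_Eav hL a (z := star (Eav L a)) fun s hs => by
    simpa only [star_mul, (hL.1 s hs).2.1] using (congrArg star (Eav_comm hL a s hs)).symm,
    ← τ.n2_sq]
  ring

/-- the Pauli matrices of a system of `2 × 2` matrix units -/
def PL (f : Fin 2 → Fin 2 → A) : List A := [f 0 0 - f 1 1, f 0 1 + f 1 0]

variable {f : Fin 2 → Fin 2 → A}

theorem PL_pauli (hf : MU f) (hN : ∀ i j, f i j ∈ N) : Pauli N (PL f) := by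
  have h1 : f 0 0 + f 1 1 = 1 := by simpa using hf.sum
  refine ⟨?_, ?_⟩
  · simp only [PL, List.mem_cons, List.not_mem_nil, or_false, forall_eq_or_imp, forall_eq]
    refine ⟨⟨sub_mem (hN _ _) (hN _ _), by simp [hf.star], ?_⟩,
      add_mem (hN _ _) (hN _ _), by simp [hf.star, add_comm], ?_⟩
    · simp [mul_sub, sub_mul, hf.mul, h1]
    · simp [mul_add, add_mul, hf.mul, h1, add_comm]
  · simp [PL, mul_sub, mul_add, add_mul, sub_mul, hf.mul, sub_eq_add_neg, add_comm]

theorem mem_cmm_iff (hf : MU f) {x : A} : x ∈ cmm f ↔ ∀ s ∈ PL f, s * x = x * s := by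
  rw [hf.mem_cmm]
  simp only [PL, List.mem_cons, List.not_mem_nil, or_false, forall_eq_or_imp, forall_eq]
  refine ⟨fun h => by simp [mul_sub, sub_mul, mul_add, add_mul, h], fun ⟨h1, h2⟩ => ?_⟩
  have h0 : f 0 0 + f 1 1 = 1 := by simpa using hf.sum
  have c0 : Commute (f 0 0) x := by
    have : f 0 0 = (2⁻¹ : ℂ) • (1 + (f 0 0 - f 1 1)) := by rw [← h0]; module
    rw [this]
    exact ((Commute.one_left x).add_left h1).smul_left _
  have c1 : Commute (f 1 1) x := by
    rw [← sub_eq_iff_eq_add'.2 h0.symm]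
    exact (Commute.one_left x).sub_left c0
  have c2 := c0.mul_left h2
  have c3 := c1.mul_left h2
  simp [mul_add, hf.mul] at c2 c3
  intro i j
  fin_cases i <;> fin_cases j
  exacts [c0, c2, c3, c1]

theorem par (x y : A) :
    τ.n2 (x - y) ^ 2 = 2 * τ.n2 x ^ 2 + 2 * τ.n2 y ^ 2 - 4 * τ.n2 ((2⁻¹ : ℂ) • (x + y)) ^ 2 := by
  rw [τ.n2_smul, mul_pow, τ.n2_add_sq, τ.n2_sub_sq]
  simp
  ring

/-- almost central elements are close to the centre -/
theorem exists_center (hτ : τ.Faithful) (hN : R95.IsW τ N) {b : A} (hb : b ∈ N) {r : ℝ}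
    (h : ∀ u ∈ N, u ∈ unitary A → τ.n2 (star u * b * u - b) ≤ r) :
    ∃ z ∈ N, (∀ y ∈ N, z * y = y * z) ∧ τ.n2 (z - b) ≤ r := by
  let K : Set A := {z | z ∈ N ∧ ‖z‖ ≤ ‖b‖ ∧
    ∀ u ∈ N, u ∈ unitary A → τ.n2 (star u * z * u - b) ≤ r}
  let Nn : A → ℝ := fun z => τ.n2 z ^ 2
  have hbK : b ∈ K := ⟨hb, le_rfl, h⟩
  have hbd : BddBelow (Nn '' K) := ⟨0, by rintro _ ⟨z, -, rfl⟩; positivity⟩
  set d := sInf (Nn '' K) with hd
  have hdle : ∀ z ∈ K, d ≤ Nn z := fun z hz => csInf_le hbd ⟨z, hz, rfl⟩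
  have hpar : ∀ x ∈ K, ∀ y ∈ K, τ.n2 (x - y) ^ 2 ≤ 2 * Nn x + 2 * Nn y - 4 * d := by
    intro x hx y hy
    have hm : (2⁻¹ : ℂ) • (x + y) ∈ K := by
      refine ⟨N.smul_mem (add_mem hx.1 hy.1) _, ?_, fun w hw hu => ?_⟩
      · rw [norm_smul]
        have := norm_add_le x y
        simp only [norm_inv, Complex.norm_ofNat]
        linarith [hx.2.1, hy.2.1]
      · have e : star w * ((2⁻¹ : ℂ) • (x + y)) * w - b =
            (2⁻¹ : ℂ) • ((star w * x * w - b) + (star w * y * w - b)) := by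
          simp only [mul_smul_comm, smul_mul_assoc, mul_add, add_mul]
          module
        have := τ.n2_add_le (star w * x * w - b) (star w * y * w - b)
        rw [e, τ.n2_smul]
        simp only [norm_inv, Complex.norm_ofNat]
        linarith [hx.2.2 w hw hu, hy.2.2 w hw hu]
    have := hdle _ hm
    rw [par]
    simp only [Nn] at this ⊢
    linarith
  obtain ⟨u, -, hu, huK⟩ := exists_seq_tendsto_sInf (Set.Nonempty.image Nn ⟨b, hbK⟩) hbd
  choose z hz hzu using huK
  obtain ⟨y, hyN, hy, hl⟩ := hN z ‖b‖ (fun n => (hz n).1) (fun n => (hz n).2.1) fun η hη => by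
    obtain ⟨n₀, hn₀⟩ := eventually_atTop.1
      (hu.eventually (gt_mem_nhds (show d < d + η ^ 2 / 4 by simpa using by positivity)))
    refine ⟨n₀, fun m hm n hn => lt_of_pow_lt_pow_left₀ 2 hη.le ?_⟩
    have := hpar _ (hz m) _ (hz n)
    rw [hzu, hzu] at this
    linarith [hn₀ m hm, hn₀ n hn]
  have hyK : y ∈ K := by
    refine ⟨hyN, hy, fun w hw hu => ?_⟩
    have t := hl.add_const r
    rw [zero_add] at t
    refine ge_of_tendsto' t fun n => (τ.n2_triangle _ (star w * z n * w) _).trans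
      (add_le_add (le_of_eq ?_) ((hz n).2.2 w hw hu))
    rw [← sub_mul, ← mul_sub, τ.n2_mul_unitary hu, τ.n2_unitary_mul (Unitary.star_mem hu),
      τ.n2_sub_comm]
  have hyd : Nn y ≤ d := by
    have : Tendsto (fun n => Nn (z n)) atTop (𝓝 (Nn y)) := by
      refine Tendsto.pow ?_ 2
      rw [tendsto_iff_norm_sub_tendsto_zero]
      refine squeeze_zero (fun _ => norm_nonneg _) (fun n => ?_) hl
      simpa only [← τ.norm_toL2, map_sub, Real.norm_eq_abs] using abs_norm_sub_norm_le _ _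
    simp only [hzu] at this
    exact (tendsto_nhds_unique this hu).le
  have hinv : ∀ w ∈ N, w ∈ unitary A → y * w = w * y := by
    intro w hw hu
    have hK : star w * y * w ∈ K := by
      refine ⟨mul_mem (mul_mem (star_mem hw) hyN) hw, ?_, fun w' hw' hu' => ?_⟩
      · refine norm_mul₃_le.trans ?_
        rw [norm_star, τ.norm_unitary hu, one_mul, mul_one]
        exact hy
      · simpa only [star_mul, mul_assoc] using hyK.2.2 (w * w') (mul_mem hw hw') (mul_mem hu hu')
    have e : Nn (star w * y * w) = Nn y := by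
      simp only [Nn, τ.n2_mul_unitary hu, τ.n2_unitary_mul (Unitary.star_mem hu)]
    have := hpar _ hK _ hyK
    have h0 := hτ _ (pow_eq_zero_iff two_ne_zero |>.1
      (le_antisymm (this.trans (by rw [e]; linarith)) (sq_nonneg _)))
    conv_rhs => rw [← sub_eq_zero.1 h0]
    rw [← mul_assoc, ← mul_assoc, Unitary.mul_star_self_of_mem hu, one_mul]
  refine ⟨y, hyN, fun a ha => ?_, by simpa using hyK.2.2 1 (one_mem _) (one_mem _)⟩
  obtain ⟨c, w, hw, rfl⟩ := R95.exists_unitary_decomp (hN.isClosed hτ) ha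
  simp only [mul_sum, sum_mul, mul_smul_comm, smul_mul_assoc, hinv _ (hw _).1 (hw _).2]

theorem step (hτ : τ.Faithful) (hN : R95.IsW τ N) (hH : Halv N) {a : A} (ha : a ∈ N)
    (ho : ∀ z ∈ N, (∀ y ∈ N, z * y = y * z) → τ.φ (z * a) = 0) {η : ℝ} (hη : 9 * η < τ.n2 a) :
    ∃ f : Fin 2 → Fin 2 → A, MU f ∧ (∀ i j, f i j ∈ N) ∧ η < τ.n2 (Eav (PL f) a - a) := by
  by_contra hcon
  push Not at hcon
  obtain ⟨e, he, heN⟩ := exists_two hH
  set b := Eav (PL e) a with hb
  have hb1 : b ∈ cmm e := (mem_cmm_iff he).2 (Eav_comm (PL_pauli he heN) a)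
  have hba : τ.n2 (b - a) ≤ η := hcon e he heN
  obtain ⟨z, hz, hzc, hzb⟩ := exists_center hτ (isW_inf_centralizer hτ hN _ : R95.IsW τ (N ⊓ cmm e))
    (b := b) ⟨Eav_mem (PL_pauli he heN) ha, hb1⟩ (r := 8 * η) fun u hu uu => by
      have hf := twist he (v := ![u, 1]) (fun i => by fin_cases i; exacts [uu, one_mem _])
        fun i => by fin_cases i; exacts [hu.2, one_mem _]
      have hfN : ∀ i j, ![u, 1] i * star (![u, 1] j) * e i j ∈ N := fun i j => by
        have : ∀ i, ![u, 1] i ∈ N := fun i => by fin_cases i; exacts [hu.1, one_mem _]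
        exact mul_mem (mul_mem (this i) (star_mem (this j))) (heN i j)
      have h1 := hcon _ hf hfN
      have h2 := hf.mem_cmm.1 ((mem_cmm_iff hf).2 (Eav_comm (PL_pauli hf hfN) a)) 0 1
      generalize Eav _ a = y at h1 h2
      have h3 : u * e 0 1 * y = y * (u * e 0 1) := by simpa using h2
      have h4 : τ.n2 (b - y) ≤ 2 * η := by
        have := τ.n2_triangle b a y
        rw [τ.n2_sub_comm a] at this
        linarith
      have n1 : ‖u * e 0 1‖ ≤ 1 := (norm_mul_le _ _).trans (by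
        rw [τ.norm_unitary uu, one_mul]; exact norm_le he 0 1)
      have h5 : τ.n2 ((b * u - u * b) * e 0 1) ≤ 4 * η := by
        have e1 : (b * u - u * b) * e 0 1 = (b - y) * (u * e 0 1) - u * e 0 1 * (b - y) := by
          rw [mul_sub, sub_mul, sub_mul, h3, mul_assoc u (e 0 1), he.mem_cmm.1 hb1]
          simp only [mul_assoc]
          abel
        have t1 := (τ.n2_mul_le_right (b - y) (u * e 0 1)).trans
          (mul_le_of_le_one_right (τ.n2_nonneg _) n1)
        have t2 := (τ.n2_mul_le_left (u * e 0 1) (b - y)).trans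
          (mul_le_of_le_one_left (τ.n2_nonneg _) n1)
        rw [e1]
        exact (τ.n2_sub_le _ _).trans (by linarith)
      have hc := he.mem_cmm.1 (sub_mem (mul_mem hb1 hu.2) (mul_mem hu.2 hb1))
      have e2 : star u * b * u - b = star u * (b * u - u * b) := by
        rw [mul_sub, ← mul_assoc, ← mul_assoc, Unitary.star_mul_self_of_mem uu, one_mul]
      rw [e2, τ.n2_unitary_mul (Unitary.star_mem uu)]
      generalize b * u - u * b = c at h5 hc
      have e3 : c = c * e 0 1 * e 1 0 + e 1 0 * (c * e 0 1) := by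
        have h0 : e 0 0 + e 1 1 = 1 := by simpa using he.sum
        rw [← mul_assoc, hc, mul_assoc, mul_assoc, he.mul, he.mul, if_pos rfl, if_pos rfl,
          ← mul_add, h0, mul_one]
      have t1 := (τ.n2_mul_le_right (c * e 0 1) (e 1 0)).trans
        (mul_le_of_le_one_right (τ.n2_nonneg _) (norm_le he 1 0))
      have t2 := (τ.n2_mul_le_left (e 1 0) (c * e 0 1)).trans
        (mul_le_of_le_one_left (τ.n2_nonneg _) (norm_le he 1 0))
      rw [e3]
      exact (τ.n2_add_le _ _).trans (by linarith)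
  have h1 := ho (star z) (star_mem hz.1) fun y hy => by
    simpa using (congrArg star (central he heN hz.2 hzc (star_mem hy))).symm
  have h2 := τ.n2_triangle z b a
  have h3 := τ.n2_sub_sq z a
  rw [h1, Complex.zero_re] at h3
  nlinarith [τ.n2_nonneg (z - a), sq_nonneg (τ.n2 z), τ.n2_nonneg (z - b), τ.n2_nonneg (b - a)]

theorem iter (hτ : τ.Faithful) {κ : Type*} [Fintype κ] {δ : ℝ} (hδ : 0 < δ) (n : ℕ) :
    ∀ N : StarSubalgebra ℂ A, R95.IsW τ N → Halv N → ∀ a : κ → A, (∀ c, a c ∈ N) →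
      (∀ c, ∀ z ∈ N, (∀ y ∈ N, z * y = y * z) → τ.φ (z * a c) = 0) →
      ∑ c, τ.n2 (a c) ^ 2 < n * (δ / 9) ^ 2 → ∃ L, Pauli N L ∧ ∀ c, τ.n2 (Eav L (a c)) ≤ δ := by
  induction n with
  | zero =>
    intro N _ _ a _ _ h
    exact absurd h (by simpa using sum_nonneg fun c _ => sq_nonneg _)
  | succ n ih =>
    intro N hN hH a ha ho h
    by_cases hall : ∀ c, τ.n2 (a c) ≤ δ
    · exact ⟨[], ⟨by simp, by simp⟩, hall⟩
    push Not at hall
    obtain ⟨c₀, hc₀⟩ := hall
    obtain ⟨f, hf, hfN, hfa⟩ := step hτ hN hH (ha c₀) (ho c₀) (η := δ / 9) (by linarith)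
    have hP := PL_pauli hf hfN
    obtain ⟨L, hL, hLa⟩ := ih (N ⊓ cmm f) (isW_inf_centralizer hτ hN _) (hH.cmm hf hfN)
      (fun c => Eav (PL f) (a c))
      (fun c => ⟨Eav_mem hP (ha c), (mem_cmm_iff hf).2 (Eav_comm hP _)⟩)
      (fun c z hz hzc => by
        rw [phi_Eav hP _ ((mem_cmm_iff hf).1 hz.2)]
        exact ho c z hz.1 fun y hy => central hf hfN hz.2 hzc hy)
      (by
        have h1 := single_le_sum (f := fun c => τ.n2 (Eav (PL f) (a c) - a c) ^ 2)
          (fun _ _ => sq_nonneg _) (mem_univ c₀)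
        have h2 := pow_le_pow_left₀ (by positivity) hfa.le 2
        simp only [n2_Eav hP, sum_sub_distrib]
        push_cast at h
        linarith)
    refine ⟨L ++ PL f, ⟨fun s hs => ?_, List.pairwise_append.2 ⟨hL.2, hP.2, fun s hs t ht => ?_⟩⟩,
      fun c => by rw [Eav, List.foldr_append]; exact hLa c⟩
    · rcases List.mem_append.1 hs with hs | hs
      exacts [⟨(hL.1 s hs).1.1, (hL.1 s hs).2⟩, hP.1 s hs]
    · exact .inl ((mem_cmm_iff hf).1 (hL.1 s hs).1.2 t ht).symm

end Pau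

theorem pauli (hτ : τ.Faithful) (hN : R95.IsW τ N) (hH : Halv N) {κ : Type*} [Fintype κ]
    (a : κ → A) (ha : ∀ c, a c ∈ N)
    (ho : ∀ c, ∀ z ∈ N, (∀ y ∈ N, z * y = y * z) → τ.φ (z * a c) = 0) {δ : ℝ} (hδ : 0 < δ) :
    ∃ L, Pauli N L ∧ ∀ c, τ.n2 (Eav L (a c)) ≤ δ := by
  obtain ⟨n, hn⟩ := exists_nat_gt ((∑ c, τ.n2 (a c) ^ 2) / (δ / 9) ^ 2)
  exact iter hτ hδ n N hN hH a ha ho ((div_lt_iff₀ (by positivity)).1 hn)

end Crest.Agent.R121
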