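import Crest.Agent.R121.Pauli
import Crest.Agent.R121.Fam
import Crest.Agent.R121.Test
import Crest.Agent.R124.Sh.LGT

/-!
# Row 121: the row estimate

PLAN.  `E c = e c c`, `N = cmm e`, `D` = commutant of the `E c` (a closed ⋆-subalgebra),
`Δ_y (x, V) = y p (x V) - y p x V`.
* `n j = ∑_c E c V e j c ∈ D`; for `y ∈ K`: `∑_c ‖Δ_y (x E c, V)‖₂² = ∑_j ‖Δ_y (x, n j)‖₂²` (both equal
  `∑_{c,j} ‖Δ_y (x, E c V e j c)‖₂²`, using `MM`), `∑_j n j n j⋆ = 1`, `∑_j n j⋆ n j = ∑_c a c E c` with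
  `a c = ∑_l e l c (∑_j e c j V⋆ E c V e j c) e c l ∈ N` and `a c - 1` orthogonal to the centre of `N`
  (which is central in `A`).
* `pauli` for `a c - 1` gives `L`; `b c = Eav L (a c)`, `h = ∑ (b c - 1)⋆(b c - 1)`, `q = 1 - e'` with `e'` from
  `W.sp h 1`: `q ∈ N` commutes with `L`, `‖(b c - 1) q‖ ≤ 1`, `τ (1 - q) ≤ τ h` tiny.
  `y' ∈ K` from `exists_fixed_pauli` for `L ++ [1 - 2q]`.
* `u = Δ_{y'} (x, ·) : D → L²` has `‖u n‖ ≤ 2 γ ‖x‖ ‖n‖` (four unitaries).  Little Grothendieck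
  (`R124` `little_gt`, applied to real and imaginary parts, values in the completion of `τ.L2`):
  `∑ ‖u (n j)‖² ≤ 4 (2γ‖x‖)² ‖∑ (n j⋆ n j + n j n j⋆)‖`.  Apply it to the family obtained from `n j q` by
  doubling `(n/√2, n s/√2)` along `L` (induction on `L`): rows `≤ 1`, columns `q b q ≤ 2`.
  The part `u (n j) (1 - q)` is tiny.  So the sum is `≤ 48 γ²‖x‖²` + tiny for `y'`.
* Transfer to `y`: `d = y - y'`; `∑_c ‖d (x E c V)‖₂² ≤ γ²‖x‖²` by `signAvg`, `∑_c ‖d x E c V‖₂² = ‖d x‖₂²`.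
-/

set_option autoImplicit false

namespace Crest.Agent.R121

open Filter Topology
open scoped ComplexConjugate ComplexOrder

universe u v

variable {A : Type u} [CStarAlgebra A]

namespace Rw

open Finset
open scoped ComplexStarModule

/-- little Grothendieck for arbitrary families -/
theorem lgt {B H : Type*} [CStarAlgebra B] [NormedAddCommGroup H] [InnerProductSpace ℂ H]
    {u : B →ₗ[ℂ] H} {γ : ℝ} (hγ : 0 ≤ γ) (hu : ∀ n : unitary B, ‖u n‖ ≤ γ) {ι : Type*} [Fintype ι]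
    (m : ι → B) : ∑ j, ‖u (m j)‖ ^ 2 ≤
      16 * γ ^ 2 * ‖∑ j, star (m j) * m j + ∑ j, m j * star (m j)‖ := by
  let _ := CStarAlgebra.spectralOrder B
  have := CStarAlgebra.spectralOrderedRing B
  have h1 : ∀ a, ‖u a‖ ≤ 2 * γ * ‖a‖ := fun a => by
    obtain ⟨v, c, e, hc⟩ := CStarAlgebra.exists_sum_four_unitary a
    conv_lhs => rw [e, map_sum]
    refine (norm_sum_le _ _).trans ((sum_le_card_nsmul _ _ (‖a‖ / 2 * γ) fun i _ => ?_).trans ?_)
    · rw [map_smul, norm_smul]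
      exact mul_le_mul (hc i) (hu _) (norm_nonneg _) (by positivity)
    · simp only [card_univ, Fintype.card_fin, nsmul_eq_mul, Nat.cast_ofNat]
      linarith
  have h2 := R124.Sh.little_gt (u := u) (fun a _ => h1 a) (by positivity)
    (Sum.elim (fun j => (ℜ (m j) : B)) fun j => (ℑ (m j) : B))
    (by rintro (j | j); exacts [(ℜ (m j)).2, (ℑ (m j)).2])
  simp only [Fintype.sum_sum_type, Sum.elim_inl, Sum.elim_inr, ← sum_add_distrib] at h2
  have e : ∑ j, star (m j) * m j + ∑ j, m j * star (m j) =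
      (2 : ℝ) • ∑ j, ((ℜ (m j) : B) * ℜ (m j) + (ℑ (m j) : B) * ℑ (m j)) := by
    rw [← sum_add_distrib, smul_sum]
    refine sum_congr rfl fun j _ => ?_
    rw [star_mul_self_add_self_mul_star, ← Nat.cast_smul_eq_nsmul ℝ, Nat.cast_ofNat]
  have h3 : ∑ j, ‖u (m j)‖ ^ 2 ≤ 2 * ∑ j, (‖u (ℜ (m j) : B)‖ ^ 2 + ‖u (ℑ (m j) : B)‖ ^ 2) := by
    rw [mul_sum]
    refine sum_le_sum fun j _ => ?_
    have h4 : ‖u (m j)‖ ≤ ‖u (ℜ (m j) : B)‖ + ‖u (ℑ (m j) : B)‖ := by
      conv_lhs => rw [← realPart_add_I_smul_imaginaryPart (m j), map_add, map_smul]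
      refine (norm_add_le _ _).trans ?_
      rw [norm_smul, Complex.norm_I, one_mul]
    nlinarith [pow_le_pow_left₀ (norm_nonneg _) h4 2,
      sq_nonneg (‖u (ℜ (m j) : B)‖ - ‖u (ℑ (m j) : B)‖)]
  rw [e, norm_smul, Real.norm_ofNat]
  nlinarith

theorem lgt_n2 (τ : R95.Tr A) {D : StarSubalgebra ℂ A} (hD : IsClosed (D : Set A))
    {u : A →ₗ[ℂ] A} {γ : ℝ} (hγ : 0 ≤ γ) (hu : ∀ n ∈ D, n ∈ unitary A → τ.n2 (u n) ≤ γ)
    {ι : Type*} [Fintype ι] {m : ι → A} (hm : ∀ j, m j ∈ D) : ∑ j, τ.n2 (u (m j)) ^ 2 ≤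
      16 * γ ^ 2 * ‖∑ j, star (m j) * m j + ∑ j, m j * star (m j)‖ := by
  let _ : CStarAlgebra D := StarSubalgebra.cstarAlgebra D
  let u' : D →ₗ[ℂ] UniformSpace.Completion τ.L2 :=
    (UniformSpace.Completion.toComplₗᵢ (𝕜 := ℂ) (E := τ.L2)).toLinearMap ∘ₗ τ.toL2.toLinearMap ∘ₗ
      u ∘ₗ D.toSubalgebra.toSubmodule.subtype
  have hu' : ∀ n : D, ‖u' n‖ = τ.n2 (u n) := fun n => UniformSpace.Completion.norm_coe _
  have := lgt (u := u') hγ (fun n => by
    rw [hu']
    refine hu _ n.1.2 ?_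
    have := n.2
    rw [Unitary.mem_iff] at this ⊢
    exact ⟨congrArg Subtype.val this.1, congrArg Subtype.val this.2⟩) fun j => ⟨m j, hm j⟩
  simp only [hu'] at this
  refine this.trans (le_of_eq ?_)
  congr 1
  change ‖D.subtype _‖ = _
  simp

theorem n2_mul_proj (τ : R95.Tr A) {q : A} (hq : IsStarProjection q) (T : A) :
    τ.n2 (T * q) ^ 2 = (τ.φ (star T * T * q)).re := by
  rw [τ.n2_sq, star_mul, hq.isSelfAdjoint.star_eq, mul_assoc, τ.comm, ← mul_assoc, mul_assoc,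
    hq.isIdempotentElem.eq]

theorem norm_block {ι : Type*} [Fintype ι] [DecidableEq ι] {E w : ι → A}
    (hE : ∀ c d, E c * E d = if c = d then E c else 0) (hs : ∀ c, star (E c) = E c)
    (h1 : ∑ c, E c = 1) (hw : ∀ c, w c * E c = E c * w c) {R : ℝ} (hR : 0 ≤ R)
    (hn : ∀ c, ‖w c‖ ≤ R) : ‖∑ c, w c * E c‖ ≤ R := by
  let _ := CStarAlgebra.spectralOrder A
  have := CStarAlgebra.spectralOrderedRing A
  have e : star (∑ c, w c * E c) * ∑ c, w c * E c = ∑ c, star (E c) * (star (w c) * w c) * E c := by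
    rw [star_sum, sum_mul_sum]
    refine sum_congr rfl fun c _ => ?_
    rw [sum_eq_single c]
    · rw [star_mul]; simp only [mul_assoc]
    · intro d _ hd
      rw [hw, hw, star_mul, hs, mul_assoc, ← mul_assoc (E c), hE, if_neg hd.symm, zero_mul,
        mul_zero]
    · simp
  have h2 : star (∑ c, w c * E c) * ∑ c, w c * E c ≤ algebraMap ℝ A (R ^ 2) := by
    rw [e, Algebra.algebraMap_eq_smul_one, ← h1, smul_sum]
    refine sum_le_sum fun c _ => le_trans (CStarAlgebra.star_left_conjugate_le_norm_smul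
      (IsSelfAdjoint.star_mul_self _)) ?_
    have h3 : star (E c) * E c = E c := by rw [hs, hE, if_pos rfl]
    have h4 : 0 ≤ E c := h3 ▸ star_mul_self_nonneg _
    rw [h3, CStarRing.norm_star_mul_self, ← sq]
    exact smul_le_smul_of_nonneg_right (pow_le_pow_left₀ (norm_nonneg _) (hn c) 2) h4
  rw [← CStarAlgebra.norm_le_iff_le_algebraMap _ (sq_nonneg R) (star_mul_self_nonneg _),
    CStarRing.norm_star_mul_self, ← sq] at h2
  exact (pow_le_pow_iff_left₀ (norm_nonneg _) hR two_ne_zero).1 h2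

theorem Eav_cons (s : A) (L : List A) (a : A) :
    Eav (s :: L) a = (2⁻¹ : ℂ) • (Eav L a + s * Eav L a * s) := rfl

theorem Eav_add (L : List A) (a b : A) : Eav L (a + b) = Eav L a + Eav L b := by
  induction L with
  | nil => rfl
  | cons s L ih => simp only [Eav_cons, ih, mul_add, add_mul, smul_add]; abel

theorem Eav_zero (L : List A) : Eav L (0 : A) = 0 := by
  induction L with
  | nil => rfl
  | cons s L ih => simp [Eav_cons, ih]

theorem Eav_sum {ι : Type*} (L : List A) (t : Finset ι) (a : ι → A) :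
    Eav L (∑ i ∈ t, a i) = ∑ i ∈ t, Eav L (a i) :=
  map_sum ({ toFun := Eav L, map_zero' := Eav_zero L, map_add' := Eav_add L } : A →+ A) a t

theorem Eav_mul {L : List A} {f g : A} (hf : ∀ s ∈ L, s * f = f * s) (hg : ∀ s ∈ L, s * g = g * s)
    (a : A) : Eav L (f * a * g) = f * Eav L a * g := by
  induction L with
  | nil => rfl
  | cons s L ih =>
    rw [Eav_cons, Eav_cons, ih (fun t ht => hf t (List.mem_cons_of_mem _ ht))
      (fun t ht => hg t (List.mem_cons_of_mem _ ht)), mul_smul_comm, smul_mul_assoc, mul_add,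
      add_mul]
    congr 2
    rw [← mul_assoc, ← mul_assoc, hf s List.mem_cons_self, mul_assoc _ g,
      ← hg s List.mem_cons_self]
    simp only [mul_assoc]

theorem Eav_one {L : List A} (h : ∀ s ∈ L, s * s = 1) : Eav L (1 : A) = 1 := by
  induction L with
  | nil => rfl
  | cons s L ih =>
    rw [Eav_cons, ih fun t ht => h t (List.mem_cons_of_mem _ ht), mul_one, h s List.mem_cons_self,
      ← two_smul ℂ, smul_smul]
    simp

theorem Eav_mem {N : StarSubalgebra ℂ A} {L : List A} (h : ∀ s ∈ L, s ∈ N) {a : A} (ha : a ∈ N) :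
    Eav L a ∈ N := by
  induction L with
  | nil => exact ha
  | cons s L ih =>
    have h1 := ih fun t ht => h t (List.mem_cons_of_mem _ ht)
    have h2 := h s List.mem_cons_self
    exact N.smul_mem (add_mem h1 (mul_mem (mul_mem h2 h1) h2)) _

theorem doubling (τ : R95.Tr A) {D : StarSubalgebra ℂ A} (u : A →ₗ[ℂ] A) (L : List A)
    (hL : ∀ s ∈ L, s ∈ D ∧ star s = s ∧ s * s = 1 ∧ ∀ n, u (n * s) = u n * s)
    {ι : Type} [Fintype ι] {m : ι → A} (hm : ∀ j, m j ∈ D) :
    ∃ (κ : Type) (_ : Fintype κ) (m' : κ → A), (∀ j, m' j ∈ D) ∧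
      ∑ j, τ.n2 (u (m' j)) ^ 2 = ∑ j, τ.n2 (u (m j)) ^ 2 ∧
      ∑ j, m' j * star (m' j) = ∑ j, m j * star (m j) ∧
      ∑ j, star (m' j) * m' j = Eav L (∑ j, star (m j) * m j) := by
  induction L with
  | nil => exact ⟨ι, inferInstance, m, hm, rfl, rfl, rfl⟩
  | cons s L ih =>
    obtain ⟨κ, _, m', h1, h2, h3, h4⟩ := ih fun t ht => hL t (List.mem_cons_of_mem _ ht)
    obtain ⟨s1, s2, s3, s4⟩ := hL s List.mem_cons_self
    have su : s ∈ unitary A := by rw [Unitary.mem_iff, s2]; exact ⟨s3, s3⟩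
    let c : ℂ := (1 + Complex.I) / 2
    have c1 : star c * c = 2⁻¹ := by
      apply Complex.ext <;> simp [c] <;> norm_num
    have c2 : c * star c = 2⁻¹ := by rw [mul_comm, c1]
    have c3 : ‖c‖ ^ 2 = 2⁻¹ := by
      have := congrArg Complex.re c2
      rw [Complex.star_def, Complex.mul_conj, Complex.normSq_eq_norm_sq, Complex.ofReal_re] at this
      rw [this]; simp
    refine ⟨κ ⊕ κ, inferInstance, Sum.elim (fun j => c • m' j) fun j => c • (m' j * s), ?_, ?_, ?_,
      ?_⟩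
    · rintro (j | j)
      · exact D.smul_mem (h1 j) _
      · exact D.smul_mem (mul_mem (h1 j) s1) _
    · simp only [Fintype.sum_sum_type, Sum.elim_inl, Sum.elim_inr, map_smul, τ.n2_smul, s4,
        τ.n2_mul_unitary su, mul_pow, c3, ← mul_sum, h2]
      ring
    · simp only [Fintype.sum_sum_type, Sum.elim_inl, Sum.elim_inr, star_smul, smul_mul_smul_comm,
        c2, star_mul, s2, ← smul_sum]
      have : ∀ j, m' j * s * (s * star (m' j)) = m' j * star (m' j) := fun j => by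
        rw [mul_assoc, ← mul_assoc s, s3, one_mul]
      simp only [this, h3]
      rw [← smul_add, ← two_smul ℂ, smul_smul]
      simp
    · simp only [Fintype.sum_sum_type, Sum.elim_inl, Sum.elim_inr, star_smul, smul_mul_smul_comm,
        c1, star_mul, s2, ← smul_sum]
      rw [Eav_cons, ← h4, smul_add, mul_sum, sum_mul]
      simp only [mul_assoc]

section mu

variable {ι : Type} [Fintype ι] [DecidableEq ι] {e : ι → ι → A}

theorem mu_proj (he : MU e) (c : ι) : IsStarProjection (e c c) :=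
  ⟨by rw [IsIdempotentElem, he.mul, if_pos rfl], he.star c c⟩

theorem mu_EE (he : MU e) (c d : ι) : e c c * e d d = if c = d then e c c else 0 := by
  rw [he.mul]
  split_ifs with h
  · rw [h]
  · rfl

theorem amp_mem (he : MU e) (i j : ι) (x : A) : ∑ l, e l i * x * e j l ∈ cmm e := by
  refine he.mem_cmm.2 fun a b => ?_
  rw [mul_sum, sum_mul, sum_eq_single b, sum_eq_single a]
  · rw [← mul_assoc, ← mul_assoc, he.mul, if_pos rfl, mul_assoc _ (e j a), he.mul, if_pos rfl]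
  · intro l _ hl
    rw [mul_assoc _ (e j l), he.mul, if_neg hl, mul_zero]
  · simp
  · intro l _ hl
    rw [← mul_assoc, ← mul_assoc, he.mul, if_neg hl.symm, zero_mul, zero_mul]
  · simp

theorem amp_mul (he : MU e) (i j a b : ι) (x : A) :
    (∑ l, e l i * x * e j l) * e a b = e a i * x * e j b := by
  rw [sum_mul, sum_eq_single a]
  · rw [mul_assoc _ (e j a), he.mul, if_pos rfl]
  · intro l _ hl
    rw [mul_assoc _ (e j l), he.mul, if_neg hl, mul_zero]
  · simp

theorem central (he : MU e) {z : A} (hz : z ∈ cmm e) (h : ∀ y ∈ cmm e, z * y = y * z) (x : A) :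
    z * x = x * z := by
  have e1 : x = ∑ i, ∑ j, (∑ l, e l i * x * e j l) * e i j := by
    simp only [amp_mul he, ← mul_sum, ← sum_mul, he.sum, one_mul, mul_one]
  rw [e1]
  simp only [mul_sum (a := z), sum_mul (a := z)]
  refine sum_congr rfl fun i _ => sum_congr rfl fun j _ => ?_
  rw [← mul_assoc, h _ (amp_mem he i j x), mul_assoc, ← he.mem_cmm.1 hz, mul_assoc]

theorem sum_n2_cols (τ : R95.Tr A) (he : MU e) (T : ι → A) :
    ∑ j, τ.n2 (∑ c, T c * e j c) ^ 2 = ∑ c, τ.n2 (T c) ^ 2 := by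
  have e1 : ∀ j, τ.n2 (∑ c, T c * e j c) ^ 2 = ∑ c, (τ.φ (star (T c) * T c * e j j)).re := by
    intro j
    rw [τ.n2_sq, star_sum, sum_mul_sum, map_sum, Complex.re_sum]
    refine sum_congr rfl fun c _ => ?_
    rw [map_sum, sum_eq_single c]
    · rw [star_mul, he.star, mul_assoc, τ.comm, ← mul_assoc, mul_assoc, he.mul, if_pos rfl]
    · intro d _ hd
      rw [star_mul, he.star, mul_assoc, τ.comm, ← mul_assoc, mul_assoc, he.mul, if_neg hd,
        mul_zero, map_zero]
    · simp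
  simp only [e1]
  rw [sum_comm]
  refine sum_congr rfl fun c _ => ?_
  rw [← Complex.re_sum, ← map_sum, ← mul_sum, he.sum, mul_one, τ.n2_sq]

theorem sum_n2_blocks (τ : R95.Tr A) (he : MU e) (T : A) :
    ∑ c, τ.n2 (T * e c c) ^ 2 = τ.n2 T ^ 2 := by
  simp only [n2_mul_proj τ (mu_proj he _)]
  rw [← Complex.re_sum, ← map_sum, ← mul_sum, he.sum, mul_one, τ.n2_sq]

theorem sum_n2_signs (τ : R95.Tr A) (he : MU e) (d : A →ₗ[ℂ] A) {γ : ℝ} (hγ : 0 ≤ γ)
    (hd : ∀ x, τ.n2 (d x) ≤ γ * ‖x‖) {V : A} (hV : V ∈ unitary A) (x : A) :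
    ∑ c, τ.n2 (d (x * e c c * V)) ^ 2 ≤ γ ^ 2 * ‖x‖ ^ 2 := by
  have := signAvg (fun i j => τ.φ (star (d (x * e i i * V)) * d (x * e j j * V)))
    (R := γ ^ 2 * ‖x‖ ^ 2) (fun ε hε => by
      have h1 : ∀ i, star (ε i) = ε i := fun i => by rcases hε i with h | h <;> simp [h]
      have h2 : ∀ i, ‖ε i‖ = 1 := fun i => by rcases hε i with h | h <;> simp [h]
      have e1 : ∑ i, ∑ j, (ε i * ε j) • τ.φ (star (d (x * e i i * V)) * d (x * e j j * V)) =
          τ.φ (star (d (x * (∑ c, (ε c • (1 : A)) * e c c) * V)) *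
            d (x * (∑ c, (ε c • (1 : A)) * e c c) * V)) := by
        simp only [smul_mul_assoc, one_mul, mul_sum, sum_mul, mul_smul_comm, map_sum, map_smul,
          star_sum, star_smul, h1, smul_sum, smul_smul]
        rw [sum_comm]
        simp only [mul_comm]
      have h3 : ‖∑ c, (ε c • (1 : A)) * e c c‖ ≤ 1 :=
        norm_block (mu_EE he) (fun c => he.star c c) he.sum (fun c => by simp) zero_le_one
          fun c => by
            have := τ.nontrivial
            rw [norm_smul, h2, norm_one, one_mul]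
      rw [e1, τ.phi_star_mul_self, Complex.norm_real, Real.norm_of_nonneg (sq_nonneg _), ← mul_pow]
      refine pow_le_pow_left₀ (τ.n2_nonneg _) ((hd _).trans (mul_le_mul_of_nonneg_left ?_ hγ)) 2
      rw [CStarRing.norm_mul_mem_unitary _ hV]
      exact (norm_mul_le _ _).trans (mul_le_of_le_one_right (norm_nonneg _) h3))
  simp only [τ.phi_star_mul_self] at this
  rw [← Complex.ofReal_sum, Complex.norm_real] at this
  exact (le_abs_self _).trans this

/-- the columns -/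
noncomputable def nn (e : ι → ι → A) (V : A) (j : ι) : A := ∑ c, e c c * V * e j c

/-- the diagonal coefficients -/
noncomputable def aa (e : ι → ι → A) (V : A) (c : ι) : A :=
  ∑ j, ∑ l, e l j * (star V * e c c * V) * e j l

theorem nn_comm (he : MU e) (V : A) (j d : ι) : e d d * nn e V j = nn e V j * e d d := by
  rw [nn, mul_sum, sum_mul, sum_eq_single d, sum_eq_single d]
  · rw [← mul_assoc, ← mul_assoc, he.mul, if_pos rfl, mul_assoc _ (e j d), he.mul, if_pos rfl]
  · intro l _ hl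
    rw [mul_assoc _ (e j l), he.mul, if_neg hl, mul_zero]
  · simp
  · intro l _ hl
    rw [← mul_assoc, ← mul_assoc, he.mul, if_neg hl.symm, zero_mul, zero_mul]
  · simp

theorem nn_row (he : MU e) {V : A} (hV : V ∈ unitary A) :
    ∑ j, nn e V j * star (nn e V j) = 1 := by
  have e1 : ∀ j, nn e V j * star (nn e V j) = ∑ c, e c c * V * e j j * (star V * e c c) := by
    intro j
    rw [nn, star_sum, sum_mul_sum]
    refine sum_congr rfl fun c _ => ?_
    rw [sum_eq_single c]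
    · rw [star_mul, star_mul, he.star, he.star, ← mul_assoc, mul_assoc _ (e j c), he.mul,
        if_pos rfl]
    · intro d _ hd
      rw [star_mul, he.star, ← mul_assoc, mul_assoc _ (e j c), he.mul, if_neg hd.symm, mul_zero,
        zero_mul]
    · simp
  simp only [e1]
  rw [sum_comm, ← he.sum]
  refine sum_congr rfl fun c _ => ?_
  rw [← sum_mul, ← mul_sum, he.sum, mul_one, mul_assoc, ← mul_assoc V,
    Unitary.mul_star_self_of_mem hV, one_mul, he.mul, if_pos rfl]

theorem nn_col (he : MU e) (V : A) :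
    ∑ j, star (nn e V j) * nn e V j = ∑ c, aa e V c * e c c := by
  have e1 : ∀ c, aa e V c * e c c = ∑ j, e c j * (star V * e c c * V) * e j c := fun c => by
    rw [aa, sum_mul]
    simp only [amp_mul he]
  simp only [e1]
  rw [sum_comm]
  refine sum_congr rfl fun j _ => ?_
  rw [nn, star_sum, sum_mul_sum]
  refine sum_congr rfl fun c _ => ?_
  rw [sum_eq_single c]
  · rw [star_mul, star_mul, he.star, he.star]
    simp only [mul_assoc]
    rw [← mul_assoc (e c c), he.mul, if_pos rfl]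
  · intro d _ hd
    rw [star_mul, star_mul, he.star, he.star]
    simp only [mul_assoc]
    rw [← mul_assoc (e c c), he.mul, if_neg hd.symm, zero_mul, mul_zero, mul_zero]
  · simp

theorem aa_mem (he : MU e) (V : A) (c : ι) : aa e V c ∈ cmm e :=
  sum_mem fun j _ => amp_mem he j j _

theorem aa_orth (τ : R95.Tr A) (he : MU e) {V : A} (hV : V ∈ unitary A) (c : ι) {z : A}
    (hz : ∀ x, z * x = x * z) : τ.φ (z * (aa e V c - 1)) = 0 := by
  have tr : ∀ a b, τ.φ (z * (a * b)) = τ.φ (z * (b * a)) := fun a b => by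
    rw [← mul_assoc, τ.comm, ← mul_assoc, ← hz, mul_assoc]
  have h1 : ∀ l, ∑ j, τ.φ (z * (e l j * (star V * e c c * V) * e j l)) = τ.φ (z * e l l) := by
    intro l
    have : ∀ j, τ.φ (z * (e l j * (star V * e c c * V) * e j l)) =
        τ.φ (z * (e j j * (star V * e c c * V))) := fun j => by
      rw [tr, ← mul_assoc (e j l), he.mul, if_pos rfl]
    simp only [this]
    rw [← map_sum, ← mul_sum, ← sum_mul, he.sum, one_mul, tr, ← mul_assoc V,
      Unitary.mul_star_self_of_mem hV, one_mul]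
    have h2 := tr (e c l) (e l c)
    rwa [he.mul, he.mul, if_pos rfl, if_pos rfl] at h2
  rw [mul_sub, map_sub, aa, sum_comm, mul_sum, map_sum]
  simp only [mul_sum, map_sum, h1]
  rw [← map_sum, ← mul_sum, he.sum, sub_self]

/-- the defect of modularity -/
noncomputable def Dl (θ : A →L[ℂ] A) (x : A) : A →ₗ[ℂ] A where
  toFun m := θ (x * m) - θ x * m
  map_add' a b := by simp only [mul_add, map_add]; abel
  map_smul' c a := by simp [smul_sub]

theorem Dl_apply (θ : A →L[ℂ] A) (x m : A) : Dl θ x m = θ (x * m) - θ x * m := rfl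

theorem Dl_mul {θ : A →L[ℂ] A} {s : A} (h : ∀ x, θ (x * s) = θ x * s) (x m : A) :
    Dl θ x (m * s) = Dl θ x m * s := by
  rw [Dl_apply, Dl_apply, ← mul_assoc, h, sub_mul, mul_assoc]

theorem Dl_norm (θ : A →L[ℂ] A) (x m : A) : ‖Dl θ x m‖ ≤ 2 * ‖θ‖ * ‖x‖ * ‖m‖ := by
  have h1 : ‖θ (x * m)‖ ≤ ‖θ‖ * (‖x‖ * ‖m‖) :=
    (θ.le_opNorm _).trans (mul_le_mul_of_nonneg_left (norm_mul_le _ _) (norm_nonneg _))
  have h2 : ‖θ x * m‖ ≤ ‖θ‖ * ‖x‖ * ‖m‖ :=
    (norm_mul_le _ _).trans (mul_le_mul_of_nonneg_right (θ.le_opNorm _) (norm_nonneg _))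
  have := norm_sub_le (θ (x * m)) (θ x * m)
  rw [Dl_apply]
  linarith

theorem sum_Dl (τ : R95.Tr A) (he : MU e) {θ : A →L[ℂ] A}
    (hθ : ∀ x i j, θ (x * e i j) = θ x * e i j) (V x : A) :
    ∑ j, τ.n2 (Dl θ x (nn e V j)) ^ 2 =
      ∑ c, τ.n2 (θ (x * e c c * V) - θ (x * e c c) * V) ^ 2 := by
  refine Eq.trans (sum_congr rfl fun j _ => ?_) (sum_n2_cols τ he _)
  simp only [nn, map_sum]
  refine congrArg (τ.n2 · ^ 2) (sum_congr rfl fun c _ => ?_)
  rw [Dl_mul fun x => hθ x j c, Dl_apply, hθ x c c, mul_assoc x, mul_assoc (θ x)]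

omit [DecidableEq ι] in
theorem cut (W : WS A) (τ : R95.Tr A) (g : ι → A) :
    ∃ q, IsStarProjection q ∧
      (∀ y, (∀ c, y * g c = g c * y) → (∀ c, y * star (g c) = star (g c) * y) → y * q = q * y) ∧
      (∀ c, ‖g c * q‖ ≤ 1) ∧ τ.n2 (1 - q) ^ 2 ≤ ∑ c, τ.n2 (g c) ^ 2 := by
  let _ := CStarAlgebra.spectralOrder A
  have := CStarAlgebra.spectralOrderedRing A
  have hsa : IsSelfAdjoint (∑ c, star (g c) * g c) :=
    isSelfAdjoint_sum _ fun c _ => IsSelfAdjoint.star_mul_self _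
  obtain ⟨r, hr, hc, ⟨b, hb⟩, ⟨d, hd⟩, -⟩ := W.sp hsa 1
  rw [Complex.ofReal_one, one_smul] at hb hd
  have hq := hr.one_sub
  refine ⟨1 - r, hq, fun y h1 h2 => ?_, fun c => ?_, ?_⟩
  · rw [mul_sub, sub_mul, mul_one, one_mul, hc y]
    rw [mul_sum, sum_mul]
    refine sum_congr rfl fun c _ => ?_
    rw [← mul_assoc, h2, mul_assoc, h1, mul_assoc]
  · have h3 : star (g c * (1 - r)) * (g c * (1 - r)) ≤ 1 := by
      have h4 : star (g c * (1 - r)) * (g c * (1 - r)) ≤
          ∑ c, star (g c * (1 - r)) * (g c * (1 - r)) :=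
        single_le_sum (f := fun c => star (g c * (1 - r)) * (g c * (1 - r)))
          (fun c _ => star_mul_self_nonneg _) (mem_univ c)
      have h5 : ∑ c, star (g c * (1 - r)) * (g c * (1 - r)) =
          (1 - r) * ∑ c, star (g c) * g c := by
        have h6 : (∑ c, star (g c) * g c) * (1 - r) = (1 - r) * ∑ c, star (g c) * g c := by
          rw [mul_sub, sub_mul, mul_one, one_mul, hc _ rfl]
        conv_rhs => rw [← hq.isIdempotentElem.eq, mul_assoc, ← h6, sum_mul, mul_sum]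
        simp only [star_mul, hq.isSelfAdjoint.star_eq, mul_assoc]
      have h7 := star_mul_self_nonneg d
      rw [hd, mul_sub, mul_one, sub_nonneg] at h7
      exact h4.trans (h5.le.trans (h7.trans hq.le_one))
    rw [← CStarAlgebra.norm_le_one_iff_of_nonneg _ (star_mul_self_nonneg _),
      CStarRing.norm_star_mul_self] at h3
    nlinarith [norm_nonneg (g c * (1 - r))]
  · have h3 := τ.pos b
    rw [hb, mul_sub, mul_one, map_sub, τ.comm, sum_mul, map_sum, Complex.sub_re, Complex.re_sum,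
      sub_nonneg] at h3
    rw [sub_sub_cancel, τ.n2_proj_sq hr]
    refine h3.trans (sum_le_sum fun c _ => ?_)
    rw [← n2_mul_proj τ hr]
    exact pow_le_pow_left₀ (τ.n2_nonneg _) ((τ.n2_mul_le_right _ _).trans
      (mul_le_of_le_one_right (τ.n2_nonneg _) hr.norm_le)) 2

theorem main_est (τ : R95.Tr A) (he : MU e) {V : A} (hV : V ∈ unitary A) {L : List A}
    (hL : Pauli (cmm e) L) {q : A} (hq : IsStarProjection q) (hqN : q ∈ cmm e)
    (hqL : ∀ s ∈ L, s * q = q * s) (hg : ∀ c, ‖Eav L (aa e V c - 1) * q‖ ≤ 1)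
    (u : A →ₗ[ℂ] A) (huL : ∀ s ∈ L, ∀ n, u (n * s) = u n * s) {γ : ℝ} (hγ : 0 ≤ γ)
    (hu : ∀ n ∈ unitary A, (∀ c, n * e c c = e c c * n) → τ.n2 (u n) ≤ γ) :
    ∑ j, τ.n2 (u (nn e V j * q)) ^ 2 ≤ 48 * γ ^ 2 := by
  let _ := CStarAlgebra.spectralOrder A
  have := CStarAlgebra.spectralOrderedRing A
  let D := StarSubalgebra.centralizer ℂ (Set.range fun c => e c c)
  have hD : ∀ x, x ∈ D ↔ ∀ c, e c c * x = x * e c c := fun x => by
    simp only [D, StarSubalgebra.mem_centralizer_iff, Set.forall_mem_range, he.star, and_self]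
  have hN : ∀ x ∈ cmm e, x ∈ D := fun x hx => (hD x).2 fun c => he.mem_cmm.1 hx c c
  obtain ⟨κ, _, m, h1, h2, h3, h4⟩ := doubling τ (D := D) u L
    (fun s hs => ⟨hN _ (hL.1 s hs).1, (hL.1 s hs).2.1, (hL.1 s hs).2.2, huL s hs⟩)
    (m := fun j => nn e V j * q) fun j => mul_mem ((hD _).2 (nn_comm he V j)) (hN _ hqN)
  have h5 := lgt_n2 τ (D := D) (Set.isClosed_centralizer _) hγ
    (fun n hn hn' => hu n hn' fun c => ((hD n).1 hn c).symm) h1
  have row : ‖∑ j, m j * star (m j)‖ ≤ 1 := by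
    rw [CStarAlgebra.norm_le_one_iff_of_nonneg _ (sum_nonneg fun j _ => mul_star_self_nonneg _), h3,
      ← nn_row he hV]
    refine sum_le_sum fun j _ => ?_
    have := star_right_conjugate_le_conjugate hq.le_one (nn e V j)
    rwa [mul_one, ← hq.isIdempotentElem.eq, ← mul_assoc, mul_assoc _ q, ← hq.isSelfAdjoint.star_eq,
      ← star_mul, hq.isSelfAdjoint.star_eq] at this
  have col : ‖∑ j, star (m j) * m j‖ ≤ 2 := by
    have e1 : ∑ j, star (nn e V j * q) * (nn e V j * q) = ∑ c, q * aa e V c * (q * e c c) := by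
      simp only [star_mul, hq.isSelfAdjoint.star_eq, mul_assoc, ← mul_sum]
      simp only [← mul_assoc, ← sum_mul]
      rw [nn_col he, mul_assoc, sum_mul]
      congr 1
      refine sum_congr rfl fun c _ => ?_
      rw [mul_assoc, he.mem_cmm.1 hqN, mul_assoc]
    have e2 : ∀ c, Eav L (q * aa e V c * (q * e c c)) =
        q * (Eav L (aa e V c - 1) + 1) * q * e c c := fun c => by
      rw [Eav_mul hqL fun s hs => by
        rw [← mul_assoc, hqL s hs, mul_assoc, ← he.mem_cmm.1 (hL.1 s hs).1, mul_assoc],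
        ← Eav_one fun s hs => (hL.1 s hs).2.2, ← Eav_add, Eav_one fun s hs => (hL.1 s hs).2.2,
        sub_add_cancel, ← mul_assoc]
    rw [h4, e1, Eav_sum]
    simp only [e2]
    refine norm_block (mu_EE he) (fun c => he.star c c) he.sum (fun c => ?_) zero_le_two fun c => ?_
    · exact (he.mem_cmm.1 (mul_mem (mul_mem hqN (add_mem (Eav_mem (fun s hs => (hL.1 s hs).1)
        (sub_mem (aa_mem he V c) (one_mem _))) (one_mem _))) hqN) c c).symm
    · rw [mul_assoc, add_mul, one_mul]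
      have h6 := norm_add_le (Eav L (aa e V c - 1) * q) q
      have h7 := hq.norm_le
      have h8 := hg c
      exact (norm_mul_le _ _).trans ((mul_le_of_le_one_left (norm_nonneg _) h7).trans (by linarith))
  rw [← h2]
  have h6 := norm_add_le (∑ j, star (m j) * m j) (∑ j, m j * star (m j))
  nlinarith [sq_nonneg γ]

end mu

end Rw

open Rw Finset

theorem row_bound {W : WS A} {P : Type v} {C : P → ℝ} {K : Set (Fam W P)} (τ : R95.Tr A)
    (hτ : τ.φ ∈ W.Φ) (hf : τ.Faithful) (hH : Halv (⊤ : StarSubalgebra ℂ A)) {k : ℕ}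
    {e : Fin (k + 1) → Fin (k + 1) → A} (he : MU e) (hK : Adm C K) (hi : Inv (US W P (cmm e)) K)
    (hM : ∀ y ∈ K, MM e y) (p : P) {γ : ℝ} (hγ : 0 ≤ γ)
    (h1 : ∀ y ∈ K, ∀ y' ∈ K, ∀ x, τ.n2 (y p x - y' p x) ≤ γ * ‖x‖)
    (h2 : ∀ y ∈ K, ∀ n ∈ unitary A, (∀ c, n * e c c = e c c * n) →
      ∀ x, τ.n2 (y p (x * n) - y p x * n) ≤ γ * ‖x‖)
    {y : Fam W P} (hy : y ∈ K) {V : A} (hV : V ∈ unitary A) (x : A) :
    ∑ c, τ.n2 (y p (x * e c c * V) - y p (x * e c c) * V) ^ 2 ≤ 200 * γ ^ 2 * ‖x‖ ^ 2 := by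
  have hN : R95.IsW τ (cmm e) := by
    have := isW_inf_centralizer hf (isW_top W hτ) (Set.range fun p : _ × _ => e p.1 p.2)
    rwa [top_inf_eq] at this
  have hH' : Halv (cmm e) := by
    have := Halv.cmm he (fun _ _ => StarSubalgebra.mem_top) hH
    rwa [top_inf_eq] at this
  set B := ∑ j, (2 * C p * ‖x‖ * ‖nn e V j‖) ^ 2 with hB
  have key : ∀ δ : ℝ, 0 < δ → ∑ c, τ.n2 (y p (x * e c c * V) - y p (x * e c c) * V) ^ 2 ≤
      150 * γ ^ 2 * ‖x‖ ^ 2 + 3 * B * (k + 1) * δ ^ 2 := by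
    intro δ hδ
    obtain ⟨L, hL, hLa⟩ := pauli hf hN hH' (fun c => aa e V c - 1)
      (fun c => sub_mem (aa_mem he V c) (one_mem _))
      (fun c z hz h => aa_orth τ he hV c (central he hz h)) hδ
    have gN : ∀ c, Eav L (aa e V c - 1) ∈ cmm e := fun c =>
      Eav_mem (fun s hs => (hL.1 s hs).1) (sub_mem (aa_mem he V c) (one_mem _))
    obtain ⟨q, hq, hc, hg, hr⟩ := cut W τ fun c => Eav L (aa e V c - 1)
    have hqN : q ∈ cmm e := he.mem_cmm.2 fun i j => hc _ (fun c => he.mem_cmm.1 (gN c) i j)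
      fun c => he.mem_cmm.1 (star_mem (gN c)) i j
    have hqL : ∀ s ∈ L, s * q = q * s := fun s hs => hc _ (fun c => Eav_comm hL _ s hs) fun c => by
      have := congrArg star (Eav_comm hL (aa e V c - 1) s hs)
      rw [star_mul, star_mul, (hL.1 s hs).2.1] at this
      exact this.symm
    have hr' : τ.n2 (1 - q) ^ 2 ≤ (k + 1) * δ ^ 2 := by
      refine hr.trans ((sum_le_card_nsmul _ _ (δ ^ 2) fun c _ =>
        pow_le_pow_left₀ (τ.n2_nonneg _) (hLa c) 2).trans ?_)
      simp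
    obtain ⟨y', hy', hfix⟩ := exists_fixed_pauli hK hi (L := (1 - (2 : ℂ) • q) :: L) (by
      refine ⟨List.forall_mem_cons.2 ⟨⟨sub_mem (one_mem _) ((cmm e).smul_mem hqN _), ?_, ?_⟩, hL.1⟩,
        List.pairwise_cons.2 ⟨fun s hs => Or.inl ?_, hL.2⟩⟩
      · simp [hq.isSelfAdjoint.star_eq]
      · simp only [two_smul, mul_sub, sub_mul, mul_add, add_mul, hq.isIdempotentElem.eq, mul_one,
          one_mul]
        abel
      · rw [mul_sub, sub_mul, mul_smul_comm, smul_mul_assoc, hqL s hs, mul_one, one_mul])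
    have hq' : ∀ w, y' p (w * q) = y' p w * q := fun w => by
      have := hfix _ List.mem_cons_self p w
      rw [mul_sub, mul_sub, mul_one, mul_one, map_sub, mul_smul_comm, mul_smul_comm, map_smul,
        sub_right_inj] at this
      exact smul_right_injective _ two_ne_zero this
    have k1 := main_est τ he hV hL hq hqN hqL hg (Dl (y' p) x)
      (fun s hs => Dl_mul (hfix s (List.mem_cons_of_mem _ hs) p) x) (γ := γ * ‖x‖) (by positivity)
      fun n hn hn' => h2 y' hy' n hn hn' x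
    have k2 : ∑ j, τ.n2 (Dl (y' p) x (nn e V j)) ^ 2 ≤
        48 * (γ * ‖x‖) ^ 2 + B * ((k + 1) * δ ^ 2) := by
      have e1 : ∀ j, τ.n2 (Dl (y' p) x (nn e V j)) ^ 2 = τ.n2 (Dl (y' p) x (nn e V j * q)) ^ 2 +
          τ.n2 (Dl (y' p) x (nn e V j) * (1 - q)) ^ 2 := fun j => by
        rw [Dl_mul hq', n2_mul_proj τ hq, n2_mul_proj τ hq.one_sub, ← Complex.add_re, ← map_add,
          ← mul_add, add_sub_cancel, mul_one, τ.n2_sq]
      simp only [e1]
      rw [sum_add_distrib, hB, sum_mul]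
      refine add_le_add k1 (sum_le_sum fun j _ => ?_)
      refine (pow_le_pow_left₀ (τ.n2_nonneg _) (τ.n2_mul_le_left _ _) 2).trans ?_
      rw [mul_pow]
      refine mul_le_mul (pow_le_pow_left₀ (norm_nonneg _) ((Dl_norm _ _ _).trans ?_) 2) hr'
        (sq_nonneg _) (sq_nonneg _)
      have := hK.bdd y' hy' p
      gcongr
    rw [sum_Dl τ he (hM y' hy' p)] at k2
    have k3 := sum_n2_signs τ he ((y p - y' p : A →L[ℂ] A) : A →ₗ[ℂ] A) hγ (h1 y hy y' hy') hV x
    have k4 : ∑ c, τ.n2 ((y p x - y' p x) * e c c) ^ 2 ≤ γ ^ 2 * ‖x‖ ^ 2 := by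
      rw [sum_n2_blocks τ he, ← mul_pow]
      exact pow_le_pow_left₀ (τ.n2_nonneg _) (h1 y hy y' hy' x) 2
    have k5 : ∀ c, τ.n2 (y p (x * e c c * V) - y p (x * e c c) * V) ^ 2 ≤
        3 * (τ.n2 (y' p (x * e c c * V) - y' p (x * e c c) * V) ^ 2 +
          τ.n2 (y p (x * e c c * V) - y' p (x * e c c * V)) ^ 2 +
          τ.n2 ((y p x - y' p x) * e c c) ^ 2) := fun c => by
      have e1 : y p (x * e c c * V) - y p (x * e c c) * V =
          y' p (x * e c c * V) - y' p (x * e c c) * V +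
          (y p (x * e c c * V) - y' p (x * e c c * V)) - (y p x - y' p x) * e c c * V := by
        rw [hM y hy, hM y' hy', sub_mul, sub_mul]
        abel
      have h3 := τ.n2_sub_le (y' p (x * e c c * V) - y' p (x * e c c) * V +
          (y p (x * e c c * V) - y' p (x * e c c * V))) ((y p x - y' p x) * e c c * V)
      rw [← e1, τ.n2_mul_unitary hV] at h3
      have h4 := pow_le_pow_left₀ (τ.n2_nonneg _) (h3.trans (add_le_add_left (τ.n2_add_le _ _) _)) 2
      refine h4.trans ?_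
      generalize τ.n2 (y' p (x * e c c * V) - y' p (x * e c c) * V) = a
      generalize τ.n2 (y p (x * e c c * V) - y' p (x * e c c * V)) = b
      generalize τ.n2 ((y p x - y' p x) * e c c) = d
      nlinarith [sq_nonneg (a - b), sq_nonneg (a - d), sq_nonneg (b - d)]
    refine (sum_le_sum fun c _ => k5 c).trans ?_
    rw [← mul_sum, sum_add_distrib, sum_add_distrib]
    simp only [ContinuousLinearMap.coe_coe, ContinuousLinearMap.sub_apply] at k3
    nlinarith
  have lim : Tendsto (fun δ : ℝ => 150 * γ ^ 2 * ‖x‖ ^ 2 + 3 * B * (k + 1) * δ ^ 2) (𝓝[>] 0)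
      (𝓝 (150 * γ ^ 2 * ‖x‖ ^ 2 + 3 * B * (k + 1) * 0 ^ 2)) :=
    Tendsto.mono_left (Continuous.tendsto (by fun_prop) 0) nhdsWithin_le_nhds
  have := ge_of_tendsto lim (eventually_nhdsWithin_of_forall key)
  nlinarith [mul_nonneg (sq_nonneg γ) (sq_nonneg ‖x‖)]

end Crest.Agent.R121
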