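import Crest.Agent.R121.Row
import Crest.Agent.R121.S1

/-!
# Row 121: the fixed point theorem in type II₁

PLAN.  `s1` makes a minimal set for the commutant of a large matrix algebra small in `‖·‖₂`
(hypotheses `h1`, `h2` of `row_bound`).  For a unitary `V` and random diagonal unitaries `Λ`,
`row_bound` and `chaos` show that `y (x c^m) c^{-m} ≈ y x` and `y (x c^{-m}) c^m ≈ y (x V⋆) V` for
`c = Λ V`; `fejer` then shows that `y` is almost fixed; compactness.
-/

set_option autoImplicit false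

namespace Crest.Agent.R121

open Filter Topology
open scoped ComplexConjugate ComplexOrder

universe u v

variable {A : Type u} [CStarAlgebra A]

/-- random diagonal unitaries -/
noncomputable def dg {ι : Type*} [Fintype ι] (E : ι → A) (ω : ℂ) {q : ℕ} (t : ι → Fin q) : A :=
  ∑ c, ω ^ (t c).val • E c

section

variable {ι : Type*} [Fintype ι] [DecidableEq ι] {E : ι → A}

omit [DecidableEq ι] in
theorem star_dg (hs : ∀ c, star (E c) = E c) (ω : ℂ) {q : ℕ} (t : ι → Fin q) :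
    star (dg E ω t) = dg E (conj ω) t := by
  simp [dg, star_sum, hs]

theorem dg_mul (hE : ∀ i j, E i * E j = if i = j then E i else 0) (h1 : ∑ c, E c = 1) {ω ω' : ℂ}
    (hω : ω * ω' = 1) {q : ℕ} (t : ι → Fin q) : dg E ω t * dg E ω' t = 1 := by
  simp only [dg, Finset.sum_mul, Finset.mul_sum, smul_mul_smul_comm, hE, smul_ite, smul_zero,
    Finset.sum_ite_eq', Finset.mem_univ, if_true, ← mul_pow, hω, one_pow, one_smul, h1]

theorem dg_unitary (hE : ∀ i j, E i * E j = if i = j then E i else 0) (h1 : ∑ c, E c = 1)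
    (hs : ∀ c, star (E c) = E c) {ω : ℂ} (hω : ‖ω‖ = 1) {q : ℕ} (t : ι → Fin q) :
    dg E ω t ∈ unitary A := by
  have h : ω * conj ω = 1 := by rw [Complex.mul_conj, Complex.normSq_eq_norm_sq, hω]; simp
  rw [Unitary.mem_iff, star_dg hs]
  exact ⟨dg_mul hE h1 (by rw [mul_comm, h]) t, dg_mul hE h1 h t⟩

theorem avg_delta (τ : R95.Tr A) (θ : A →L[ℂ] A)
    (hE : ∀ i j, E i * E j = if i = j then E i else 0) (h1 : ∑ c, E c = 1)
    (hs : ∀ c, star (E c) = E c) (hθ : ∀ x c, θ (x * E c) = θ x * E c) {ρ : ℝ} (hρ : 0 ≤ ρ)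
    (hrow : ∀ V ∈ unitary A, ∀ x,
      ∑ c, τ.n2 (θ (x * E c * V) - θ (x * E c) * V) ^ 2 ≤ ρ ^ 2 * ‖x‖ ^ 2)
    {N m : ℕ} (hm : m ≤ N) {ω : ℂ} (hω : IsPrimitiveRoot ω (N + 1)) {V : A} (hV : V ∈ unitary A)
    (x : A) :
    ∑ t : ι → Fin (N + 1), τ.n2 (θ (x * (dg E ω t * V) ^ m) - θ x * (dg E ω t * V) ^ m) ≤
      Fintype.card (ι → Fin (N + 1)) * (√N * ρ * ‖x‖) := by
  rcases m with _ | m
  · simp only [pow_zero, mul_one, sub_self, τ.n2_zero, Finset.sum_const_zero]; positivity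
  let u : A →ₗ[ℂ] τ.L2 := τ.toL2.toLinearMap ∘ₗ
    ((θ : A →ₗ[ℂ] A) ∘ₗ LinearMap.mulLeft ℂ x - LinearMap.mulLeft ℂ (θ x))
  have hu : ∀ v, ‖u v‖ = τ.n2 (θ (x * v) - θ x * v) := fun v => rfl
  have hc := chaos u E hE V (m := m) (q := N + 1) (by omega) hω
  simp only [hu] at hc
  have hn : ‖ω‖ = 1 := hω.norm'_eq_one (by omega)
  have hb : ∀ t : ι → Fin (N + 1), ∑ c, τ.n2 (θ (x * (E c * (dg E ω t * V) ^ (m + 1))) -
      θ x * (E c * (dg E ω t * V) ^ (m + 1))) ^ 2 ≤ ρ ^ 2 * ‖x‖ ^ 2 := fun t => by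
    have := hrow _ (pow_mem (mul_mem (dg_unitary hE h1 hs hn t) hV) (m + 1)) x
    simpa only [hθ, mul_assoc] using this
  have h2 := hc.trans (mul_le_mul_of_nonneg_left (Finset.sum_le_sum fun t _ => hb t)
    (by positivity))
  rw [Finset.sum_const, Finset.card_univ, nsmul_eq_mul] at h2
  refine le_of_sq_le_sq ((sq_sum_le_card_mul_sum_sq).trans ?_) (by positivity)
  rw [Finset.card_univ, mul_pow, mul_pow, mul_pow, Real.sq_sqrt (Nat.cast_nonneg N)]
  have hmN : ((m : ℝ) + 1) ≤ N := by exact_mod_cast hm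
  obtain ⟨T, hT⟩ : ∃ T : ℝ, T = Fintype.card (ι → Fin (N + 1)) := ⟨_, rfl⟩
  have hT0 : 0 ≤ T := hT ▸ Nat.cast_nonneg _
  rw [← hT] at h2 ⊢
  calc T * _ ≤ T * ((m + 1) * (T * (ρ ^ 2 * ‖x‖ ^ 2))) := mul_le_mul_of_nonneg_left h2 hT0
    _ ≤ T * (N * (T * (ρ ^ 2 * ‖x‖ ^ 2))) := by gcongr
    _ = _ := by ring

theorem phi_err (τ : R95.Tr A) (b d : A) {u : A} (hu : u ∈ unitary A) :
    ‖τ.φ (b * d * u)‖ ≤ ‖b‖ * τ.n2 d := by
  rw [mul_assoc]
  refine (τ.cs' _ _).trans ?_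
  rw [τ.n2_mul_unitary hu]
  exact mul_le_mul_of_nonneg_right (τ.n2_le_norm b) (τ.n2_nonneg d)

theorem almost_fixed (τ : R95.Tr A) (θ : A →L[ℂ] A)
    (hE : ∀ i j, E i * E j = if i = j then E i else 0) (h1 : ∑ c, E c = 1)
    (hs : ∀ c, star (E c) = E c) (hθ : ∀ x c, θ (x * E c) = θ x * E c) {ρ : ℝ} (hρ : 0 ≤ ρ)
    (hrow : ∀ V ∈ unitary A, ∀ x,
      ∑ c, τ.n2 (θ (x * E c * V) - θ (x * E c) * V) ^ 2 ≤ ρ ^ 2 * ‖x‖ ^ 2)
    {N : ℕ} {β : ℕ → ℝ} (hβ : Coef N β) {V : A} (hV : V ∈ unitary A) (x b : A) :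
    (∑ m ∈ Finset.range (N + 1), β m) * ‖τ.φ (b * (θ (x * star V) * V - θ x))‖ ≤
      8 * ‖θ‖ * ‖x‖ * ‖b‖ + (∑ m ∈ Finset.range (N + 1), β m) * (‖b‖ * (2 * (√N * ρ * ‖x‖))) := by
  obtain ⟨ω, hω⟩ : ∃ ω : ℂ, IsPrimitiveRoot ω (N + 1) := ⟨_, Complex.isPrimitiveRoot_exp _ (by omega)⟩
  have hω' : IsPrimitiveRoot (conj ω) (N + 1) :=
    hω.map_of_injective (f := starRingEnd ℂ) (RingHom.injective _)
  have hn : ‖ω‖ = 1 := hω.norm'_eq_one (by omega)
  have hV' : star V ∈ unitary A := Unitary.star_mem hV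
  let e₁ : (ι → Fin (N + 1)) → ℕ → ℝ := fun t m =>
    τ.n2 (θ (x * (dg E ω t * V) ^ m) - θ x * (dg E ω t * V) ^ m)
  let e₂ : (ι → Fin (N + 1)) → ℕ → ℝ := fun t m =>
    τ.n2 (θ (x * star V * (dg E (conj ω) t * star V) ^ (m - 1)) -
      θ (x * star V) * (dg E (conj ω) t * star V) ^ (m - 1))
  obtain ⟨D, hD⟩ : ∃ D, D = τ.φ (b * (θ (x * star V) * V - θ x)) := ⟨_, rfl⟩
  rw [← hD]
  have key : ∀ t : ι → Fin (N + 1), (∑ m ∈ Finset.range (N + 1), β m) * ‖D‖ ≤
      8 * ‖θ‖ * ‖x‖ * ‖b‖ + ∑ m ∈ Finset.range (N + 1), β m * (‖b‖ * (e₁ t m + e₂ t m)) := by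
    intro t
    have hΛ := dg_unitary hE h1 hs hn t
    have hc : dg E ω t * V ∈ unitary A := mul_mem hΛ hV
    have hf := fejer hβ τ θ hc x b
    obtain ⟨c, hc'⟩ : ∃ c, c = dg E ω t * V := ⟨_, rfl⟩
    rw [← hc'] at hc hf
    have hterm : ∀ m, ‖(β m : ℂ) * (τ.φ (b * θ (x * c ^ m) * star c ^ m) -
        τ.φ (b * θ (x * star c ^ m) * c ^ m)) + β m * D‖ ≤ β m * (‖b‖ * (e₁ t m + e₂ t m)) := by
      intro m
      rcases m with _ | m
      · simp [hβ.zero]
      rw [← mul_add, norm_mul, Complex.norm_real, Real.norm_of_nonneg (hβ.nonneg _)]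
      refine mul_le_mul_of_nonneg_left ?_ (hβ.nonneg _)
      have hL : θ (x * star V * (dg E (conj ω) t * star V) ^ m * dg E (conj ω) t) =
          θ (x * star V * (dg E (conj ω) t * star V) ^ m) * dg E (conj ω) t := by
        simp only [dg, Finset.mul_sum, mul_smul_comm, map_sum, map_smul, hθ]
      have hP : star c ^ (m + 1) = star V * (dg E (conj ω) t * star V) ^ m * dg E (conj ω) t := by
        rw [hc', star_mul, star_dg hs, pow_succ, ← mul_assoc, mul_pow_mul]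
      have hcc : c ^ (m + 1) * star c ^ (m + 1) = 1 := by
        rw [← star_pow]; exact Unitary.mul_star_self_of_mem (pow_mem hc _)
      have hcc' : star c ^ (m + 1) * c ^ (m + 1) = 1 := by
        rw [← star_pow]; exact Unitary.star_mul_self_of_mem (pow_mem hc _)
      have hQ : (dg E (conj ω) t * star V) ^ m * (dg E (conj ω) t * c ^ (m + 1)) = V := by
        have := congrArg (V * ·) hcc'
        simp only [hP, ← mul_assoc, Unitary.mul_star_self_of_mem hV, one_mul, mul_one] at this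
        simpa only [mul_assoc] using this
      have hu₂ : dg E (conj ω) t * c ^ (m + 1) ∈ unitary A :=
        mul_mem (star_dg hs ω t ▸ Unitary.star_mem hΛ) (pow_mem hc _)
      have e : τ.φ (b * θ (x * c ^ (m + 1)) * star c ^ (m + 1)) -
          τ.φ (b * θ (x * star c ^ (m + 1)) * c ^ (m + 1)) + D =
          τ.φ (b * (θ (x * c ^ (m + 1)) - θ x * c ^ (m + 1)) * star c ^ (m + 1)) -
          τ.φ (b * (θ (x * star V * (dg E (conj ω) t * star V) ^ m) -
            θ (x * star V) * (dg E (conj ω) t * star V) ^ m) * (dg E (conj ω) t * c ^ (m + 1))) := by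
        rw [hD, ← map_sub, ← map_sub, ← map_add]
        congr 1
        have h3 : θ (x * star c ^ (m + 1)) =
            θ (x * star V * (dg E (conj ω) t * star V) ^ m) * dg E (conj ω) t := by
          rw [← hL, hP]; simp only [mul_assoc]
        rw [h3]
        simp only [mul_sub, sub_mul, mul_assoc, hcc, hQ, mul_one]
        abel
      rw [e, mul_add]
      refine (norm_sub_le _ _).trans (add_le_add ?_ ?_)
      · exact hc' ▸ phi_err τ b _ (pow_mem (Unitary.star_mem (hc' ▸ hc)) _)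
      · exact phi_err τ b _ hu₂
    have h4 : ((∑ m ∈ Finset.range (N + 1), β m : ℝ) : ℂ) * D =
        ∑ m ∈ Finset.range (N + 1), ((β m : ℂ) * (τ.φ (b * θ (x * c ^ m) * star c ^ m) -
        τ.φ (b * θ (x * star c ^ m) * c ^ m)) + β m * D) - ∑ m ∈ Finset.range (N + 1),
        (β m : ℂ) * (τ.φ (b * θ (x * c ^ m) * star c ^ m) -
        τ.φ (b * θ (x * star c ^ m) * c ^ m)) := by
      rw [Finset.sum_add_distrib, add_sub_cancel_left, Complex.ofReal_sum, Finset.sum_mul]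
    have h5 := congrArg norm h4
    rw [norm_mul, Complex.norm_real,
      Real.norm_of_nonneg (Finset.sum_nonneg fun m _ => hβ.nonneg m)] at h5
    rw [h5]
    exact (norm_sub_le _ _).trans ((add_le_add
      ((norm_sum_le _ _).trans (Finset.sum_le_sum fun m _ => hterm m)) hf).trans (add_comm _ _).le)
  have hsum := Finset.sum_le_sum fun t (_ : t ∈ Finset.univ) => key t
  rw [Finset.sum_add_distrib, Finset.sum_const, Finset.sum_const, Finset.card_univ, nsmul_eq_mul,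
    nsmul_eq_mul, Finset.sum_comm] at hsum
  have hT : (0 : ℝ) < Fintype.card (ι → Fin (N + 1)) := by exact_mod_cast Fintype.card_pos
  refine le_of_mul_le_mul_left (hsum.trans ?_) hT
  rw [mul_add, Finset.sum_mul, Finset.mul_sum]
  refine add_le_add le_rfl (Finset.sum_le_sum fun m hm => ?_)
  have hm' : m ≤ N := Nat.lt_succ_iff.1 (Finset.mem_range.1 hm)
  have a1 := avg_delta τ θ hE h1 hs hθ hρ hrow hm' hω hV x
  have a2 := avg_delta τ θ hE h1 hs hθ hρ hrow (m := m - 1) (by omega) hω' hV' (x * star V)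
  rw [CStarRing.norm_mul_mem_unitary _ hV'] at a2
  rw [← Finset.mul_sum, ← Finset.mul_sum, Finset.sum_add_distrib]
  have := hβ.nonneg m
  refine (mul_le_mul_of_nonneg_left (mul_le_mul_of_nonneg_left (add_le_add a1 a2) (norm_nonneg b))
    this).trans (le_of_eq ?_)
  ring

end

theorem n2_le_of (τ : R95.Tr A) {d : A} {ε c : ℝ} (hε : 0 ≤ ε) (hc : 0 ≤ c) (hd : ‖d‖ ≤ 2 * c)
    (h : ‖τ.φ (star d * d)‖ ≤ ε * c * ‖star d‖) : τ.n2 d ≤ √(2 * ε) * c := by
  refine le_of_sq_le_sq ?_ (by positivity)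
  rw [mul_pow, Real.sq_sqrt (by positivity), τ.n2_sq]
  refine (Complex.re_le_norm _).trans (h.trans ?_)
  rw [norm_star]
  calc ε * c * ‖d‖ ≤ ε * c * (2 * c) := by gcongr
    _ = _ := by ring

section

variable {ι : Type*} [Fintype ι] [DecidableEq ι] {e : ι → ι → A}

/-- amplification of a corner -/
noncomputable def amp (e : ι → ι → A) (c : ι) (n : A) : A := ∑ l, e l c * n * e c l

theorem MU.mul' (he : MU e) (i j k l : ι) (x : A) :
    e i j * (e k l * x) = if j = k then e i l * x else 0 := by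
  rw [← mul_assoc, he.mul]; split_ifs <;> simp

theorem amp_mem (he : MU e) (c : ι) (n : A) : amp e c n ∈ cmm e := he.mem_cmm.2 fun i j => by
  simp [amp, Finset.mul_sum, Finset.sum_mul, mul_assoc, he.mul', he.mul]

theorem amp_mul_e (he : MU e) {c : ι} {n : A} (h : n * e c c = e c c * n) :
    amp e c n * e c c = n * e c c := by
  simp only [amp, Finset.sum_mul, mul_assoc, he.mul, mul_ite, mul_zero, Finset.sum_ite_eq',
    Finset.mem_univ, if_true, h, he.mul']

theorem amp_mul_amp (he : MU e) {c : ι} {n n' : A} (h : n * e c c = e c c * n) (h' : n * n' = 1) :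
    amp e c n * amp e c n' = 1 := by
  have : ∀ l, e l c * (n * (e c c * (n' * e c l))) = e l l := fun l => by
    rw [← mul_assoc n, h, mul_assoc, ← mul_assoc n, h', one_mul, he.mul', if_pos rfl, he.mul,
      if_pos rfl]
  simp only [amp, Finset.sum_mul, Finset.mul_sum, mul_assoc, he.mul', mul_ite, mul_zero,
    Finset.sum_ite_eq', Finset.mem_univ, if_true, this, he.sum]

theorem star_amp (he : MU e) (c : ι) (n : A) : star (amp e c n) = amp e c (star n) := by
  simp [amp, star_sum, he.star, mul_assoc]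

end

section

variable {W : WS A} {P : Type v} {C : P → ℝ} {K : Set (Fam W P)} (τ : R95.Tr A)
    (hτ : τ.φ ∈ W.Φ) {k : ℕ} {e : Fin (k + 1) → Fin (k + 1) → A} (he : MU e)
    (hK : IsMinS C (US W P (cmm e)) K) (hM : ∀ y ∈ K, MM e y) {N : ℕ} {β : ℕ → ℝ} (hβ : Coef N β)
    (hG : 0 < ∑ m ∈ Finset.range (N + 1), β m) (p : P)

theorem half_le {θ θ' : A →L[ℂ] A} {c : ℝ} (h : ‖θ‖ ≤ c) (h' : ‖θ'‖ ≤ c) :
    ‖(2⁻¹ : ℂ) • (θ + θ')‖ ≤ c := by
  rw [norm_smul, norm_inv, Complex.norm_two]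
  linarith [norm_add_le θ θ']

theorem sub_le_two {θ θ' : A →L[ℂ] A} {c : ℝ} (h : ‖θ‖ ≤ c) (h' : ‖θ'‖ ≤ c) (x : A) :
    ‖θ x - θ' x‖ ≤ 2 * (c * ‖x‖) := by
  have h1 := θ.le_of_opNorm_le h x
  have h2 := θ'.le_of_opNorm_le h' x
  linarith [norm_sub_le (θ x) (θ' x)]

include hτ he hK hM hβ hG

theorem small1 {y y' : Fam W P} (hy : y ∈ K) (hy' : y' ∈ K) (x : A) :
    τ.n2 (y p x - y' p x) ≤
      √(2 * (16 / (∑ m ∈ Finset.range (N + 1), β m) + 2 * N / (k + 1))) * C p * ‖x‖ := by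
  have hb := hK.adm.bdd y hy p
  have hb' := hK.adm.bdd y' hy' p
  have hC : 0 ≤ C p := (norm_nonneg _).trans hb
  have := s1 τ hτ he hK hM hβ hG p (fun _ => y) (fun _ => y') (fun _ => hy) (fun _ => hy')
    ((2⁻¹ : ℂ) • (y p + y' p)) (half_le hb hb')
    (fun z c => by simp [hM y hy p z c c, hM y' hy' p z c c, add_mul]) x (star (y p x - y' p x))
  rw [← map_sum, ← Finset.mul_sum, he.sum, mul_one, mul_assoc _ (C p)] at this
  rw [mul_assoc]
  exact n2_le_of τ (by positivity) (by positivity) (sub_le_two hb hb' x) this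

theorem small2 {y : Fam W P} (hy : y ∈ K) {n : A} (hn : n ∈ unitary A)
    (hc : ∀ c, n * e c c = e c c * n) (x : A) :
    τ.n2 (y p (x * n) - y p x * n) ≤
      √(2 * (16 / (∑ m ∈ Finset.range (N + 1), β m) + 2 * N / (k + 1))) * C p * ‖x‖ := by
  have hb := hK.adm.bdd y hy p
  have hn' := Unitary.star_mem hn
  have hb' : ‖act (star n) y p‖ ≤ C p := (norm_act_le hn' y p).trans hb
  have hC : 0 ≤ C p := (norm_nonneg _).trans hb
  have hc' : ∀ c, star n * e c c = e c c * star n := fun c => by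
    simpa [he.star] using (congrArg star (hc c)).symm
  have hu : ∀ c, amp e c (star n) ∈ unitary A := fun c => by
    rw [Unitary.mem_iff, star_amp he, star_star]
    exact ⟨amp_mul_amp he (hc c) (Unitary.mul_star_self_of_mem hn),
      amp_mul_amp he (hc' c) (Unitary.star_mul_self_of_mem hn)⟩
  have key : ∀ z c, act (amp e c (star n)) y p z * e c c = act (star n) y p z * e c c := by
    intro z c
    simp only [act_apply, star_amp he, star_star, mul_assoc, amp_mul_e he (hc' c), hc']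
    simp only [← mul_assoc, ← hM y hy p _ c c]
    rw [mul_assoc z, amp_mul_e he (hc c), mul_assoc z]
  have := s1 τ hτ he hK hM hβ hG p (fun c => act (amp e c (star n)) y) (fun _ => y)
    (fun c => hK.inv _ ⟨_, amp_mem he c _, hu c, rfl⟩ y hy) (fun _ => hy)
    ((2⁻¹ : ℂ) • (act (star n) y p + y p)) (half_le hb' hb)
    (fun z c => by
      rw [add_mul, key]
      simp only [smul_apply, add_apply, act_apply,
        star_star, hM y hy p z c c, mul_assoc, hc', ← hc]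
      simp only [← mul_assoc, hM y hy p _ c c]) x (star (act (star n) y p x - y p x))
  simp only [mul_assoc, sub_mul, key] at this
  simp only [← sub_mul] at this
  rw [← map_sum, ← Finset.mul_sum, ← Finset.mul_sum, he.sum, mul_one, ← mul_assoc, ← mul_assoc,
    mul_assoc _ (C p)] at this
  have h2 := n2_le_of τ (by positivity) (by positivity) (sub_le_two hb' hb x) this
  rw [← τ.n2_mul_unitary hn, sub_mul, act_apply, star_star, mul_assoc,
    Unitary.star_mul_self_of_mem hn, mul_one] at h2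
  rwa [mul_assoc]

end

theorem exists_almost (W : WS A) (τ : R95.Tr A) (hτ : τ.φ ∈ W.Φ) (hf : τ.Faithful)
    (hH : Halv (⊤ : StarSubalgebra ℂ A)) {P : Type v} {C : P → ℝ} {K : Set (Fam W P)}
    (hK : Adm C K) (hi : Inv (US W P ⊤) K) {ε : ℝ} (hε : 0 < ε) :
    ∃ y ∈ K, ∀ V ∈ unitary A, ∀ p x b,
      ‖τ.φ (b * (act V y p x - y p x))‖ ≤ ε * (C p * ‖x‖ * ‖b‖) := by
  obtain ⟨N, β, hβ, hG⟩ := exists_coef (16 / ε)
  have hG0 : 0 < ∑ m ∈ Finset.range (N + 1), β m := lt_of_lt_of_le (by positivity) hG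
  obtain ⟨δ, hδ, hδ'⟩ : ∃ δ : ℝ, 0 < δ ∧ 2 * (√N * (15 * √(2 * δ))) ≤ ε / 2 := by
    have : Tendsto (fun δ : ℝ => 2 * (√N * (15 * √(2 * δ)))) (𝓝[>] 0) (𝓝 0) :=
      tendsto_nhdsWithin_of_tendsto_nhds
        (Continuous.tendsto' (by fun_prop) _ _ (by simp))
    exact ((eventually_mem_nhdsWithin (a := (0 : ℝ)) (s := Set.Ioi 0)).and
      (this.eventually (ge_mem_nhds (by positivity)))).exists
  obtain ⟨N', β', hβ', hG'⟩ := exists_coef (32 / δ)
  have hG0' : 0 < ∑ m ∈ Finset.range (N' + 1), β' m := lt_of_lt_of_le (by positivity) hG'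
  obtain ⟨k₀, hk₀⟩ := exists_nat_ge (4 * N' / δ)
  obtain ⟨k, hk, e, he⟩ := exists_MU hH k₀
  obtain ⟨K', hK', hmin, hM⟩ := exists_min_MM he hK hi
  obtain ⟨y, hy⟩ := hmin.adm.ne
  refine ⟨y, hK' hy, fun V hV p x b => ?_⟩
  have hb := hmin.adm.bdd y hy p
  have hC : 0 ≤ C p := (norm_nonneg _).trans hb
  have hε₁ : 16 / (∑ m ∈ Finset.range (N' + 1), β' m) + 2 * N' / (k + 1) ≤ δ := by
    have h1 : 16 / (∑ m ∈ Finset.range (N' + 1), β' m) ≤ δ / 2 := by
      rw [div_le_iff₀ hG0']; rw [div_le_iff₀ hδ] at hG'; linarith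
    have h2 : 2 * N' / (k + 1) ≤ δ / 2 := by
      have : (k₀ : ℝ) ≤ k := by exact_mod_cast hk
      rw [div_le_iff₀ (by positivity)]; rw [div_le_iff₀ hδ] at hk₀; nlinarith
    linarith
  have hγ : ∀ x : A, √(2 * (16 / (∑ m ∈ Finset.range (N' + 1), β' m) + 2 * N' / (k + 1))) * C p *
      ‖x‖ ≤ √(2 * δ) * C p * ‖x‖ := fun x => by gcongr
  have hrow := fun V hV x => row_bound τ hτ hf hH he hmin.adm hmin.inv hM p
    (γ := √(2 * δ) * C p) (by positivity)
    (fun y hy y' hy' x => (small1 τ hτ he hmin hM hβ' hG0' p hy hy' x).trans (hγ x))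
    (fun y hy n hn hc x => (small2 τ hτ he hmin hM hβ' hG0' p hy hn hc x).trans (hγ x))
    hy (V := V) hV x
  have h := almost_fixed τ (y p) (E := fun c => e c c) (fun i j => by rw [he.mul]; split_ifs with h <;> simp [*])
    he.sum (fun c => he.star c c) (fun x c => hM y hy p x c c) (ρ := 15 * (√(2 * δ) * C p))
    (by positivity) (fun V hV x => (hrow V hV x).trans (by
      rw [mul_pow 15]; gcongr; norm_num)) hβ hV x b
  refine le_of_mul_le_mul_left (h.trans ?_) hG0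
  obtain ⟨G, hG'⟩ : ∃ G, G = ∑ m ∈ Finset.range (N + 1), β m := ⟨_, rfl⟩
  rw [← hG'] at hG hG0 ⊢
  rw [div_le_iff₀ hε] at hG
  have h1 : 8 * ‖y p‖ * ‖x‖ * ‖b‖ ≤ (G * ε / 2) * C p * ‖x‖ * ‖b‖ := by gcongr; linarith
  have h2 : G * (‖b‖ * (2 * (√N * (15 * (√(2 * δ) * C p)) * ‖x‖))) ≤
      G * (ε / 2) * (C p * ‖x‖ * ‖b‖) := by
    calc _ = G * (2 * (√N * (15 * √(2 * δ)))) * (C p * ‖x‖ * ‖b‖) := by ring
      _ ≤ _ := by gcongr
  linarith

theorem FP_II (W : WS A) (τ : R95.Tr A) (hτ : τ.φ ∈ W.Φ) (hf : τ.Faithful)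
    (hH : Halv (⊤ : StarSubalgebra ℂ A)) : FP W := by
  intro P C K hK hi
  let F : ℕ → Set (Fam W P) := fun n => K ∩ {y | ∀ V ∈ unitary A, ∀ p x b,
    ‖τ.φ (b * (act V y p x - y p x))‖ ≤ 1 / ((n : ℝ) + 1) * (C p * ‖x‖ * ‖b‖)}
  have hC : ∀ p, 0 ≤ C p := fun p => let ⟨y, hy⟩ := hK.ne; (norm_nonneg _).trans (hK.bdd y hy p)
  have hcl : ∀ n, IsClosed (F n) := fun n => by
    refine hK.closed.inter ?_
    simp only [Set.ofPred_forall]
    refine isClosed_iInter fun V => isClosed_iInter fun _ => isClosed_iInter fun p =>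
      isClosed_iInter fun x => isClosed_iInter fun b => isClosed_le ?_ continuous_const
    exact ((((WC.eval p _).mul_right V).sub (WC.eval p x)).mul_left b _ hτ).norm
  obtain ⟨y, hy⟩ := IsCompact.nonempty_iInter_of_sequence_nonempty_isCompact_isClosed F
    (fun n y hy => ⟨hy.1, fun V hV p x b => (hy.2 V hV p x b).trans (by
      have := hC p
      gcongr; omega)⟩)
    (fun n => exists_almost W τ hτ hf hH hK hi (ε := 1 / ((n : ℝ) + 1)) (by positivity))
    (hK.isCompact.of_isClosed_subset (hcl 0) Set.inter_subset_left) hcl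
  rw [Set.mem_iInter] at hy
  refine ⟨y, (hy 0).1, mod_of_fixed fun V hV => Fam.ext fun p x => sub_eq_zero.1 (hf _ ?_)⟩
  have h0 : ‖τ.φ (star (act V y p x - y p x) * (act V y p x - y p x))‖ ≤ 0 :=
    ge_of_tendsto' (by simpa using (tendsto_one_div_add_atTop_nhds_zero_nat (𝕜 := ℝ)).mul_const _)
      fun n => (hy n).2 V hV p x _
  rw [R95.Tr.n2, norm_le_zero_iff.1 h0]; simp

end Crest.Agent.R121
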