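import Crest.Agent.R121.Defs

/-! # Row 121: index bookkeeping, primitives -/

set_option autoImplicit false

namespace Crest.Agent.R121

open OpAlg

universe u

section

variable {M : Type*} [Mul M] {n : ℕ}

omit [Mul M] in
theorem succ_snoc (a : Fin (n + 1) → M) (x : M) :
    (fun i : Fin (n + 1) => (Fin.snoc a x : Fin (n + 2) → M) i.succ) =
      Fin.snoc (fun i : Fin n => a i.succ) x := by
  funext i
  refine Fin.lastCases ?_ (fun i => ?_) i
  · rw [Fin.succ_last, Fin.snoc_last, Fin.snoc_last]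
  · rw [Fin.succ_castSucc, Fin.snoc_castSucc, Fin.snoc_castSucc]

theorem merge_castSucc_snoc (a : Fin (n + 1) → M) (x : M) (j : Fin n) :
    mergeArgs j.castSucc (Fin.snoc a x : Fin (n + 2) → M) = Fin.snoc (mergeArgs j a) x := by
  funext i
  refine Fin.lastCases ?_ (fun i => ?_) i
  · have := j.2
    simp only [mergeArgs, Fin.snoc_last, Fin.val_last, Fin.val_castSucc]
    rw [if_neg (by omega), if_neg (by omega), Fin.succ_last, Fin.snoc_last]
  · simp only [mergeArgs, Fin.snoc_castSucc, Fin.val_castSucc, Fin.succ_castSucc]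

theorem merge_last_snoc (a : Fin (n + 1) → M) (x : M) :
    mergeArgs (Fin.last n) (Fin.snoc a x : Fin (n + 2) → M) =
      Fin.snoc (fun i : Fin n => a i.castSucc) (a (Fin.last n) * x) := by
  funext i
  refine Fin.lastCases ?_ (fun i => ?_) i
  · simp only [mergeArgs, Fin.snoc_last, lt_self_iff_false, if_false, if_true, Fin.snoc_castSucc,
      Fin.succ_last]
  · have := i.2
    simp only [mergeArgs, Fin.snoc_castSucc, Fin.val_last, Fin.val_castSucc]
    rw [if_pos this]

end

theorem hoch_snoc {M : Type*} [Ring M] {n : ℕ} (f : (Fin (n + 1) → M) → M) (a : Fin (n + 1) → M)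
    (x : M) :
    hochschildDiff f (Fin.snoc a x : Fin (n + 2) → M) =
      a 0 * f (Fin.snoc (fun i : Fin n => a i.succ) x) +
      (∑ i : Fin n, ((-1 : ℤ) ^ (i.val + 1)) • f (Fin.snoc (mergeArgs i a) x)) +
      ((-1 : ℤ) ^ (n + 1)) • f (Fin.snoc (fun i : Fin n => a i.castSucc) (a (Fin.last n) * x)) +
      ((-1 : ℤ) ^ (n + 2)) • (f a * x) := by
  rw [hochschildDiff, Fin.sum_univ_castSucc, succ_snoc, merge_last_snoc]
  simp only [merge_castSucc_snoc, Fin.snoc_castSucc, Fin.snoc_last, Fin.val_castSucc, Fin.val_last]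
  rw [show (Fin.snoc a x : Fin (n + 2) → M) 0 = a 0 from Fin.snoc_castSucc (i := 0) ..]
  abel

variable {A B : Type u} [CStarAlgebra A] [CStarAlgebra B] {W : WS B} {n : ℕ}

theorem WC.pd (j : A → B) (a : Fin (n + 1) → A) (x : B) :
    WC fun y : Fam W (Fin n → A) => PD j y a x :=
  (((WC.eval _ x).mul_left _).add (WC.sum _ fun _ _ => (WC.eval _ x).zsmul _)).add
    ((WC.eval _ _).zsmul _)

theorem isClosed_ML : IsClosed {y : Fam W (Fin n → A) | ML y} := by
  simp only [ML, Set.ofPred_forall]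
  refine isClosed_iInter fun a => isClosed_iInter fun i => isClosed_iInter fun c =>
    isClosed_iInter fun s => isClosed_iInter fun t => isClosed_iInter fun x => ?_
  exact (WC.eval _ x).isClosed_eq (((WC.eval _ x).smul c).add (WC.eval _ x))

/-- the set of multilinear primitives of `F` -/
def Prim (W : WS B) (j : A → B) (F : (Fin (n + 1) → A) → B) : Set (Fam W (Fin n → A)) :=
  {y | ML y ∧ ∀ a x, PD j y a x = F a * x}

theorem isClosed_Prim (j : A → B) (F : (Fin (n + 1) → A) → B) : IsClosed (Prim W j F) := by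
  refine isClosed_ML.inter (s₂ := {y : Fam W (Fin n → A) | ∀ a x, PD j y a x = F a * x}) ?_
  simp only [Set.ofPred_forall]
  exact isClosed_iInter fun a => isClosed_iInter fun x => (WC.pd j a x).isClosed_eq (WC.const _)

theorem PD_add (j : A → B) (y y' : Fam W (Fin n → A)) (a : Fin (n + 1) → A) (x : B) :
    PD j (y + y') a x = PD j y a x + PD j y' a x := by
  simp only [PD, Fam.add_apply, mul_add, smul_add, Finset.sum_add_distrib]; abel

theorem PD_smul (j : A → B) (c : ℂ) (y : Fam W (Fin n → A)) (a : Fin (n + 1) → A) (x : B) :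
    PD j (c • y) a x = c • PD j y a x := by
  simp only [PD, Fam.smul_apply, mul_smul_comm, smul_add, Finset.smul_sum, smul_comm c]

theorem PD_act (j : A → B) (u : B) (y : Fam W (Fin n → A)) (a : Fin (n + 1) → A) (x : B) :
    PD j (act u y) a x = PD j y a (x * star u) * u := by
  simp only [PD, act_apply, add_mul, Finset.sum_mul, smul_mul_assoc, mul_assoc]

theorem convex_Prim (j : A → B) (F : (Fin (n + 1) → A) → B) : Convex ℝ (Prim W j F) := by
  rintro y ⟨h1, h2⟩ y' ⟨h1', h2'⟩ s t - - hst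
  have e : s • y + t • y' = (s : ℂ) • y + (t : ℂ) • y' := Fam.ext fun p x => by simp
  rw [e]
  refine ⟨fun a i c u v x => ?_, fun a x => ?_⟩
  · simp only [Fam.add_apply, Fam.smul_apply, h1 a i c, h1' a i c]
    module
  · rw [PD_add, PD_smul, PD_smul, h2, h2', ← add_smul, ← Complex.ofReal_add, hst]; simp

theorem col_mem_Prim (j : A → B) (F : (Fin (n + 1) → A) → B) {ι : Type*} [Fintype ι] {m : ι → B}
    (hm : ∑ i, star (m i) * m i = 1) {y : Fam W (Fin n → A)} (hy : y ∈ Prim W j F) :
    col m y ∈ Prim W j F := by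
  refine ⟨fun a i c u v x => ?_, fun a x => ?_⟩
  · simp only [col_apply, hy.1 a i c, add_mul, smul_mul_assoc, Finset.sum_add_distrib,
      Finset.smul_sum]
  · have : PD j (col m y) a x = ∑ i, PD j y a (x * star (m i)) * m i := by
      simp only [PD, col_apply, add_mul, Finset.sum_mul, smul_mul_assoc, mul_assoc, Finset.mul_sum,
        Finset.smul_sum, Finset.sum_add_distrib]
      rw [Finset.sum_comm]
    rw [this]
    simp only [hy.2, mul_assoc, ← Finset.mul_sum, hm, mul_one]

theorem act_mem_Prim (j : A → B) (F : (Fin (n + 1) → A) → B) {u : B} (hu : u ∈ unitary B)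
    {y : Fam W (Fin n → A)} (hy : y ∈ Prim W j F) : act u y ∈ Prim W j F := by
  have := col_mem_Prim j F (m := fun _ : Unit => u)
    (by simpa using Unitary.star_mul_self_of_mem hu) hy
  simpa [col] using this

/-- a modular primitive gives a cochain -/
theorem exists_co_of_mod (ι : B →L[ℂ] A) (hι : ∀ b, ‖ι b‖ ≤ ‖b‖) {y : Fam W (Fin n → A)} (hy : ML y)
    {c : ℝ} (hc : 0 ≤ c) (hb : ∀ p, ‖y p‖ ≤ c * ∏ i, ‖p i‖) :
    ∃ g : Co A n, ‖g‖ ≤ c ∧ ∀ a, g a = ι (y a 1) := by
  have h1 : ‖(1 : B)‖ ≤ 1 := by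
    rcases subsingleton_or_nontrivial B with h | h
    · simp [Subsingleton.elim (1 : B) 0]
    · simp
  let g₀ : MultilinearMap ℂ (fun _ : Fin n => A) A := MultilinearMap.mk' (fun a => ι (y a 1))
    (fun a i s t => by simpa using congrArg ι (hy a i 1 s t 1))
    (fun a i c s => by
      have h0 := hy a i 1 0 0 1
      simp only [one_smul, add_zero, left_eq_add] at h0
      simpa [h0] using congrArg ι (hy a i c s 0 1))
  have hg : ∀ a, ‖g₀ a‖ ≤ c * ∏ i, ‖a i‖ := fun a =>
    (hι _).trans (((y a).le_opNorm 1).trans ((mul_le_of_le_one_right (norm_nonneg _) h1).trans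
      (hb a)))
  exact ⟨g₀.mkContinuous c hg, MultilinearMap.mkContinuous_norm_le _ hc _, fun _ => rfl⟩

end Crest.Agent.R121
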