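import Crest.Agent.R121.Chain

/-!
# Row 121: type decomposition

PLANS.
* `IsFin.sub`: `v + (1 - e)` is an isometry.
* `compl_equiv`: compare `e' = e - v⋆v` and `f' = f - v v⋆` after transport; on each central piece
  `x = v + w` satisfies `x⋆x = z e`, so `x u⋆` is an isometry on `z f`, finiteness gives equality.
* `copies`: either some finite orthogonal family of copies of `p` cannot be extended, or there is
  an infinite sequence `v n`, and the limit of `∑_{n<L} v (n+1) (v n)⋆` contradicts `IsFin.sub`.
  Compare the remainder `r` with `p`.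
* `typeI`: in `copies`, `g = w⋆w ≤ z e`; since `e` is abelian `(z e - g) A g = 0`; use `central {g}`:
  either `g = z e` (add `w` to the family) or cut by the central projection killing `g`.
-/

set_option autoImplicit false

namespace Crest.Agent.R121

open Filter Topology
open scoped ComplexConjugate ComplexOrder

universe u v

variable {A : Type u} [CStarAlgebra A]

theorem IsPI.st_mul {v : A} (h : IsPI v) : v * (star v * v) = v := by
  rw [← mul_assoc]; exact h

theorem IsPI.st_star {v : A} (h : IsPI v) : IsPI (star v) := by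
  have := congrArg star (show v * star v * v = v from h)
  rw [star_mul, star_mul, star_star, ← mul_assoc] at this
  rw [IsPI, star_star]
  exact this

theorem st_star_eq {e v : A} (he : star e = e) (h : e * v = v) : star v * e = star v := by
  rw [← he, ← star_mul, h]

theorem st_star_eq' {e v : A} (he : star e = e) (h : v * e = v) : e * star v = star v := by
  rw [← he, ← star_mul, h]

theorem IsFin.sub (h : IsFin A) {e v : A} (he : IsStarProjection e) (h1 : star v * v = e)
    (h2 : e * v = v) : v * star v = e := by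
  have se := he.isSelfAdjoint.star_eq
  have ee := he.isIdempotentElem.eq
  have h3 : v * e = v := by rw [← h1]; exact (isPI_of_proj (h1 ▸ he)).st_mul
  have h4 := st_star_eq se h2
  have h5 := st_star_eq' se h3
  have h6 := h (v + (1 - e)) (by
    simp only [star_add, star_sub, star_one, se, add_mul, mul_add, sub_mul, mul_sub, one_mul,
      mul_one, h1, h2, h4, ee]
    abel)
  simp only [star_add, star_sub, star_one, se, add_mul, mul_add, sub_mul, mul_sub, one_mul,
    mul_one, h3, h5, ee, sub_self, add_zero] at h6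
  rw [← sub_eq_zero, ← sub_self (1 : A)]
  nth_rewrite 1 [← h6]
  abel

theorem IsCP.st_one_sub {z : A} (h : IsCP z) : IsCP (1 - z) :=
  ⟨h.1.one_sub, fun a => by rw [sub_mul, mul_sub, h.2, one_mul, mul_one]⟩

theorem IsCP.st_mul {z z' : A} (h : IsCP z) (h' : IsCP z') : IsCP (z * z') :=
  ⟨h.1.mul h'.1 (h.2 z'), fun a => by rw [mul_assoc, h'.2, ← mul_assoc, h.2, mul_assoc]⟩

theorem IsCP.st_mul_proj {z p : A} (h : IsCP z) (hp : IsStarProjection p) :
    IsStarProjection (z * p) := h.1.mul hp (h.2 p)

/-- an element with `v⋆ v = z p` is fixed by `z` and by `p` -/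
theorem IsCP.st_fix {z p v : A} (h : IsCP z) (hp : IsStarProjection p) (hv : star v * v = z * p) :
    z * v = v ∧ v * p = v := by
  have h1 : v * (z * p) = v := by rw [← hv]; exact (isPI_of_proj (hv ▸ h.st_mul_proj hp)).st_mul
  constructor
  · nth_rewrite 1 [← h1]
    rw [← mul_assoc, h.2, mul_assoc, ← mul_assoc z, h.1.isIdempotentElem.eq, h1]
  · nth_rewrite 1 [← h1]
    rw [mul_assoc, mul_assoc, hp.isIdempotentElem.eq, h1]

theorem IsPI.st_sub_proj {e v : A} (hv : IsPI v) (he : IsStarProjection e) (h1 : v * e = v) :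
    IsStarProjection (e - star v * v) :=
  hv.proj_left.sub_of_mul_eq_left he (by rw [mul_assoc, h1])

theorem IsFin.st_half (h : IsFin A) {e f u v z w : A} (he : IsStarProjection e)
    (hu : star u * u = e) (hu' : u * star u = f) (hv : IsPI v) (h1 : v * e = v) (h2 : f * v = v)
    (hz : IsCP z) (hw : star w * w = z * (e - star v * v)) (hw' : (f - v * star v) * w = w) :
    w * star w = z * (f - v * star v) := by
  have pu : IsPI u := isPI_of_proj (hu ▸ he)
  have hf : IsStarProjection f := hu' ▸ pu.proj_right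
  have se := he.isSelfAdjoint.star_eq
  have sf := hf.isSelfAdjoint.star_eq
  have sz := hz.1.isSelfAdjoint.star_eq
  have zz := hz.1.isIdempotentElem.eq
  have ue : u * e = u := hu ▸ pu.st_mul
  obtain ⟨zw, we⟩ := hz.st_fix (hv.st_sub_proj he h1) hw
  have a1 : star v * w = 0 := by
    rw [← hw', ← mul_assoc, mul_sub, st_star_eq sf h2, ← mul_assoc]
    have := hv.st_star
    rw [IsPI, star_star] at this
    rw [this, sub_self, zero_mul]
  have a2 : star w * v = 0 := by simpa using congrArg star a1
  have a3 : w * star v = 0 := by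
    rw [← we, mul_assoc, sub_mul, st_star_eq' se h1]
    have := hv.st_star
    rw [IsPI, star_star] at this
    rw [this, sub_self, mul_zero]
  have a4 : v * star w = 0 := by simpa using congrArg star a3
  have fw : f * w = w := by
    nth_rewrite 1 [← hw']
    rw [← mul_assoc, mul_sub, hf.isIdempotentElem.eq, ← mul_assoc, h2, hw']
  have we' : w * e = w := by
    nth_rewrite 1 [← we]
    rw [mul_assoc, sub_mul, he.isIdempotentElem.eq, mul_assoc, h1, we]
  have zc : ∀ a b, a * (z * b) = z * (a * b) := fun a b => by rw [← mul_assoc, ← hz.2, mul_assoc]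
  have zz' : ∀ b, z * (z * b) = z * b := fun b => by rw [← mul_assoc, zz]
  have b1 : star (z * v + w) * (z * v + w) = z * e := by
    rw [star_add, star_mul, sz, ← hz.2, add_mul, mul_add, mul_add, hw, mul_assoc, mul_assoc,
      zc (star v), zc (star w), zz', a1, a2, mul_sub]
    simp
  have b2 : (z * v + w) * star (z * v + w) = z * (v * star v) + w * star w := by
    rw [star_add, star_mul, sz, ← hz.2, add_mul, mul_add, mul_add, mul_assoc, mul_assoc,
      zc v, zc w, zz', a3, a4]
    simp
  have b3 : (z * v + w) * e = z * v + w := by rw [add_mul, mul_assoc, h1, we']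
  have b4 := h.sub (v := (z * v + w) * star u) (hz.st_mul_proj hf)
    (by rw [star_mul, star_star, mul_assoc, ← mul_assoc (star _), b1, ← mul_assoc, ← mul_assoc,
      ← hz.2, mul_assoc z, ue, mul_assoc, hu'])
    (by rw [← mul_assoc, mul_add, mul_assoc z f w, fw, zw, mul_assoc z f, ← mul_assoc f, ← hz.2,
      mul_assoc z f, h2, ← mul_assoc z z, zz])
  rw [star_mul, star_star, mul_assoc, ← mul_assoc (star u), hu, ← mul_assoc, b3, b2] at b4
  rw [mul_sub, ← b4]; abel

theorem WS.compl_equiv (W : WS A) (h : IsFin A) {e f u v : A} (he : IsStarProjection e)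
    (hu : star u * u = e) (hu' : u * star u = f) (hv : IsPI v) (h1 : v * e = v) (h2 : f * v = v) :
    ∃ w, star w * w = e - star v * v ∧ w * star w = f - v * star v := by
  have pu : IsPI u := isPI_of_proj (hu ▸ he)
  have hf : IsStarProjection f := hu' ▸ pu.proj_right
  have h1' := st_star_eq' he.isSelfAdjoint.star_eq h1
  have h2' := st_star_eq hf.isSelfAdjoint.star_eq h2
  have pe := hv.st_sub_proj he h1
  have pf := hv.st_star.st_sub_proj hf h2'
  rw [star_star] at pf
  obtain ⟨z, hz, ⟨v₁, a1, a2⟩, v₂, b1, b2⟩ := W.comparison pe pf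
  have a3 := h.st_half he hu hu' hv h1 h2 hz a1 a2
  have b3 := h.st_half (u := star u) (v := star v) (w := v₂) hf (by rw [star_star, hu'])
    (by rw [star_star, hu]) hv.st_star h2' h1' hz.st_one_sub (by rw [star_star, b1])
    (by rw [star_star, b2])
  rw [star_star] at b3
  have a4 := (hz.st_fix pe a1).1
  have b4 := (hz.st_one_sub.st_fix pf b1).1
  have b5 : z * v₂ = 0 := by
    rw [← b4, ← mul_assoc, mul_sub, mul_one, hz.1.isIdempotentElem.eq, sub_self, zero_mul]
  have c1 : v₂ * v₁ = 0 := by rw [← a4, ← mul_assoc, ← hz.2, b5, zero_mul]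
  have c2 : v₁ * v₂ = 0 := by rw [← a4, hz.2, mul_assoc, b5, mul_zero]
  have c3 : star v₁ * star v₂ = 0 := by rw [← star_mul, c1, star_zero]
  have c4 : star v₂ * star v₁ = 0 := by rw [← star_mul, c2, star_zero]
  refine ⟨v₁ + star v₂, ?_, ?_⟩
  · rw [star_add, star_star, add_mul, mul_add, mul_add, a1, b3, c1, c3, sub_mul 1 z]
    simp
  · rw [star_add, star_star, add_mul, mul_add, mul_add, a3, b1, c2, c4, sub_mul 1 z]
    simp

/-- an orthogonal family of copies of `p` -/
theorem st_orth_fix {ι : Type*} [DecidableEq ι] {p : A} (hp : IsStarProjection p) {v : ι → A}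
    (hv : ∀ i j, star (v i) * v j = if i = j then p else 0) (i : ι) : v i * p = v i := by
  have := hv i i
  rw [if_pos rfl] at this
  rw [← this]
  exact (isPI_of_proj (this ▸ hp)).st_mul

theorem st_orth_mul_sum {ι : Type*} [DecidableEq ι] {p : A} (hp : IsStarProjection p) {v : ι → A}
    (hv : ∀ i j, star (v i) * v j = if i = j then p else 0) (s : Finset ι) (i : ι) :
    star (v i) * ∑ j ∈ s, v j * star (v j) = if i ∈ s then star (v i) else 0 := by
  simp only [Finset.mul_sum, ← mul_assoc, hv, ite_mul, zero_mul, Finset.sum_ite_eq,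
    st_star_eq' hp.isSelfAdjoint.star_eq (st_orth_fix hp hv _)]

theorem st_orth_proj {ι : Type*} [DecidableEq ι] {p : A} (hp : IsStarProjection p) {v : ι → A}
    (hv : ∀ i j, star (v i) * v j = if i = j then p else 0) (s : Finset ι) :
    IsStarProjection (∑ j ∈ s, v j * star (v j)) := by
  refine ⟨?_, by simp only [IsSelfAdjoint, star_sum, star_mul, star_star]⟩
  rw [IsIdempotentElem, Finset.sum_mul]
  exact Finset.sum_congr rfl fun i hi => by rw [mul_assoc, st_orth_mul_sum hp hv, if_pos hi]

theorem WS.st_no_seq (W : WS A) (h : IsFin A) {p : A} (hp : IsStarProjection p) {v : ℕ → A}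
    (hv : ∀ i j, star (v i) * v j = if i = j then p else 0) : p = 0 := by
  let t : ℕ → A := fun L => ∑ n ∈ Finset.range L, v (n + 1) * star (v n)
  let E : ℕ → A := fun L => ∑ n ∈ Finset.range L, v n * star (v n)
  have f1 := st_orth_fix hp hv
  have f2 : ∀ i, p * star (v i) = star (v i) := fun i =>
    st_star_eq' hp.isSelfAdjoint.star_eq (f1 i)
  have e0 : ∀ L i, star (v (i + 1)) * t L = if i ∈ Finset.range L then star (v i) else 0 :=
    fun L i => by
    simp only [t, Finset.mul_sum, ← mul_assoc, hv, ite_mul, zero_mul, add_left_inj,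
      Finset.sum_ite_eq, f2]
  have e1 : ∀ L, star (t L) * t L = E L := fun L => by
    conv_lhs => enter [1]; simp only [t, star_sum, star_mul, star_star]
    rw [Finset.sum_mul]
    exact Finset.sum_congr rfl fun i hi => by rw [mul_assoc, e0, if_pos hi]
  have e2 : ∀ i j, i ≤ j → t j * E i = t i := fun i j hij => by
    simp only [t, Finset.sum_mul, mul_assoc, E, st_orth_mul_sum hp hv, mul_ite, mul_zero]
    rw [← Finset.sum_filter, Finset.filter_mem_eq_inter,
      Finset.inter_eq_right.2 (Finset.range_mono hij)]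
  obtain ⟨T, h1, -, h2, h3, h4⟩ := W.chain (Ultrafilter.of (atTop : Filter ℕ)) (Ultrafilter.of_le _)
    t (fun i => by rw [IsPI, mul_assoc, e1, e2 i i le_rfl]) (fun i j hij => by rw [e1, e2 i j hij])
  simp only [e1] at h3
  have g1 : ∀ i, star (v i) * (star T * T) = star (v i) := fun i =>
    (h3.mul_left _).unique ((WS.T.const W _ _).congr' (by
      filter_upwards [(Ultrafilter.of_le atTop) (eventually_gt_atTop i)] with L hL
      simp only [E]
      rw [st_orth_mul_sum hp hv, if_pos (Finset.mem_range.2 hL)]))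
  have g2 : ∀ i, star T * T * v i = v i := fun i => by
    simpa [mul_assoc] using congrArg star (g1 i)
  have g3 : star T * T * T = T := (h2.mul_left _).unique (h2.congr' (Eventually.of_forall fun L => by
    simp only [t, Finset.mul_sum, ← mul_assoc (star T * T), g2]))
  have g4 := h.sub h1.proj_left rfl g3
  have g5 : star (v 0) * T = 0 :=
    (h2.mul_left _).unique ((WS.T.const W _ _).congr' (Eventually.of_forall fun L => by
      simp [t, Finset.mul_sum, ← mul_assoc, hv]))
  have g6 := g1 0
  rw [← g4, ← mul_assoc, g5, zero_mul] at g6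
  have := hv 0 0
  rw [← g6, zero_mul, if_pos rfl] at this
  exact this.symm

theorem WS.st_exists_max_orth (W : WS A) (h : IsFin A) {p : A} (hp : IsStarProjection p)
    (h0 : p ≠ 0) : ∃ (n : ℕ) (v : Fin (n + 1) → A),
      (∀ i j, star (v i) * v j = if i = j then p else 0) ∧
      ∀ u, star u * u = p → ¬ ∀ i, star (v i) * u = 0 := by
  classical
  let Q : Finset A → Prop := fun s => ∀ x ∈ s, star x * x = p ∧ ∀ y ∈ s, x ≠ y → star x * y = 0
  obtain ⟨s, hs, hmax⟩ : ∃ s, Q s ∧ ∀ u, star u * u = p → ¬ ∀ x ∈ s, star x * u = 0 := by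
    by_contra hc
    push Not at hc
    choose f f1 f2 using hc
    let nx : {s // Q s} → {s // Q s} := fun s => ⟨insert (f s.1 s.2) s.1, by
      intro x hx
      rcases Finset.mem_insert.1 hx with rfl | hx
      · refine ⟨f1 _ _, fun y hy hne => ?_⟩
        simpa using congrArg star (f2 _ s.2 y ((Finset.mem_insert.1 hy).resolve_left hne.symm))
      · refine ⟨(s.2 x hx).1, fun y hy hne => ?_⟩
        rcases Finset.mem_insert.1 hy with rfl | hy
        · exact f2 _ _ x hx
        · exact (s.2 x hx).2 y hy hne⟩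
    let S : ℕ → {s // Q s} := fun n => nx^[n] ⟨∅, by simp [Q]⟩
    have hS : ∀ n, (S (n + 1)).1 = insert (f (S n).1 (S n).2) (S n).1 := fun n => by
      simp only [S, Function.iterate_succ_apply']; rfl
    have mono : Monotone fun n => (S n).1 := monotone_nat_of_le_succ fun n => by
      rw [hS]; exact Finset.subset_insert _ _
    have lt : ∀ i j, i < j → star (f (S i).1 (S i).2) * f (S j).1 (S j).2 = 0 := fun i j hij =>
      f2 _ _ _ (mono (Nat.succ_le_of_lt hij) (by
        change _ ∈ (S (i + 1)).1
        rw [hS]; exact Finset.mem_insert_self _ _))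
    refine h0 (W.st_no_seq h hp (v := fun n => f (S n).1 (S n).2) fun i j => ?_)
    rcases lt_trichotomy i j with hij | rfl | hij
    · rw [if_neg hij.ne, lt i j hij]
    · rw [if_pos rfl, f1]
    · rw [if_neg hij.ne']
      simpa using congrArg star (lt j i hij)
  have hne : s.card ≠ 0 := fun hc => hmax p
    (by rw [hp.isSelfAdjoint.star_eq, hp.isIdempotentElem.eq]) (by simp [Finset.card_eq_zero.1 hc])
  obtain ⟨n, hn⟩ := Nat.exists_eq_succ_of_ne_zero hne
  let e := (Finset.equivFinOfCardEq hn).symm
  refine ⟨n, fun i => e i, fun i j => ?_, fun u hu hc => hmax u hu fun x hx => ?_⟩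
  · split_ifs with hij
    · rw [hij]; exact (hs _ (e j).2).1
    · exact (hs _ (e i).2).2 _ (e j).2 fun hc => hij (e.injective (Subtype.ext hc))
  · simpa using hc (e.symm ⟨x, hx⟩)

theorem IsCP.st_cut {ι : Type*} [Fintype ι] [DecidableEq ι] {z p : A} (hz : IsCP z) {v : ι → A}
    (hv : ∀ i j, star (v i) * v j = if i = j then p else 0) :
    (∀ i j, star (z * v i) * (z * v j) = if i = j then z * p else 0) ∧
      ∑ i, z * v i * star (z * v i) = z * ∑ i, v i * star (v i) := by
  have sz := hz.1.isSelfAdjoint.star_eq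
  have zz := hz.1.isIdempotentElem.eq
  refine ⟨fun i j => ?_, ?_⟩
  · rw [star_mul, sz, mul_assoc, ← mul_assoc z, zz, ← mul_assoc, ← hz.2, mul_assoc, hv]
    split_ifs <;> simp
  · rw [Finset.mul_sum]
    refine Finset.sum_congr rfl fun i _ => ?_
    rw [star_mul, sz, mul_assoc, ← mul_assoc (v i), ← hz.2, ← mul_assoc, zz]

theorem WS.copies (W : WS A) (h : IsFin A) {p : A} (hp : IsStarProjection p) (h0 : p ≠ 0) :
    ∃ z, IsCP z ∧ z * p ≠ 0 ∧ ∃ (n : ℕ) (v : Fin (n + 1) → A) (w : A),
      (∀ i j, star (v i) * v j = if i = j then z * p else 0) ∧ IsPI w ∧ w * (z * p) = w ∧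
      ∑ i, v i * star (v i) + w * star w = z := by
  obtain ⟨n, v, hv, hmax⟩ := W.st_exists_max_orth h hp h0
  have pr := (st_orth_proj hp hv Finset.univ).one_sub
  obtain ⟨z, hz, ⟨v₁, a1, a2⟩, v₂, b1, b2⟩ := W.comparison hp pr
  obtain ⟨c1, c2⟩ := hz.st_one_sub.st_cut hv
  refine ⟨1 - z, hz.st_one_sub, fun hc => hmax v₁ ?_ fun i => ?_, n, fun i => (1 - z) * v i, star v₂,
    c1, (isPI_of_proj (b1 ▸ hz.st_one_sub.st_mul_proj pr)).st_star, ?_, ?_⟩
  · rw [sub_mul, one_mul, sub_eq_zero] at hc
    rw [a1, ← hc]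
  · rw [← a2, ← mul_assoc, mul_sub, st_orth_mul_sum hp hv]; simp
  · refine st_star_eq (hz.st_one_sub.st_mul_proj hp).isSelfAdjoint.star_eq ?_
    rw [mul_assoc, b2, (hz.st_one_sub.st_fix pr b1).1]
  · rw [c2, star_star, b1, ← mul_add]; simp

theorem WS.typeI (W : WS A) (h : IsFin A) {e : A} (he : IsAb e) (h0 : e ≠ 0) :
    ∃ z, IsCP z ∧ z ≠ 0 ∧ ∃ (n : ℕ) (v : Fin (n + 1) → A),
      (∀ i j, star (v i) * v j = if i = j then z * e else 0) ∧ ∑ i, v i * star (v i) = z := by
  obtain ⟨z, hz, hz0, n, v, w, h1, h2, h3, h4⟩ := W.copies h he.1 h0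
  obtain ⟨c, hc, h5⟩ := W.central {star w * w}
  simp only [Set.mem_singleton_iff, forall_eq] at h5
  have pz := hz.st_mul_proj he.1
  have ee := he.1.isIdempotentElem.eq
  have cg : c * (star w * w) = 0 := by simpa using (h5 c).2 hc.1.isIdempotentElem.eq 1
  have cw : c * w = 0 := by
    rw [← h2.st_mul, ← mul_assoc, hc.2, mul_assoc, cg, mul_zero]
  by_cases hcz : c * z = 0
  · have we : w * e = w := by
      nth_rewrite 1 [← h3]
      rw [mul_assoc, mul_assoc, ee, h3]
    have g1 : star w * w * e = star w * w := by rw [mul_assoc, we]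
    have g2 : e * (star w * w) = star w * w := by
      rw [← mul_assoc, st_star_eq' he.1.isSelfAdjoint.star_eq we]
    have g3 : z * e * (star w * w) = star w * w := by
      rw [← mul_assoc, st_star_eq' pz.isSelfAdjoint.star_eq h3]
    have g4 : (z * e - star w * w) * (star w * w) = 0 := by
      rw [sub_mul, g3, h2.proj_left.isIdempotentElem.eq, sub_self]
    have g5 : (z * e - star w * w) * e = z * e - star w * w := by rw [sub_mul, g1, mul_assoc, ee]
    have g6 := (h5 (z * e - star w * w)).1 fun x => by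
      have b := he.2 x (star w * w)
      rw [g2, g1, mul_assoc _ (star w * w) e, g1, mul_assoc _ e, g2] at b
      rw [← g5, mul_assoc, mul_assoc, ← mul_assoc e, b, mul_assoc (star w * w), ← mul_assoc, g4,
        zero_mul]
    rw [← hc.2, mul_sub, cg, ← mul_assoc, hcz, zero_mul, sub_zero, eq_comm, sub_eq_zero] at g6
    have g7 : ∀ i, star (v i) * w = 0 := fun i => by
      have b1 := (hz.st_fix he.1 (by rw [h1, if_pos rfl] : star (v i) * v i = z * e)).1
      have b2 : star (v i) * (w * star w) = 0 := by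
        rw [eq_sub_of_add_eq' h4, mul_sub, st_orth_mul_sum pz h1,
          st_star_eq hz.1.isSelfAdjoint.star_eq b1]
        simp
      rw [← h2, ← mul_assoc, b2, zero_mul]
    have g8 : ∀ i, star w * v i = 0 := fun i => by simpa using congrArg star (g7 i)
    refine ⟨z, hz, fun hc => hz0 (by rw [hc, zero_mul]), n + 1, Fin.cons w v, fun i j => ?_, ?_⟩
    · refine Fin.cases ?_ (fun i => ?_) i <;> refine Fin.cases ?_ (fun j => ?_) j
      · simpa using g6.symm
      · simp [g8, (Fin.succ_ne_zero j).symm]
      · simp [g7]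
      · simp [h1]
    · rw [Fin.sum_univ_succ, add_comm]
      simpa using h4
  · obtain ⟨c1, c2⟩ := hc.st_cut h1
    refine ⟨c * z, hc.st_mul hz, hcz, n, fun i => c * v i, fun i j => by rw [c1, mul_assoc], ?_⟩
    rw [c2, ← h4, mul_add, ← mul_assoc c w, cw, zero_mul, add_zero]

end Crest.Agent.R121
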